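import Vale.Agent.Lib.P328B.ChainDefs
import Vale.Agent.Lib.P328U.MixFlow
import Vale.Agent.Lib.P328Q.Mixing

/-!
The lazy multi-scale chain: it lives on the tables, it is symmetric and stochastic, its Dirichlet form,
and the warm start total variation bound from a weak Poincare inequality.
-/

namespace Vale.Agent.Lib.P328B

open Finset
open Vale.Agent.Lib.P328 Vale.Agent.Lib.P328U Vale.Agent.Lib.P328Q

noncomputable section

variable {m n : ℕ}

theorem ms_mem_Tab {r : Fin m → ℕ} {c : Fin n → ℕ} {X : Tb m (Fin n)} :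
    X ∈ Tab r c ↔ (∀ i, rowS X i = r i) ∧ ∀ j, colS X j = c j := mix_mem_Tab

/-- Integer form of a move which applies. -/
theorem ms_move_int {s : ℕ} {i k : Fin m} {j u : Fin n} {X : Tb m (Fin n)} (hv : msValid s i k j u X)
    (a : Fin m) (b : Fin n) :
    ((msMove s i k j u X a b : ℕ) : ℤ) = (X a b : ℤ) + (if a = i ∧ b = j then (s : ℤ) else 0)
      + (if a = k ∧ b = u then (s : ℤ) else 0) - (if a = i ∧ b = u then (s : ℤ) else 0)
      - (if a = k ∧ b = j then (s : ℤ) else 0) := by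
  obtain ⟨hik, hju, h1, h2⟩ := hv
  unfold msMove
  by_cases ha : a = i
  · subst ha
    have hak : a ≠ k := hik
    by_cases hb : b = j
    · subst hb
      have hbl : b ≠ u := hju
      simp [hak, hbl]
    · by_cases hbl : b = u
      · subst hbl
        simp [hak, hb]
        omega
      · simp [hak, hb, hbl]
  · by_cases hak : a = k
    · subst hak
      by_cases hb : b = j
      · subst hb
        have hbl : b ≠ u := hju
        simp [ha, hbl]
        omega
      · by_cases hbl : b = u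
        · subst hbl
          simp [ha, hb]
        · simp [ha, hb, hbl]
    · simp [ha, hak]

theorem ms_sum_right (p : Prop) [Decidable p] (j : Fin n) (s : ℤ) :
    (∑ b : Fin n, (if p ∧ b = j then s else 0)) = if p then s else 0 := by
  by_cases hp : p <;> simp [hp]

theorem ms_sum_left (q : Prop) [Decidable q] (i : Fin m) (s : ℤ) :
    (∑ a : Fin m, (if a = i ∧ q then s else 0)) = if q then s else 0 := by
  by_cases hq : q <;> simp [hq]

/-- A move which applies keeps all margins. -/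
theorem ms_move_mem {s : ℕ} {r : Fin m → ℕ} {c : Fin n → ℕ} {i k : Fin m} {j u : Fin n}
    {X : Tb m (Fin n)} (hX : X ∈ Tab r c) (hv : msValid s i k j u X) : msMove s i k j u X ∈ Tab r c := by
  rw [ms_mem_Tab] at hX ⊢
  constructor
  · intro a
    rw [← hX.1 a]
    unfold rowS
    zify
    simp only [ms_move_int hv]
    simp only [sum_add_distrib, sum_sub_distrib, ms_sum_right]
    ring
  · intro b
    rw [← hX.2 b]
    unfold colS
    zify
    simp only [ms_move_int hv]
    simp only [sum_add_distrib, sum_sub_distrib, ms_sum_left]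
    ring

theorem ms_step_mem {s : ℕ} {r : Fin m → ℕ} {c : Fin n → ℕ} {X : Tb m (Fin n)} (hX : X ∈ Tab r c)
    (i k : Fin m) (j u : Fin n) : msStep s i k j u X ∈ Tab r c := by
  unfold msStep
  split_ifs with h
  · exact ms_move_mem hX h
  · exact hX

/-- The reverse of a step. -/
theorem ms_step_rev {s : ℕ} {i k : Fin m} {j u : Fin n} {x y : Tb m (Fin n)} (hxy : x ≠ y)
    (h : msStep s i k j u x = y) : msStep s i k u j y = x := by
  unfold msStep at h
  split_ifs at h with hv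
  · subst h
    obtain ⟨hik, hju, h1, h2⟩ := hv
    have hv' : msValid s i k u j (msMove s i k j u x) := by
      refine ⟨hik, hju.symm, ?_, ?_⟩
      · simp [msMove, hju, hik]
      · simp [msMove, hju.symm, hik.symm]
    unfold msStep
    rw [if_pos hv']
    funext a b
    have hc : (a = i ∧ b = u) ∨ (a = k ∧ b = j) → s ≤ x a b := by
      rintro (⟨rfl, rfl⟩ | ⟨rfl, rfl⟩)
      · exact h1
      · exact h2
    unfold msMove
    split_ifs at hc ⊢ <;> omega
  · exact absurd h hxy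

open Classical in
/-- The probability of moving by a uniform scale and quadruple. -/
def msS (L m n : ℕ) (x y : Tb m (Fin n)) : ℝ :=
  1 / (((L : ℝ) + 1) * ((m : ℝ) ^ 2 * (n : ℝ) ^ 2)) *
    ∑ l ∈ range (L + 1), ∑ i : Fin m, ∑ k : Fin m, ∑ j : Fin n, ∑ u : Fin n,
      if msStep (2 ^ l) i k j u x = y then 1 else 0

theorem ms_kernel_eq (L : ℕ) (x y : Tb m (Fin n)) :
    msKernel L x y = 1 / 2 * (if y = x then 1 else 0) + 1 / 2 * msS L m n x y := by
  unfold msKernel msS
  ring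

theorem ms_S_nonneg (L : ℕ) (x y : Tb m (Fin n)) : 0 ≤ msS L m n x y := by
  unfold msS
  refine mul_nonneg (by positivity) (sum_nonneg fun _ _ => sum_nonneg fun _ _ => sum_nonneg fun _ _ =>
    sum_nonneg fun _ _ => sum_nonneg fun _ _ => ?_)
  split_ifs <;> norm_num

open Classical in
theorem ms_count_symm (s : ℕ) {x y : Tb m (Fin n)} (hxy : x ≠ y) :
    (∑ i : Fin m, ∑ k : Fin m, ∑ j : Fin n, ∑ u : Fin n,
      if msStep s i k j u x = y then (1 : ℝ) else 0) =
    ∑ i : Fin m, ∑ k : Fin m, ∑ j : Fin n, ∑ u : Fin n,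
      if msStep s i k j u y = x then (1 : ℝ) else 0 := by
  refine sum_congr rfl fun i _ => sum_congr rfl fun k _ => ?_
  rw [sum_comm]
  refine sum_congr rfl fun u _ => sum_congr rfl fun j _ => ?_
  by_cases h : msStep s i k j u x = y
  · rw [if_pos h, if_pos (ms_step_rev hxy h)]
  · have h2 : ¬ msStep s i k u j y = x := fun h' => by
      have := ms_step_rev (s := s) (i := i) (k := k) (j := u) (u := j) (Ne.symm hxy) h'
      exact h this
    rw [if_neg h, if_neg h2]

theorem ms_S_symm (L : ℕ) (x y : Tb m (Fin n)) : msS L m n x y = msS L m n y x := by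
  classical
  by_cases hxy : x = y
  · rw [hxy]
  unfold msS
  rw [sum_congr rfl fun l _ => ms_count_symm (2 ^ l) hxy]

theorem ms_S_sum (L : ℕ) {r : Fin m → ℕ} {c : Fin n → ℕ} (hm : 1 ≤ m) (hn : 1 ≤ n) {x : Tb m (Fin n)}
    (hx : x ∈ Tab r c) : ∑ y ∈ Tab r c, msS L m n x y = 1 := by
  classical
  unfold msS
  rw [← mul_sum]
  have h1 : ∑ y ∈ Tab r c, ∑ l ∈ range (L + 1), ∑ i : Fin m, ∑ k : Fin m, ∑ j : Fin n, ∑ u : Fin n,
      (if msStep (2 ^ l) i k j u x = y then (1 : ℝ) else 0) =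
        ((L : ℝ) + 1) * ((m : ℝ) ^ 2 * (n : ℝ) ^ 2) := by
    rw [sum_comm]
    have : ∀ (l : ℕ) (i k : Fin m) (j u : Fin n),
        ∑ y ∈ Tab r c, (if msStep (2 ^ l) i k j u x = y then (1 : ℝ) else 0) = 1 := by
      intro l i k j u
      rw [sum_ite_eq]
      simp [ms_step_mem hx]
    calc _ = ∑ l ∈ range (L + 1), ∑ i : Fin m, ∑ k : Fin m, ∑ j : Fin n, ∑ u : Fin n,
          ∑ y ∈ Tab r c, (if msStep (2 ^ l) i k j u x = y then (1 : ℝ) else 0) := by
          refine sum_congr rfl fun l _ => ?_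
          rw [sum_comm]
          refine sum_congr rfl fun i _ => ?_
          rw [sum_comm]
          refine sum_congr rfl fun k _ => ?_
          rw [sum_comm]
          refine sum_congr rfl fun j _ => ?_
          rw [sum_comm]
      _ = _ := by
          simp only [this, sum_const, card_univ, Fintype.card_fin, nsmul_eq_mul, mul_one, card_range]
          push_cast
          ring
  rw [h1]
  have hm' : (m : ℝ) ≠ 0 := by
    have : m ≠ 0 := by omega
    exact_mod_cast this
  have hn' : (n : ℝ) ≠ 0 := by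
    have : n ≠ 0 := by omega
    exact_mod_cast this
  have hL : (L : ℝ) + 1 ≠ 0 := by positivity
  field_simp

open Classical in
/-- The Dirichlet form of the kernel out of a point. -/
theorem ms_kernel_dir (L : ℕ) {r : Fin m → ℕ} {c : Fin n → ℕ} {x : Tb m (Fin n)} (hx : x ∈ Tab r c)
    (g : Tb m (Fin n) → ℝ) :
    ∑ y ∈ Tab r c, msKernel L x y * (g x - g y) ^ 2 =
      1 / (2 * (((L : ℝ) + 1) * ((m : ℝ) ^ 2 * (n : ℝ) ^ 2))) *
        ∑ l ∈ range (L + 1), ∑ i : Fin m, ∑ k : Fin m, ∑ j : Fin n, ∑ u : Fin n,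
          if msValid (2 ^ l) i k j u x then (g x - g (msMove (2 ^ l) i k j u x)) ^ 2 else 0 := by
  have h1 : ∀ y, msKernel L x y * (g x - g y) ^ 2 =
      1 / (2 * (((L : ℝ) + 1) * ((m : ℝ) ^ 2 * (n : ℝ) ^ 2))) *
        ∑ l ∈ range (L + 1), ∑ i : Fin m, ∑ k : Fin m, ∑ j : Fin n, ∑ u : Fin n,
          (if msStep (2 ^ l) i k j u x = y then (g x - g y) ^ 2 else 0) := by
    intro y
    unfold msKernel
    have h2 : (if y = x then (1 : ℝ) else 0) * (g x - g y) ^ 2 = 0 := by
      by_cases h : y = x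
      · rw [h]; simp
      · rw [if_neg h]; simp
    have h3 : ∑ l ∈ range (L + 1), ∑ i : Fin m, ∑ k : Fin m, ∑ j : Fin n, ∑ u : Fin n,
        (if msStep (2 ^ l) i k j u x = y then (g x - g y) ^ 2 else 0) =
        (∑ l ∈ range (L + 1), ∑ i : Fin m, ∑ k : Fin m, ∑ j : Fin n, ∑ u : Fin n,
          (if msStep (2 ^ l) i k j u x = y then (1 : ℝ) else 0)) * (g x - g y) ^ 2 := by
      simp only [sum_mul]
      refine sum_congr rfl fun _ _ => sum_congr rfl fun _ _ => sum_congr rfl fun _ _ =>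
        sum_congr rfl fun _ _ => sum_congr rfl fun _ _ => ?_
      split_ifs <;> simp
    rw [h3, add_mul, mul_assoc, h2, mul_zero, zero_add]
    by_cases hm : ((L : ℝ) + 1) * ((m : ℝ) ^ 2 * (n : ℝ) ^ 2) = 0
    · simp [hm]
    · field_simp
  rw [sum_congr rfl fun y _ => h1 y, ← mul_sum]
  congr 1
  rw [sum_comm]
  refine sum_congr rfl fun l _ => ?_
  rw [sum_comm]
  refine sum_congr rfl fun i _ => ?_
  rw [sum_comm]
  refine sum_congr rfl fun k _ => ?_
  rw [sum_comm]
  refine sum_congr rfl fun j _ => ?_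
  rw [sum_comm]
  refine sum_congr rfl fun u _ => ?_
  rw [sum_ite_eq, if_pos (ms_step_mem hx i k j u)]
  unfold msStep
  split_ifs with hv
  · rfl
  · simp

/-- The kernel is nonnegative. -/
theorem ms_kernel_nonneg (L : ℕ) (x y : Tb m (Fin n)) : 0 ≤ msKernel L x y := by
  classical
  rw [ms_kernel_eq]
  have := ms_S_nonneg L x y
  split_ifs <;> linarith

/-- The kernel is symmetric. -/
theorem ms_kernel_symm (L : ℕ) (x y : Tb m (Fin n)) : msKernel L x y = msKernel L y x := by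
  classical
  rw [ms_kernel_eq, ms_kernel_eq, ms_S_symm L x y]
  by_cases h : x = y
  · rw [h]
  · rw [if_neg h, if_neg (Ne.symm h)]

/-- The kernel is stochastic on the tables. -/
theorem ms_kernel_sum (L : ℕ) {r : Fin m → ℕ} {c : Fin n → ℕ} (hm : 1 ≤ m) (hn : 1 ≤ n)
    {x : Tb m (Fin n)} (hx : x ∈ Tab r c) : ∑ y ∈ Tab r c, msKernel L x y = 1 := by
  classical
  have := @mix_K_sum _ (Classical.decEq _) (Tab r c) (msKernel L) (msS L m n)
    (fun x _ y _ => by
      rw [ms_kernel_eq]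
      by_cases h : y = x
      · rw [if_pos h, if_pos h]
      · rw [if_neg h, if_neg h])
    (fun x hx => ms_S_sum L hm hn hx) x hx
  exact this

/-- The kernel vanishes outside the tables. -/
theorem ms_kernel_out (L : ℕ) {r : Fin m → ℕ} {c : Fin n → ℕ} {x y : Tb m (Fin n)} (hx : x ∈ Tab r c)
    (hy : y ∉ Tab r c) : msKernel L x y = 0 := by
  classical
  unfold msKernel
  have hne : y ≠ x := fun h => hy (h ▸ hx)
  rw [if_neg hne]
  have : ∀ (l : ℕ) (i k : Fin m) (j u : Fin n), msStep (2 ^ l) i k j u x ≠ y := fun l i k j u h =>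
    hy (h ▸ ms_step_mem hx i k j u)
  simp [this]

/-- The multi-scale chain on the tables started from `μ` has nonnegative weights. -/
theorem ms_flow_nonneg (L : ℕ) {r : Fin m → ℕ} {c : Fin n → ℕ} {μ : Tb m (Fin n) → ℝ}
    (hμ : ∀ x ∈ Tab r c, 0 ≤ μ x) (t : ℕ) :
    ∀ y ∈ Tab r c, 0 ≤ flow (Tab r c) (msKernel L) μ t y :=
  flow_nonneg (fun x _ y _ => ms_kernel_nonneg L x y) hμ t

/-- The multi-scale chain on the tables preserves the mass. -/
theorem ms_flow_mass (L : ℕ) {r : Fin m → ℕ} {c : Fin n → ℕ} (hm : 1 ≤ m) (hn : 1 ≤ n)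
    (μ : Tb m (Fin n) → ℝ) (t : ℕ) :
    ∑ y ∈ Tab r c, flow (Tab r c) (msKernel L) μ t y = ∑ y ∈ Tab r c, μ y :=
  flow_mass (fun _ hx => ms_kernel_sum L hm hn hx) t

/-- The multi-scale chain on the tables is a contraction in the `ℓ¹` norm. -/
theorem ms_flow_l1 (L : ℕ) {r : Fin m → ℕ} {c : Fin n → ℕ} (hm : 1 ≤ m) (hn : 1 ≤ n)
    (μ ν : Tb m (Fin n) → ℝ) (t : ℕ) :
    ∑ y ∈ Tab r c, |flow (Tab r c) (msKernel L) μ t y - flow (Tab r c) (msKernel L) ν t y| ≤
      ∑ y ∈ Tab r c, |μ y - ν y| :=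
  flow_l1 (fun x _ y _ => ms_kernel_nonneg L x y) (fun _ hx => ms_kernel_sum L hm hn hx) t

/-- Warm start for the multi-scale chain: a law on the tables with density at most `B` with respect to
the uniform law is close to uniform after `t` steps, under a weak Poincare inequality. -/
theorem ms_warm_tv (L : ℕ) {r : Fin m → ℕ} {c : Fin n → ℕ} (hm : 1 ≤ m) (hn : 1 ≤ n) {C e B : ℝ}
    (hC : 0 < C) (he : 0 ≤ e)
    (hW : ∀ g : Tb m (Fin n) → ℝ, (∀ x ∈ Tab r c, g x ^ 2 ≤ B ^ 2) →
      (∑ x ∈ Tab r c, g x ^ 2) / ((Tab r c).card : ℝ) - ((∑ x ∈ Tab r c, g x) / ((Tab r c).card : ℝ)) ^ 2 ≤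
        C * ∑ l ∈ range (L + 1), tabDirS (2 ^ l) r c g + e * B ^ 2)
    (hne : (Tab r c).Nonempty) {μ : Tb m (Fin n) → ℝ} (hμ0 : ∀ x ∈ Tab r c, 0 ≤ μ x)
    (hμ1 : ∑ x ∈ Tab r c, μ x = 1) (hμB : ∀ x ∈ Tab r c, ((Tab r c).card : ℝ) * μ x ≤ B)
    (t : ℕ) :
    tvUnif r c (flow (Tab r c) (msKernel L) μ t) ≤
      (B / 2) * Real.sqrt (e + Real.exp (-((t : ℝ) /
        (4 * ((L : ℝ) + 1) * (m : ℝ) ^ 2 * (n : ℝ) ^ 2 * C)))) := by
  classical
  have hm' : (0 : ℝ) < m := by exact_mod_cast hm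
  have hn' : (0 : ℝ) < n := by exact_mod_cast hn
  have hL' : (0 : ℝ) < (L : ℝ) + 1 := by positivity
  have hN : (0 : ℝ) < ((Tab r c).card : ℝ) := by exact_mod_cast card_pos.2 hne
  have hC' : 0 < 4 * ((L : ℝ) + 1) * (m : ℝ) ^ 2 * (n : ℝ) ^ 2 * C := by positivity
  have key := @flow_tv _ (Classical.decEq _) (Tab r c) (msKernel L) (msS L m n)
    (fun x _ y _ => by
      rw [ms_kernel_eq]
      by_cases h : y = x
      · rw [if_pos h, if_pos h]
      · rw [if_neg h, if_neg h])
    (fun x _ y _ => ms_S_nonneg L x y)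
    (fun x _ y _ => ms_S_symm L x y) (fun x hx => ms_S_sum L hm hn hx)
    (4 * ((L : ℝ) + 1) * (m : ℝ) ^ 2 * (n : ℝ) ^ 2 * C) e B hC' he ?_ hne μ hμ0 hμ1 hμB t
  · exact key
  · intro g hg
    refine le_trans (hW g hg) (le_of_eq ?_)
    rw [sum_congr rfl fun x hx => ms_kernel_dir L hx g, ← mul_sum]
    congr 1
    unfold tabDirS
    rw [← sum_div, sum_comm]
    have e1 : ∀ l ∈ range (L + 1), ∑ x ∈ Tab r c, ∑ i : Fin m, ∑ k : Fin m, ∑ j : Fin n, ∑ u : Fin n,
        (if msValid (2 ^ l) i k j u x then (g x - g (msMove (2 ^ l) i k j u x)) ^ 2 else 0) =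
        ∑ x ∈ Tab r c, ∑ i : Fin m, ∑ k : Fin m, ∑ j : Fin n, ∑ u : Fin n,
        (if msValid (2 ^ l) i k j u x then (g x - g (msMove (2 ^ l) i k j u x)) ^ 2 else 0) :=
      fun _ _ => rfl
    field_simp
    ring

end

end Vale.Agent.Lib.P328B
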