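import Vale.Agent.Lib.P328B.Sched
import Vale.Agent.Lib.P328B.Chain
import Vale.Agent.Lib.P328U.Anneal

/-!
The number of stages of the margin schedule, and the annealed sampler with the multi-scale chain:
the total variation distance from the uniform law adds up over the stages.
-/

namespace Vale.Agent.Lib.P328B

open Finset Vale.Agent.Lib.P328 Vale.Agent.Lib.P328Q Vale.Agent.Lib.P328U

noncomputable section

variable {m n : ℕ}

/-! ### The number of stages -/

/-- One reduction of a row: `x - ⌈x / n⌉`. -/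
def decN (n x : ℕ) : ℕ := x - ceilDiv n x

theorem decN_le (n x : ℕ) : decN n x ≤ x := Nat.sub_le _ _

theorem decN_iter_le (n x k : ℕ) : (decN n)^[k] x ≤ x := by
  induction k with
  | zero => exact le_rfl
  | succ k ih =>
    rw [Function.iterate_succ_apply']
    exact le_trans (decN_le _ _) ih

theorem decN_iter_anti (n x : ℕ) {k l : ℕ} (h : k ≤ l) : (decN n)^[l] x ≤ (decN n)^[k] x := by
  obtain ⟨d, rfl⟩ := Nat.exists_eq_add_of_le h
  rw [add_comm, Function.iterate_add_apply]
  exact decN_iter_le _ _ _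

theorem ceilDiv_mono (n : ℕ) {x y : ℕ} (h : x ≤ y) : ceilDiv n x ≤ ceilDiv n y := by
  unfold ceilDiv
  exact Nat.div_le_div_right (by omega)

/-- `n` reductions halve a row. -/
theorem decN_halve (hn : 1 ≤ n) (x : ℕ) : 2 * (decN n)^[n] x ≤ x := by
  set q := ceilDiv n ((decN n)^[n] x) with hq
  have key : ∀ k, k ≤ n → (decN n)^[k] x + k * q ≤ x := by
    intro k
    induction k with
    | zero => simp
    | succ k ih =>
      intro hk
      have h1 := ih (by omega)
      rw [Function.iterate_succ_apply']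
      have h2 : q ≤ ceilDiv n ((decN n)^[k] x) :=
        ceilDiv_mono n (decN_iter_anti n x (by omega))
      have h3 : ceilDiv n ((decN n)^[k] x) ≤ (decN n)^[k] x := ceilDiv_le hn _
      unfold decN at *
      have e : (k + 1) * q = k * q + q := by ring
      omega
  have h1 := key n le_rfl
  have h2 := ceilDiv_mul_ge hn ((decN n)^[n] x)
  rw [← hq] at h2
  omega

theorem decN_iter_eq_zero (hn : 1 ≤ n) (e : ℕ) : ∀ x, x < 2 ^ e → (decN n)^[n * e] x = 0 := by
  induction e with
  | zero =>
    intro x hx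
    simp at hx
    subst hx
    simp
  | succ e ih =>
    intro x hx
    rw [Nat.mul_succ, Function.iterate_add_apply]
    have h2 := decN_halve hn x
    rw [pow_succ] at hx
    exact ih _ (by omega)

/-- The number of reductions which exhaust a row. -/
def rowStages (n x : ℕ) : ℕ := sInf {k | (decN n)^[k] x = 0}

theorem rowStages_spec (hn : 1 ≤ n) (x : ℕ) : (decN n)^[rowStages n x] x = 0 := by
  have hne : {k | (decN n)^[k] x = 0}.Nonempty :=
    ⟨n * (Nat.log 2 x + 1), decN_iter_eq_zero hn _ _ (Nat.lt_pow_succ_log_self (by norm_num) x)⟩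
  exact Nat.sInf_mem hne

theorem rowStages_le_of_iter {k x : ℕ} (h : (decN n)^[k] x = 0) : rowStages n x ≤ k :=
  Nat.sInf_le h

theorem rowStages_le (hn : 1 ≤ n) {x e : ℕ} (h : x < 2 ^ e) : rowStages n x ≤ n * e :=
  rowStages_le_of_iter (decN_iter_eq_zero hn e x h)

theorem rowStages_eq_zero (hn : 1 ≤ n) {x : ℕ} (h : rowStages n x = 0) : x = 0 := by
  have := rowStages_spec hn x
  rwa [h] at this

theorem rowStages_zero : rowStages n 0 = 0 :=
  Nat.le_zero.1 (rowStages_le_of_iter (k := 0) rfl)

theorem rowStages_decN (hn : 1 ≤ n) {x : ℕ} (hx : 1 ≤ x) :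
    rowStages n (decN n x) + 1 ≤ rowStages n x := by
  have h1 := rowStages_spec hn x
  have h0 : rowStages n x ≠ 0 := fun h => by
    have := rowStages_eq_zero hn h
    omega
  obtain ⟨k, hk⟩ := Nat.exists_eq_succ_of_ne_zero h0
  rw [hk, Function.iterate_succ_apply] at h1
  have := rowStages_le_of_iter h1
  omega

/-- The total number of stages left in the schedule. -/
def stagesOf (n : ℕ) (r : Fin m → ℕ) : ℕ := ∑ i, rowStages n (r i)

theorem stagesOf_le (hn : 1 ≤ n) {r : Fin m → ℕ} {N : ℕ} (h : ∑ i, r i ≤ N) :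
    stagesOf n r ≤ m * (n * (Nat.log 2 N + 1)) := by
  unfold stagesOf
  calc ∑ i, rowStages n (r i) ≤ ∑ _i : Fin m, n * (Nat.log 2 N + 1) := by
        refine sum_le_sum fun i _ => rowStages_le hn ?_
        have h1 : r i ≤ N := le_trans (single_le_sum (f := r) (fun _ _ => Nat.zero_le _) (mem_univ i)) h
        exact lt_of_le_of_lt h1 (Nat.lt_pow_succ_log_self (by norm_num) N)
    _ = _ := by simp

section Stage

variable [NeZero m] [NeZero n]

/-- The facts on one stage of the schedule. -/
theorem next_facts {r : Fin m → ℕ} {c : Fin n → ℕ} (h : ∑ i, r i = ∑ j, c j) :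
    ceilDiv n (r (firstRow r)) ≤ r (firstRow r) ∧ ceilDiv n (r (firstRow r)) ≤ c (topCol c) ∧
    ∑ i, (nextM (r, c)).1 i + ceilDiv n (r (firstRow r)) = ∑ i, r i ∧
    ∑ i, (nextM (r, c)).2 i + ceilDiv n (r (firstRow r)) = ∑ j, c j := by
  have hn : 1 ≤ n := Nat.one_le_iff_ne_zero.2 (NeZero.ne n)
  set a := firstRow r with ha
  set b := topCol c with hb
  set t := ceilDiv n (r a) with ht
  have h1 : t ≤ r a := ceilDiv_le hn _
  have h2 : t ≤ c b := by
    obtain ⟨j, hj⟩ := ceilDiv_pigeon (f := c) hn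
    have h3 : r a ≤ ∑ j, c j := by
      rw [← h]
      exact single_le_sum (f := r) (fun _ _ => Nat.zero_le _) (mem_univ a)
    exact le_trans (le_trans (ceilDiv_mono n h3) hj) (topCol_max c j)
  have hsum : ∀ {k : ℕ} (f : Fin k → ℕ) (i₀ : Fin k) (t : ℕ), t ≤ f i₀ →
      ∑ i, decT f i₀ t i + t = ∑ i, f i := by
    intro k f i₀ t ht
    rw [← add_sum_erase univ (decT f i₀ t) (mem_univ i₀), ← add_sum_erase univ f (mem_univ i₀)]
    have e : ∑ i ∈ univ.erase i₀, decT f i₀ t i = ∑ i ∈ univ.erase i₀, f i := by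
      refine sum_congr rfl fun i hi => ?_
      simp [decT, ne_of_mem_erase hi]
    rw [e]
    simp only [decT, if_true]
    omega
  exact ⟨h1, h2, hsum r a t h1, hsum c b t h2⟩

/-- The number of stages left goes down by one in each stage, or stays zero. -/
theorem stagesOf_next {r : Fin m → ℕ} (c : Fin n → ℕ) {J : ℕ} (h : stagesOf n r ≤ J + 1) :
    stagesOf n (nextM (r, c)).1 ≤ J := by
  have hn : 1 ≤ n := Nat.one_le_iff_ne_zero.2 (NeZero.ne n)
  by_cases h0 : ∃ i, r i ≠ 0
  · have h1 := firstRow_pos h0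
    set a := firstRow r with ha
    have e : stagesOf n (nextM (r, c)).1 + 1 ≤ stagesOf n r := by
      unfold stagesOf
      rw [← add_sum_erase univ _ (mem_univ a), ← add_sum_erase univ (fun i => rowStages n (r i)) (mem_univ a)]
      have e2 : ∑ i ∈ univ.erase a, rowStages n ((nextM (r, c)).1 i) =
          ∑ i ∈ univ.erase a, rowStages n (r i) := by
        refine sum_congr rfl fun i hi => ?_
        simp [nextM, decT, ne_of_mem_erase hi, ← ha]
      rw [e2]
      have e3 : (nextM (r, c)).1 a = decN n (r a) := by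
        simp [nextM, decT, decN, ← ha]
      rw [e3]
      have := rowStages_decN hn h1
      omega
    omega
  · have h0' : ∀ i, r i = 0 := fun i => not_ne_iff.1 fun h => h0 ⟨i, h⟩
    have e : (nextM (r, c)).1 = r := by
      funext i
      simp only [nextM, decT]
      rw [h0' (firstRow r), ceilDiv_zero hn]
      simp
    rw [e]
    have : stagesOf n r = 0 := by
      unfold stagesOf
      simp [h0', rowStages_zero]
    omega

/-- The ratio at one stage. -/
theorem next_ratio (r : Fin m → ℕ) (c : Fin n → ℕ) :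
    (Tab r c).card ≤ n * (Tab (nextM (r, c)).1 (nextM (r, c)).2).card :=
  card_Tab_le_mulT (Nat.one_le_iff_ne_zero.2 (NeZero.ne n)) (topCol_max c)

end Stage

/-! ### The annealed sampler -/

theorem tab_zero_of_stages {r : Fin m → ℕ} {c : Fin n → ℕ} (hn : 1 ≤ n) (h : ∑ i, r i = ∑ j, c j)
    (h0 : stagesOf n r = 0) : Tab r c = {fun _ _ => 0} := by
  have hr0 : ∀ i, r i = 0 := fun i =>
    rowStages_eq_zero hn ((sum_eq_zero_iff.1 h0) i (mem_univ _))
  have hrs : ∑ i, r i = 0 := by simp [hr0]
  have hc0 : ∀ j, c j = 0 := fun j => by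
    rw [hrs] at h
    exact (sum_eq_zero_iff.1 h.symm) j (mem_univ _)
  ext X
  rw [mem_Tab, mem_singleton]
  constructor
  · rintro ⟨h1, _⟩
    funext i j
    have h2 := h1 i
    rw [hr0 i] at h2
    exact (sum_eq_zero_iff.1 h2) j (mem_univ _)
  · rintro rfl
    exact ⟨fun i => by simp [rowS, hr0], fun j => by simp [colS, hc0]⟩

/-- The facts proved by induction along the schedule. -/
theorem annealB_spec [NeZero m] [NeZero n] {C δ : ℝ} (hC : 0 < C) (hδ : 0 ≤ δ) (L Nmax : ℕ)
    (hP : ∀ (r : Fin m → ℕ) (c : Fin n → ℕ), ∑ i, r i = ∑ j, c j → ∑ i, r i ≤ Nmax →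
      ∀ (g : Tb m (Fin n) → ℝ) (M : ℝ), 0 ≤ M → (∀ x ∈ Tab r c, g x ^ 2 ≤ M) →
      tabVar r c g ≤ C * ∑ l ∈ range (L + 1), tabDirS (2 ^ l) r c g + δ * M) (k J : ℕ) :
    ∀ (r : Fin m → ℕ) (c : Fin n → ℕ), ∑ i, r i = ∑ j, c j → ∑ i, r i ≤ Nmax → stagesOf n r ≤ J →
      (∀ y, 0 ≤ annealB L k J r c y) ∧ (∀ y, y ∉ Tab r c → annealB L k J r c y = 0) ∧
      ∑ y ∈ Tab r c, annealB L k J r c y = 1 ∧
      tvUnif r c (annealB L k J r c) ≤ (J : ℝ) * (((n : ℝ) / 2) * Real.sqrt
        (δ + Real.exp (-((k : ℝ) / (4 * ((L : ℝ) + 1) * (m : ℝ) ^ 2 * (n : ℝ) ^ 2 * C))))) := by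
  classical
  have hm : 1 ≤ m := Nat.one_le_iff_ne_zero.2 (NeZero.ne m)
  have hn : 1 ≤ n := Nat.one_le_iff_ne_zero.2 (NeZero.ne n)
  induction J with
  | zero =>
    intro r c hrc _ hst
    have hTab := tab_zero_of_stages hn hrc (Nat.le_zero.1 hst)
    refine ⟨fun y => ?_, fun y hy => ?_, ?_, ?_⟩
    · simp only [annealB]
      split_ifs <;> norm_num
    · simp only [annealB]
      rw [if_neg]
      rw [hTab, mem_singleton] at hy
      exact hy
    · simp [hTab, annealB]
    · simp [tvUnif, hTab, annealB]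
  | succ J ih =>
    intro r c hrc hN hst
    obtain ⟨h1, h2, h3, h4⟩ := next_facts hrc
    have hst' := stagesOf_next c hst
    set a := firstRow r with hadef
    set b := topCol c with hbdef
    set t := ceilDiv n (r a) with htdef
    set r' := (nextM (r, c)).1 with hr'
    set c' := (nextM (r, c)).2 with hc'
    have hr'eq : r' = decT r a t := rfl
    have hc'eq : c' = decT c b t := rfl
    obtain ⟨iha, ihb, ihc, ihd⟩ := ih r' c' (by omega) (by omega) hst'
    set μp := annealB L k J r' c' with hμp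
    have hanneal : annealB L k (J + 1) r c = flow (Tab r c) (msKernel L) (shiftT a b t μp) k := rfl
    -- the nonempty sets and the uniform laws
    have hne : (Tab r c).Nonempty := Tab_nonempty (∑ i, r i) r c rfl hrc.symm
    have hne' : (Tab r' c').Nonempty := Tab_nonempty (∑ i, r' i) r' c' rfl (by omega)
    have hcard : (0 : ℝ) < ((Tab r c).card : ℝ) := by exact_mod_cast card_pos.2 hne
    have hcard' : (0 : ℝ) < ((Tab r' c').card : ℝ) := by exact_mod_cast card_pos.2 hne'
    have hratio : ((Tab r c).card : ℝ) ≤ (n : ℝ) * ((Tab r' c').card : ℝ) := by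
      exact_mod_cast next_ratio r c
    have hnpos : (0 : ℝ) < n := by exact_mod_cast hn
    -- start law
    set μ0 := shiftT a b t μp with hμ0
    set u' : Tb m (Fin n) → ℝ := fun _ => 1 / ((Tab r' c').card : ℝ) with hu'
    set ν := shiftT a b t u' with hν
    have hμ0n : ∀ y, 0 ≤ μ0 y := by
      intro y
      simp only [hμ0, shiftT]
      split_ifs
      · exact iha _
      · exact le_rfl
    have hνn : ∀ y, 0 ≤ ν y := by
      intro y
      simp only [hν, shiftT, hu']
      split_ifs <;> positivity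
    have hμ1 : ∑ y ∈ Tab r c, μ0 y = 1 := by
      rw [hμ0, sum_shiftT h1 h2]
      exact ihc
    have hν1 : ∑ y ∈ Tab r c, ν y = 1 := by
      rw [hν, sum_shiftT h1 h2]
      simp only [hu', sum_const, nsmul_eq_mul]
      exact mul_one_div_cancel (ne_of_gt hcard')
    have hνB : ∀ y ∈ Tab r c, ν y ≤ (n : ℝ) / ((Tab r c).card : ℝ) := by
      intro y _
      have h5 : 1 / ((Tab r' c').card : ℝ) ≤ (n : ℝ) / ((Tab r c).card : ℝ) := by
        rw [div_le_div_iff₀ hcard' hcard]
        linarith
      simp only [hν, shiftT, hu']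
      split_ifs
      · exact h5
      · positivity
    have hK0 : ∀ x y : Tb m (Fin n), 0 ≤ msKernel L x y := ms_kernel_nonneg L
    refine ⟨fun y => ?_, fun y hy => ?_, ?_, ?_⟩
    · rw [hanneal]
      exact flow_nonneg_all hK0 hμ0n k y
    · rw [hanneal]
      refine flow_support (fun x hx y hy => ms_kernel_out L hx hy) ?_ k hy
      intro y hy
      simp only [hμ0, shiftT]
      split_ifs with h6
      · refine ihb _ fun hmem => hy ?_
        have := addT_mem h1 h2 hmem
        rwa [addT_subT h6] at this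
      · rfl
    · rw [hanneal, ms_flow_mass L hm hn]
      exact hμ1
    · rw [hanneal]
      -- triangle inequality
      have hW := hP r c hrc hN
      have hwarm := ms_warm_tv L (B := (n : ℝ)) hm hn hC hδ
        (fun g hg => hW g ((n : ℝ) ^ 2) (by positivity) hg) hne (fun x _ => hνn x) hν1
        (fun x hx => by
          have := hνB x hx
          rwa [le_div_iff₀ hcard, mul_comm] at this) k
      have hl1 := ms_flow_l1 L (r := r) (c := c) hm hn μ0 ν k
      have hl2 : ∑ y ∈ Tab r c, |μ0 y - ν y| = 2 * tvUnif r' c' μp := by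
        rw [hμ0, hν, l1_shiftT h1 h2]
        change ∑ x ∈ Tab r' c', |μp x - u' x| = _
        simp only [tvUnif, hu']
        ring
      have htri := tvUnif_le_add r c (flow (Tab r c) (msKernel L) μ0 k) (flow (Tab r c) (msKernel L) ν k)
      push_cast
      rw [add_mul, one_mul]
      rw [hl2] at hl1
      linarith

end

end Vale.Agent.Lib.P328B
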