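import Vale.Agent.Lib.P328B.ChainDefs
import Vale.Agent.Lib.P328U.MixDefs

/-!
The margin schedule with jumps and the annealed sampler for the multi-scale chain.
-/

namespace Vale.Agent.Lib.P328B

open Finset Vale.Agent.Lib.P328 Vale.Agent.Lib.P328U

variable {m n : ℕ}

/-- The first nonzero row (row `0` if there is none). -/
def firstRow [NeZero m] (r : Fin m → ℕ) : Fin m :=
  if h : (univ.filter fun i => r i ≠ 0).Nonempty then (univ.filter fun i => r i ≠ 0).min' h else 0

/-- The first column of largest margin. -/
def topCol [NeZero n] (c : Fin n → ℕ) : Fin n :=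
  if h : (univ.filter fun j => ∀ j', c j' ≤ c j).Nonempty then
    (univ.filter fun j => ∀ j', c j' ≤ c j).min' h
  else 0

/-- The integer `⌈x / n⌉`. -/
def ceilDiv (n x : ℕ) : ℕ := (x + n - 1) / n

/-- Margins with `t` removed at `a`. -/
def decT {k : ℕ} (r : Fin k → ℕ) (a : Fin k) (t : ℕ) : Fin k → ℕ :=
  fun i => r i - if i = a then t else 0

/-- The table with `t` removed at the cell `(a, b)`. -/
def subT (a : Fin m) (b : Fin n) (t : ℕ) (X : Tb m (Fin n)) : Tb m (Fin n) :=
  fun i j => X i j - if i = a ∧ j = b then t else 0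

/-- The law obtained from the law `μ` by adding `t` at the cell `(a, b)`. -/
noncomputable def shiftT (a : Fin m) (b : Fin n) (t : ℕ) (μ : Tb m (Fin n) → ℝ) :
    Tb m (Fin n) → ℝ := fun y => if t ≤ y a b then μ (subT a b t y) else 0

/-- One stage of the margin schedule: with `a` the first nonzero row, `b` the first column of largest
margin and `t = ⌈r a / n⌉`, remove `t` from the row `a` and the column `b`. -/
def nextM [NeZero m] [NeZero n] (p : (Fin m → ℕ) × (Fin n → ℕ)) : (Fin m → ℕ) × (Fin n → ℕ) :=
  (decT p.1 (firstRow p.1) (ceilDiv n (p.1 (firstRow p.1))),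
    decT p.2 (topCol p.2) (ceilDiv n (p.1 (firstRow p.1))))

open Classical in
/-- THE ANNEALED LAW with `J` stages, `k` steps per stage, and scales `2 ^ l`, `l ≤ L`. For `J = 0` the
output is the empty table. For `J + 1` and margins `(r, c)`: run the sampler with `J` stages for the
margins `nextM (r, c)`, add `t = ⌈r a / n⌉` at the cell `(a, b)` of this stage, and run `k` steps of the
lazy multi-scale chain on the tables with margins `(r, c)`. -/
noncomputable def annealB [NeZero m] [NeZero n] (L k : ℕ) :
    ℕ → (Fin m → ℕ) → (Fin n → ℕ) → Tb m (Fin n) → ℝ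
  | 0, _, _ => fun y => if y = fun _ _ => 0 then 1 else 0
  | J + 1, r, c => flow (Tab r c) (msKernel L)
      (shiftT (firstRow r) (topCol c) (ceilDiv n (r (firstRow r)))
        (annealB L k J (nextM (r, c)).1 (nextM (r, c)).2)) k

end Vale.Agent.Lib.P328B
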