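import Vale.Agent.Lib.P328.Defs

/-!
The multi-scale Diaconis-Gangolli chain on contingency tables: pick a scale `2 ^ l` with `l` uniform in
`0, ..., L`, a uniform quadruple `(i, k, j, u)`, and add the pattern `+s` at `(i, j)`, `(k, u)` and `-s` at
`(i, u)`, `(k, j)` with `s = 2 ^ l` when this keeps the table nonnegative. The chain is lazy.
-/

namespace Vale.Agent.Lib.P328B

open Finset
open Vale.Agent.Lib.P328

variable {m n : ℕ}

/-- The `2 x 2` move of size `s` at `(i, k, j, u)` applies to `X`. -/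
def msValid (s : ℕ) (i k : Fin m) (j u : Fin n) (X : Tb m (Fin n)) : Prop :=
  i ≠ k ∧ j ≠ u ∧ s ≤ X i u ∧ s ≤ X k j

/-- The `2 x 2` move of size `s`: `+s` at `(i, j)`, `(k, u)` and `-s` at `(i, u)`, `(k, j)`. -/
def msMove (s : ℕ) (i k : Fin m) (j u : Fin n) (X : Tb m (Fin n)) : Tb m (Fin n) := fun a b =>
  X a b + (if (a = i ∧ b = j) ∨ (a = k ∧ b = u) then s else 0) -
    (if (a = i ∧ b = u) ∨ (a = k ∧ b = j) then s else 0)

open Classical in
/-- One step for a fixed size and quadruple: apply the move if it applies, otherwise stay. -/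
noncomputable def msStep (s : ℕ) (i k : Fin m) (j u : Fin n) (X : Tb m (Fin n)) : Tb m (Fin n) :=
  if msValid s i k j u X then msMove s i k j u X else X

open Classical in
/-- The transition probability of the lazy multi-scale chain with scales `2 ^ l`, `l ≤ L`. -/
noncomputable def msKernel (L : ℕ) (x y : Tb m (Fin n)) : ℝ :=
  1 / 2 * (if y = x then 1 else 0) +
    1 / 2 * (1 / (((L : ℝ) + 1) * ((m : ℝ) ^ 2 * (n : ℝ) ^ 2))) *
      ∑ l ∈ range (L + 1), ∑ i : Fin m, ∑ k : Fin m, ∑ j : Fin n, ∑ u : Fin n,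
        if msStep (2 ^ l) i k j u x = y then 1 else 0

open Classical in
/-- The mean over the uniform law on the tables of the sum over all quadruples where the move of
size `s` applies of the squared change of `g`. -/
noncomputable def tabDirS (s : ℕ) (r : Fin m → ℕ) (c : Fin n → ℕ) (g : Tb m (Fin n) → ℝ) : ℝ :=
  (∑ x ∈ Tab r c, ∑ i : Fin m, ∑ k : Fin m, ∑ j : Fin n, ∑ u : Fin n,
    if msValid s i k j u x then (g x - g (msMove s i k j u x)) ^ 2 else 0) / ((Tab r c).card : ℝ)

end Vale.Agent.Lib.P328B
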