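import Vale.Agent.Lib.P328_helper60.Flow

/-!
# P328, binary margins: count inequalities for flows on a digraph (helper61)

`F D S w` (helper60) is the set of integer points `f` of the box `|f e| ≤ S e` with `f e = S e` mod 2
and `D f = w`. Here `D` is the signed incidence map of a digraph without loops.

* `conf_path`: a flow contains a conformal path from a source to any given sink.
* `flip_nonempty`, `card_flip_le`: if `s` is the only source of `y` and `q` a sink of `y`, then
  `y` feasible implies `2 (e_s - e_q) - y` feasible (flip `f` to `2 P - f`), hence a count inequality.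
* `pair_formula`: `|F (z + y)| |F (z - y)| = ∑_t |F (S - |t|) y|`, the sum over `t` in the box with `D t = z`.
* `lr_one`, `lr_two`: the likelihood ratio inequalities for the value of one edge.
-/

set_option linter.unusedSectionVars false
set_option linter.unusedSimpArgs false

namespace Vale.Agent.Lib.P328B

open Finset
open Vale.Agent.Lib.P328_helper60.Flow

variable {ι κ : Type*} [Fintype ι] [DecidableEq ι] [DecidableEq κ]

/-- The signed incidence map of a digraph with edges `ι`, vertices `κ`. -/
def inc (src tgt : ι → κ) : (ι → ℤ) →+ (κ → ℤ) where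
  toFun f v := ∑ e, f e * ((if src e = v then 1 else 0) - (if tgt e = v then 1 else 0))
  map_zero' := by funext v; simp
  map_add' f g := by
    funext v
    simp [add_mul, Finset.sum_add_distrib]

theorem inc_apply (src tgt : ι → κ) (f : ι → ℤ) (v : κ) :
    inc src tgt f v = ∑ e, f e * ((if src e = v then 1 else 0) - (if tgt e = v then 1 else 0)) := rfl

theorem inc_single (src tgt : ι → κ) (g : ι) (a : ℤ) :
    inc src tgt (Pi.single g a) = a • (Pi.single (src g) 1 - Pi.single (tgt g) 1) := by
  funext v
  rw [inc_apply, Finset.sum_eq_single g]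
  · simp only [Pi.single_eq_same, Pi.smul_apply, Pi.sub_apply, Pi.single_apply, smul_eq_mul]
    rw [if_congr (eq_comm (a := v)) rfl rfl, if_congr (eq_comm (a := v) (b := tgt g)) rfl rfl]
  · intro e _ he
    simp [Pi.single_apply, he]
  · intro h; exact absurd (mem_univ g) h

/-- A conformal path from a source to a given sink. -/
theorem conf_path (src tgt : ι → κ) (hne : ∀ e, src e ≠ tgt e) :
    ∀ (N : ℕ) (f : ι → ℤ) (q : κ), ∑ e, (f e).natAbs = N → inc src tgt f q < 0 →
      ∃ (P : ι → ℤ) (s : κ), 0 < inc src tgt f s ∧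
        (∀ e, (0 ≤ P e ∧ P e ≤ f e) ∨ (f e ≤ P e ∧ P e ≤ 0)) ∧
        inc src tgt P = Pi.single s 1 - Pi.single q 1 := by
  intro N
  induction N using Nat.strong_induction_on with
  | _ N ih =>
    intro f q hN hq
    -- an edge carrying flow into `q`
    obtain ⟨e, he⟩ : ∃ e, f e * ((if src e = q then 1 else 0) - (if tgt e = q then 1 else 0)) < 0 := by
      by_contra hcon
      push Not at hcon
      have : 0 ≤ inc src tgt f q := Finset.sum_nonneg fun e _ => hcon e
      omega
    -- the unit on that edge
    obtain ⟨u, q', hu, hq'q, hconf, hustep⟩ : ∃ (u : ℤ) (q' : κ),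
        (u = 1 ∨ u = -1) ∧ q' ≠ q ∧ ((0 < f e ∧ u = 1) ∨ (f e < 0 ∧ u = -1)) ∧
        u • (Pi.single (src e) 1 - Pi.single (tgt e) 1 : κ → ℤ) = Pi.single q' 1 - Pi.single q 1 := by
      by_cases h1 : src e = q
      · have h2 : tgt e ≠ q := fun h => hne e (h1.trans h.symm)
        simp only [h1, if_true, if_neg h2, sub_zero, mul_one] at he
        refine ⟨-1, tgt e, Or.inr rfl, h2, Or.inr ⟨he, rfl⟩, ?_⟩
        rw [h1]
        funext v
        simp only [Pi.smul_apply, Pi.sub_apply, smul_eq_mul]
        ring
      · by_cases h2 : tgt e = q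
        · simp only [if_neg h1, h2, if_true, zero_sub, mul_neg, mul_one] at he
          refine ⟨1, src e, Or.inl rfl, h1, Or.inl ⟨by omega, rfl⟩, ?_⟩
          rw [h2, one_smul]
        · simp [h1, h2] at he
    by_cases hs : 0 < inc src tgt f q'
    · -- one edge suffices
      refine ⟨Pi.single e u, q', hs, ?_, ?_⟩
      · intro e'
        by_cases h : e' = e
        · subst h
          rcases hconf with ⟨h1, rfl⟩ | ⟨h1, rfl⟩
          · left; simp; omega
          · right; simp; omega
        · simp only [Pi.single_apply, if_neg h]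
          by_cases h3 : 0 ≤ f e'
          · left; exact ⟨le_rfl, h3⟩
          · right; exact ⟨by omega, le_rfl⟩
      · rw [inc_single, hustep]
    · -- continue from `q'`
      push Not at hs
      set f' : ι → ℤ := f - Pi.single e u with hf'
      have hincf' : inc src tgt f' = inc src tgt f - (Pi.single q' 1 - Pi.single q 1) := by
        rw [hf', map_sub, inc_single, hustep]
      have hval : ∀ v, inc src tgt f' v =
          inc src tgt f v - ((Pi.single q' 1 : κ → ℤ) v - (Pi.single q 1 : κ → ℤ) v) := by
        intro v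
        rw [hincf']
        simp only [Pi.sub_apply]
      have hlt : ∑ e', (f' e').natAbs < N := by
        rw [← hN]
        apply Finset.sum_lt_sum
        · intro e' _
          by_cases h : e' = e
          · subst h
            rcases hconf with ⟨h1, rfl⟩ | ⟨h1, rfl⟩
            · simp only [hf', Pi.sub_apply, Pi.single_eq_same]; omega
            · simp only [hf', Pi.sub_apply, Pi.single_eq_same]; omega
          · simp [hf', Pi.single_apply, h]
        · refine ⟨e, mem_univ _, ?_⟩
          rcases hconf with ⟨h1, rfl⟩ | ⟨h1, rfl⟩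
          · simp only [hf', Pi.sub_apply, Pi.single_eq_same]; omega
          · simp only [hf', Pi.sub_apply, Pi.single_eq_same]; omega
      have hq'' : inc src tgt f' q' < 0 := by
        rw [hval]
        simp only [Pi.single_eq_same, Pi.single_apply, if_neg hq'q]
        omega
      obtain ⟨P', s', hs', hconf', hP'⟩ := ih _ hlt f' q' rfl hq''
      have hs'q' : s' ≠ q' := by
        rintro rfl
        omega
      have hs'q : s' ≠ q := by
        rintro rfl
        rw [hval] at hs'
        simp only [Pi.single_eq_same, Pi.single_apply] at hs'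
        rw [if_neg hq'q.symm] at hs'
        omega
      refine ⟨P' + Pi.single e u, s', ?_, ?_, ?_⟩
      · rw [hval] at hs'
        simp only [Pi.single_apply, if_neg hs'q'.symm, if_neg hs'q] at hs'
        simp only [eq_comm, if_neg hs'q', if_neg hs'q] at hs'
        omega
      · intro e'
        have h3 := hconf' e'
        by_cases h : e' = e
        · subst h
          simp only [hf', Pi.sub_apply, Pi.single_eq_same] at h3
          simp only [Pi.add_apply, Pi.single_eq_same]
          rcases hconf with ⟨h1, rfl⟩ | ⟨h1, rfl⟩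
          · left; omega
          · right; omega
        · simp only [hf', Pi.sub_apply, Pi.single_apply, if_neg h, sub_zero] at h3
          simpa [Pi.single_apply, h] using h3
      · rw [map_add, hP', inc_single, hustep]
        abel

/-- Flip: if `s` is the only source of `y` and `q` a sink, then `y` feasible implies
`2 (e_s - e_q) - y` feasible. -/
theorem flip_nonempty (src tgt : ι → κ) (hne : ∀ e, src e ≠ tgt e) {y : κ → ℤ} {s q : κ}
    (hsrc : ∀ v, 0 < y v → v = s) (hq : y q < 0) (S : ι → ℕ)
    (h : (F (inc src tgt) S y).Nonempty) :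
    (F (inc src tgt) S ((2 : ℤ) • (Pi.single s 1 - Pi.single q 1) - y)).Nonempty := by
  obtain ⟨f, hf⟩ := h
  obtain ⟨hf1, hf2, hf3⟩ := mem_F.1 hf
  obtain ⟨P, s', hs', hconf, hP⟩ := conf_path src tgt hne _ f q rfl (by rw [hf3]; exact hq)
  have hss : s' = s := hsrc s' (by rw [← hf3]; exact hs')
  subst hss
  refine ⟨(2 : ℤ) • P - f, mem_F.2 ⟨fun e => ?_, fun e => ?_, ?_⟩⟩
  · have h1 := hf1 e
    have h2 := hconf e
    simp only [Pi.sub_apply, Pi.smul_apply, smul_eq_mul]
    constructor <;> omega
  · have h1 := hf2 e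
    simp only [Pi.sub_apply, Pi.smul_apply, smul_eq_mul]
    omega
  · rw [map_sub, map_zsmul, hP, hf3]

/-- The count inequality behind the flip. -/
theorem card_flip_le (src tgt : ι → κ) (hne : ∀ e, src e ≠ tgt e) {y : κ → ℤ} {s q : κ}
    (hsrc : ∀ v, 0 < y v → v = s) (hq : y q < 0) (S : ι → ℕ) :
    (F (inc src tgt) S y).card ≤
      (F (inc src tgt) S ((2 : ℤ) • (Pi.single s 1 - Pi.single q 1) - y)).card :=
  card_le (inc src tgt) y _ (fun S' h => flip_nonempty src tgt hne hsrc hq S' h) S

/-- Negation is a bijection. -/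
theorem card_F_neg (D : (ι → ℤ) →+ (κ → ℤ)) (S : ι → ℕ) (y : κ → ℤ) :
    (F D S (-y)).card = (F D S y).card := by
  classical
  refine Finset.card_nbij' (fun f => -f) (fun f => -f) ?_ ?_ ?_ ?_
  · intro f hf
    obtain ⟨hf1, hf2, hf3⟩ := mem_F.1 (Finset.mem_coe.1 hf)
    refine Finset.mem_coe.2 (mem_F.2 ⟨fun e => ?_, fun e => ?_, ?_⟩)
    · have := hf1 e
      simp only [Pi.neg_apply]
      constructor <;> omega
    · have := hf2 e
      simp only [Pi.neg_apply]
      omega
    · rw [map_neg, hf3, neg_neg]
  · intro f hf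
    obtain ⟨hf1, hf2, hf3⟩ := mem_F.1 (Finset.mem_coe.1 hf)
    refine Finset.mem_coe.2 (mem_F.2 ⟨fun e => ?_, fun e => ?_, ?_⟩)
    · have := hf1 e
      simp only [Pi.neg_apply]
      constructor <;> omega
    · have := hf2 e
      simp only [Pi.neg_apply]
      omega
    · rw [map_neg, hf3]
  · intro f _
    simp
  · intro f _
    simp

open Classical in
/-- The pair formula. -/
theorem pair_formula (D : (ι → ℤ) →+ (κ → ℤ)) (S : ι → ℕ) (z y : κ → ℤ) :
    (F D S (z + y)).card * (F D S (z - y)).card =
      ∑ t ∈ (box S).filter (fun t => D t = z), (F D (fun e => S e - (t e).natAbs) y).card := by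
  classical
  rw [← Finset.card_product]
  let t : (ι → ℤ) × (ι → ℤ) → (ι → ℤ) := fun p e => (p.1 e + p.2 e) / 2
  have hmaps : Set.MapsTo t ((F D S (z + y)) ×ˢ (F D S (z - y)) : Finset _)
      ((box S).filter (fun t => D t = z) : Finset _) := by
    rintro ⟨f, g⟩ hp
    simp only [coe_product, Set.mem_prod, mem_coe] at hp
    obtain ⟨hf, hg⟩ := hp
    obtain ⟨hf1, hf2, hf3⟩ := mem_F.1 hf
    obtain ⟨hg1, hg2, hg3⟩ := mem_F.1 hg
    simp only [mem_coe, mem_filter]
    refine ⟨mem_box.2 fun e => ?_, ?_⟩
    · have := hf1 e; have := hg1 e; have := hf2 e; have := hg2 e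
      simp only [t]
      omega
    · have h2 : f + g = t (f, g) + t (f, g) := by
        funext e
        have := hf2 e; have := hg2 e
        simp only [t, Pi.add_apply]
        omega
      have h3 : D f + D g = D (t (f, g)) + D (t (f, g)) := by
        rw [← map_add, h2, map_add]
      rw [hf3, hg3] at h3
      funext k
      have h4 := congrFun h3 k
      simp only [Pi.add_apply, Pi.sub_apply] at h4
      omega
  rw [Finset.card_eq_sum_card_fiberwise hmaps]
  apply Finset.sum_congr rfl
  intro U hU
  obtain ⟨hU0, hU2⟩ := Finset.mem_filter.1 hU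
  have hU1 := mem_box.1 hU0
  symm
  refine Finset.card_nbij' (fun V => (U + V, U - V)) (fun p e => (p.1 e - p.2 e) / 2) ?_ ?_ ?_ ?_
  · intro V hV
    obtain ⟨hV1, hV2, hV3⟩ := mem_F.1 (Finset.mem_coe.1 hV)
    simp only [coe_filter, mem_product, Set.mem_ofPred_eq]
    refine ⟨⟨?_, ?_⟩, ?_⟩
    · refine mem_F.2 ⟨fun e => ?_, fun e => ?_, ?_⟩
      · have := hV1 e; have := hU1 e
        simp only [Pi.add_apply]
        omega
      · have := hV2 e; have := hU1 e
        simp only [Pi.add_apply]
        omega
      · rw [map_add, hV3, hU2]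
    · refine mem_F.2 ⟨fun e => ?_, fun e => ?_, ?_⟩
      · have := hV1 e; have := hU1 e
        simp only [Pi.sub_apply]
        omega
      · have := hV2 e; have := hU1 e
        simp only [Pi.sub_apply]
        omega
      · rw [map_sub, hV3, hU2]
    · funext e
      simp only [t, Pi.add_apply, Pi.sub_apply]
      omega
  · rintro ⟨f, g⟩ hp
    simp only [coe_filter, mem_product, Set.mem_ofPred_eq] at hp
    obtain ⟨⟨hf, hg⟩, hfg⟩ := hp
    obtain ⟨hf1, hf2, hf3⟩ := mem_F.1 hf
    obtain ⟨hg1, hg2, hg3⟩ := mem_F.1 hg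
    have hUe : ∀ e, (f e + g e) / 2 = U e := fun e => congrFun hfg e
    refine Finset.mem_coe.2 (mem_F.2 ⟨fun e => ?_, fun e => ?_, ?_⟩)
    · have := hf1 e; have := hg1 e; have := hf2 e; have := hg2 e; have := hUe e
      simp only
      omega
    · have := hf2 e; have := hg2 e; have := hUe e; have := hU1 e
      simp only
      omega
    · have h2 : f - g = (fun e => (f e - g e) / 2) + (fun e => (f e - g e) / 2) := by
        funext e
        have := hf2 e; have := hg2 e
        simp only [Pi.sub_apply, Pi.add_apply]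
        omega
      have h3 : D f - D g = D (fun e => (f e - g e) / 2) + D (fun e => (f e - g e) / 2) := by
        rw [← map_sub, h2, map_add]
      rw [hf3, hg3] at h3
      show D (fun e => (f e - g e) / 2) = y
      funext k
      have h4 := congrFun h3 k
      simp only [Pi.add_apply, Pi.sub_apply] at h4
      omega
  · intro V hV
    funext e
    simp only [Pi.add_apply, Pi.sub_apply]
    omega
  · rintro ⟨f, g⟩ hp
    simp only [coe_filter, mem_product, Set.mem_ofPred_eq] at hp
    obtain ⟨⟨hf, hg⟩, hfg⟩ := hp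
    obtain ⟨hf1, hf2, hf3⟩ := mem_F.1 hf
    obtain ⟨hg1, hg2, hg3⟩ := mem_F.1 hg
    have hUe : ∀ e, (f e + g e) / 2 = U e := fun e => congrFun hfg e
    ext e
    · have := hf2 e; have := hg2 e; have := hUe e
      simp only [Pi.add_apply]
      omega
    · have := hf2 e; have := hg2 e; have := hUe e
      simp only [Pi.sub_apply]
      omega

/-- Comparison through the pair formula. -/
theorem pair_le (D : (ι → ℤ) →+ (κ → ℤ)) (S : ι → ℕ) (z y y' : κ → ℤ)
    (h : ∀ S' : ι → ℕ, (F D S' y).card ≤ (F D S' y').card) :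
    (F D S (z + y)).card * (F D S (z - y)).card ≤ (F D S (z + y')).card * (F D S (z - y')).card := by
  rw [pair_formula, pair_formula]
  exact Finset.sum_le_sum fun t _ => h _

/-- First likelihood ratio inequality for the value of one edge. -/
theorem lr_one (src tgt : ι → κ) (hne : ∀ e, src e ≠ tgt e) {p q j : κ} (hpq : p ≠ q)
    (S : ι → ℕ) (W : κ → ℤ) {k₁ k₂ : ℤ} (hk : k₁ < k₂) :
    (F (inc src tgt) S (W - (2 * k₁) • (Pi.single p 1 - Pi.single j 1))).card *
      (F (inc src tgt) S (W - (2 : ℤ) • (Pi.single p 1 - Pi.single q 1) -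
        (2 * k₂) • (Pi.single p 1 - Pi.single j 1))).card ≤
    (F (inc src tgt) S (W - (2 * k₂) • (Pi.single p 1 - Pi.single j 1))).card *
      (F (inc src tgt) S (W - (2 : ℤ) • (Pi.single p 1 - Pi.single q 1) -
        (2 * k₁) • (Pi.single p 1 - Pi.single j 1))).card := by
  set d : κ → ℤ := Pi.single p 1 - Pi.single j 1 with hd
  set h : κ → ℤ := Pi.single p 1 - Pi.single q 1 with hh
  set τ : ℤ := k₂ - k₁ with hτ
  have hτ0 : 0 < τ := by omega
  set z : κ → ℤ := W - h - (k₁ + k₂) • d with hz
  set y : κ → ℤ := h + τ • d with hy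
  set y' : κ → ℤ := h - τ • d with hy'
  have e1 : W - (2 * k₁) • d = z + y := by
    funext v
    simp only [hz, hy, hτ, Pi.add_apply, Pi.sub_apply, Pi.smul_apply, smul_eq_mul]
    ring
  have e2 : W - (2 : ℤ) • h - (2 * k₂) • d = z - y := by
    funext v
    simp only [hz, hy, hτ, Pi.add_apply, Pi.sub_apply, Pi.smul_apply, smul_eq_mul]
    ring
  have e3 : W - (2 * k₂) • d = z + y' := by
    funext v
    simp only [hz, hy', hτ, Pi.add_apply, Pi.sub_apply, Pi.smul_apply, smul_eq_mul]
    ring
  have e4 : W - (2 : ℤ) • h - (2 * k₁) • d = z - y' := by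
    funext v
    simp only [hz, hy', hτ, Pi.add_apply, Pi.sub_apply, Pi.smul_apply, smul_eq_mul]
    ring
  rw [e1, e2, e3, e4]
  refine pair_le _ S z y y' fun S' => ?_
  have e5 : y' = (2 : ℤ) • (Pi.single p 1 - Pi.single q 1) - y := by
    funext v
    simp only [hy, hy', hh, Pi.add_apply, Pi.sub_apply, Pi.smul_apply, smul_eq_mul]
    ring
  rw [e5]
  refine card_flip_le src tgt hne ?_ ?_ S'
  · intro v hv
    by_contra hvp
    simp only [hy, hh, hd, Pi.add_apply, Pi.sub_apply, Pi.smul_apply, smul_eq_mul,
      Pi.single_apply, if_neg hvp] at hv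
    split_ifs at hv <;> nlinarith
  · simp only [hy, hh, hd, Pi.add_apply, Pi.sub_apply, Pi.smul_apply, smul_eq_mul,
      Pi.single_apply, if_neg hpq.symm]
    split_ifs <;> nlinarith

/-- Second likelihood ratio inequality for the value of one edge. -/
theorem lr_two (src tgt : ι → κ) (hne : ∀ e, src e ≠ tgt e) {p q j : κ} (hpq : p ≠ q)
    (S : ι → ℕ) (W : κ → ℤ) {k₁ k₂ : ℤ} (hk : k₁ < k₂) :
    (F (inc src tgt) S (W - (2 * k₂) • (Pi.single p 1 - Pi.single j 1))).card *
      (F (inc src tgt) S (W - (2 : ℤ) • (Pi.single p 1 - Pi.single q 1) -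
        (2 * (k₁ - 1)) • (Pi.single p 1 - Pi.single j 1))).card ≤
    (F (inc src tgt) S (W - (2 * k₁) • (Pi.single p 1 - Pi.single j 1))).card *
      (F (inc src tgt) S (W - (2 : ℤ) • (Pi.single p 1 - Pi.single q 1) -
        (2 * (k₂ - 1)) • (Pi.single p 1 - Pi.single j 1))).card := by
  set d : κ → ℤ := Pi.single p 1 - Pi.single j 1 with hd
  set h : κ → ℤ := Pi.single p 1 - Pi.single q 1 with hh
  set τ : ℤ := k₂ - k₁ with hτ
  have hτ0 : 0 < τ := by omega
  set z : κ → ℤ := W - h - (k₁ + k₂ - 1) • d with hz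
  set y : κ → ℤ := h - (τ + 1) • d with hy
  set y' : κ → ℤ := h + (τ - 1) • d with hy'
  have e1 : W - (2 * k₂) • d = z + y := by
    funext v
    simp only [hz, hy, hτ, Pi.add_apply, Pi.sub_apply, Pi.smul_apply, smul_eq_mul]
    ring
  have e2 : W - (2 : ℤ) • h - (2 * (k₁ - 1)) • d = z - y := by
    funext v
    simp only [hz, hy, hτ, Pi.add_apply, Pi.sub_apply, Pi.smul_apply, smul_eq_mul]
    ring
  have e3 : W - (2 * k₁) • d = z + y' := by
    funext v
    simp only [hz, hy', hτ, Pi.add_apply, Pi.sub_apply, Pi.smul_apply, smul_eq_mul]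
    ring
  have e4 : W - (2 : ℤ) • h - (2 * (k₂ - 1)) • d = z - y' := by
    funext v
    simp only [hz, hy', hτ, Pi.add_apply, Pi.sub_apply, Pi.smul_apply, smul_eq_mul]
    ring
  rw [e1, e2, e3, e4]
  refine pair_le _ S z y y' fun S' => ?_
  by_cases hjq : j = q
  · -- the tail of the difference sits at the other end of the edge
    have e5 : y' = -y := by
      funext v
      simp only [hy, hy', hh, hd, hjq, Pi.add_apply, Pi.sub_apply, Pi.smul_apply, smul_eq_mul,
        Pi.neg_apply]
      ring
    rw [e5, card_F_neg]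
  · have e5 : y' = (2 : ℤ) • (Pi.single j 1 - Pi.single q 1) - y := by
      funext v
      simp only [hy, hy', hh, hd, Pi.add_apply, Pi.sub_apply, Pi.smul_apply, smul_eq_mul]
      ring
    rw [e5]
    refine card_flip_le src tgt hne ?_ ?_ S'
    · intro v hv
      by_contra hvj
      simp only [hy, hh, hd, Pi.add_apply, Pi.sub_apply, Pi.smul_apply, smul_eq_mul,
        Pi.single_apply, if_neg hvj] at hv
      split_ifs at hv <;> nlinarith
    · simp only [hy, hh, hd, Pi.add_apply, Pi.sub_apply, Pi.smul_apply, smul_eq_mul,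
        Pi.single_apply, if_neg hpq.symm, if_neg (Ne.symm hjq)]
      norm_num

end Vale.Agent.Lib.P328B
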