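import Mathlib

/-!
# P328, binary margins: monotone coupling of two laws on an initial segment of the naturals (helper61)

From two likelihood ratio inequalities, a coupling with `k = l` or `k = l + 1`.
-/

set_option linter.unusedSimpArgs false

namespace Vale.Agent.Lib.P328B

open Finset

/-- Likelihood ratio order implies order of the tails. -/
theorem tail_le (K : ℕ) (a b : ℕ → ℝ) (ha : ∀ k, 0 ≤ a k) (hb : ∀ k, 0 ≤ b k)
    (hlr : ∀ l k, l < k → k < K → a l * b k ≤ a k * b l)
    (hsum : ∑ k ∈ range K, a k = ∑ k ∈ range K, b k) {t : ℕ} (ht : t ≤ K) :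
    ∑ k ∈ Ico t K, b k ≤ ∑ k ∈ Ico t K, a k := by
  set aU := ∑ k ∈ Ico t K, a k with haU
  set bU := ∑ k ∈ Ico t K, b k with hbU
  set aL := ∑ k ∈ range t, a k with haL
  set bL := ∑ k ∈ range t, b k with hbL
  have hsplit : ∀ c : ℕ → ℝ, ∑ k ∈ range K, c k = ∑ k ∈ range t, c k + ∑ k ∈ Ico t K, c k := by
    intro c
    rw [Finset.range_eq_Ico, Finset.range_eq_Ico, Finset.sum_Ico_consecutive _ (Nat.zero_le t) ht]
  have hT : aL + aU = bL + bU := by
    rw [← hsplit a, ← hsplit b, hsum]
  have haU0 : 0 ≤ aU := Finset.sum_nonneg fun k _ => ha k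
  have hbU0 : 0 ≤ bU := Finset.sum_nonneg fun k _ => hb k
  have haL0 : 0 ≤ aL := Finset.sum_nonneg fun k _ => ha k
  have hbL0 : 0 ≤ bL := Finset.sum_nonneg fun k _ => hb k
  have hcross : aL * bU ≤ aU * bL := by
    rw [haL, hbU, haU, hbL, Finset.sum_mul_sum, Finset.sum_mul_sum, Finset.sum_comm]
    refine Finset.sum_le_sum fun k hk => Finset.sum_le_sum fun l hl => ?_
    have hk' := Finset.mem_Ico.1 hk
    have hl' := Finset.mem_range.1 hl
    exact hlr l k (by omega) hk'.2
  by_cases hT0 : aL + aU = 0
  · have : bU = 0 := by linarith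
    linarith
  · have hpos : 0 < aL + aU := lt_of_le_of_ne (by linarith) (Ne.symm hT0)
    have h1 : bU * (aL + aU) ≤ aU * (aL + aU) := by
      have e : bL = aL + aU - bU := by linarith
      rw [e] at hcross
      nlinarith
    exact le_of_mul_le_mul_right h1 hpos

/-- The monotone coupling. -/
theorem coupling_one (K : ℕ) (p p' : ℕ → ℝ) (hp : ∀ k, 0 ≤ p k) (hp' : ∀ k, 0 ≤ p' k)
    (hpK : p K = 0)
    (hsum : ∑ k ∈ range K, p k = ∑ k ∈ range K, p' k)
    (lr1 : ∀ l k, l < k → k < K → p l * p' k ≤ p k * p' l)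
    (lr2 : ∀ l k, l < k → k < K → p (k + 1) * p' l ≤ p (l + 1) * p' k) :
    ∃ c : ℕ → ℕ → ℝ, (∀ k l, 0 ≤ c k l) ∧ (∀ k l, c k l ≠ 0 → k = l ∨ k = l + 1) ∧
      (∀ k < K, ∑ l ∈ range K, c k l = p k) ∧ (∀ l < K, ∑ k ∈ range K, c k l = p' l) := by
  classical
  set G : ℕ → ℝ := fun t => ∑ k ∈ Ico t K, p k with hG
  set G' : ℕ → ℝ := fun t => ∑ k ∈ Ico t K, p' k with hG'
  have hGs : ∀ t < K, G t = p t + G (t + 1) := fun t ht => Finset.sum_eq_sum_Ico_succ_bot ht p
  have hGs' : ∀ t < K, G' t = p' t + G' (t + 1) := fun t ht => Finset.sum_eq_sum_Ico_succ_bot ht p'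
  have hGK : G K = 0 := by simp [hG]
  have hGK' : G' K = 0 := by simp [hG']
  have hG0 : G 0 = G' 0 := by
    simp only [hG, hG', ← Finset.range_eq_Ico]
    exact hsum
  -- first order
  have ord1 : ∀ t ≤ K, G' t ≤ G t := fun t ht => tail_le K p p' hp hp' lr1 hsum ht
  -- second order: shift
  let a : ℕ → ℝ := fun k => match k with
    | 0 => 0
    | j + 1 => p' j
  have ha0 : ∀ k, 0 ≤ a k := by
    intro k
    cases k with
    | zero => exact le_rfl
    | succ j => exact hp' j
  have hsumA : ∀ c : ℕ → ℝ, ∑ k ∈ range (K + 1), c k = ∑ k ∈ range K, c k + c K :=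
    fun c => Finset.sum_range_succ c K
  have hsum2 : ∑ k ∈ range (K + 1), a k = ∑ k ∈ range (K + 1), p k := by
    rw [Finset.sum_range_succ' a K, hsumA p, hpK, add_zero, ← hsum]
    simp [a]
  have ord2 : ∀ t < K, G (t + 1) ≤ G' t := by
    intro t ht
    have hlr : ∀ l k, l < k → k < K + 1 → a l * p k ≤ a k * p l := by
      intro l k hlk hk
      cases k with
      | zero => omega
      | succ k =>
        cases l with
        | zero =>
          simp only [a, zero_mul]
          exact mul_nonneg (hp' k) (hp 0)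
        | succ l =>
          simp only [a]
          have := lr2 l k (by omega) (by omega)
          linarith
    have h := tail_le (K + 1) a p ha0 hp hlr hsum2 (t := t + 1) (by omega)
    have e1 : ∑ k ∈ Ico (t + 1) (K + 1), p k = G (t + 1) := by
      rw [Finset.sum_Ico_succ_top (by omega : t + 1 ≤ K), hpK, add_zero]
    have e2 : ∑ k ∈ Ico (t + 1) (K + 1), a k = G' t := by
      have : ∑ k ∈ Ico (t + 1) (K + 1), a k = ∑ k ∈ Ico t K, a (k + 1) :=
        (Finset.sum_Ico_add' a t K 1).symm
      rw [this]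
    rw [e1, e2] at h
    exact h
  refine ⟨fun k l => (if k = l then G' k - G (k + 1) else 0) + (if k = l + 1 then G k - G' k else 0),
    ?_, ?_, ?_, ?_⟩
  · -- nonnegativity
    intro k l
    have h1 : 0 ≤ if k = l then G' k - G (k + 1) else 0 := by
      split_ifs with h
      · by_cases hk : k < K
        · have := ord2 k hk
          linarith
        · have h2 : G (k + 1) = 0 := by
            simp only [hG]
            rw [Finset.Ico_eq_empty (by omega)]
            simp
          have h3 : 0 ≤ G' k := Finset.sum_nonneg fun j _ => hp' j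
          linarith
      · exact le_rfl
    have h2 : 0 ≤ if k = l + 1 then G k - G' k else 0 := by
      split_ifs with h
      · by_cases hk : k ≤ K
        · have := ord1 k hk
          linarith
        · have h3 : G k = 0 := by
            simp only [hG]
            rw [Finset.Ico_eq_empty (by omega)]
            simp
          have h4 : G' k = 0 := by
            simp only [hG']
            rw [Finset.Ico_eq_empty (by omega)]
            simp
          rw [h3, h4, sub_zero]
      · exact le_rfl
    exact add_nonneg h1 h2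
  · -- support
    intro k l h
    by_contra hcon
    push Not at hcon
    apply h
    beta_reduce
    rw [if_neg hcon.1, if_neg hcon.2, add_zero]
  · -- rows
    intro k hk
    rw [Finset.sum_add_distrib]
    have e1 : ∑ l ∈ range K, (if k = l then G' k - G (k + 1) else 0) = G' k - G (k + 1) := by
      rw [Finset.sum_ite_eq]
      simp [hk]
    have e2 : ∑ l ∈ range K, (if k = l + 1 then G k - G' k else 0) = G k - G' k := by
      cases k with
      | zero =>
        simp only [Nat.succ_ne_zero, Nat.zero_ne_add_one, if_false, Finset.sum_const_zero]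
        rw [hG0]
        simp
      | succ j =>
        simp only [Nat.add_right_cancel_iff]
        rw [Finset.sum_ite_eq]
        have : j < K := by omega
        simp [this]
    rw [e1, e2, hGs k hk]
    ring
  · -- columns
    intro l hl
    rw [Finset.sum_add_distrib]
    have e1 : ∑ k ∈ range K, (if k = l then G' k - G (k + 1) else 0) = G' l - G (l + 1) := by
      rw [Finset.sum_ite_eq']
      simp [hl]
    have e2 : ∑ k ∈ range K, (if k = l + 1 then G k - G' k else 0) = G (l + 1) - G' (l + 1) := by
      rw [Finset.sum_ite_eq']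
      by_cases h : l + 1 < K
      · simp [h]
      · have : l + 1 = K := by omega
        rw [this, hGK, hGK']
        simp
    rw [e1, e2, hGs' l hl]
    ring

/-- The monotone coupling of two laws given by unnormalised weights. -/
theorem coupling_levels (K : ℕ) (a b : ℕ → ℝ) (ha : ∀ k, 0 ≤ a k) (hb : ∀ k, 0 ≤ b k)
    (hT : 0 < ∑ k ∈ range K, a k) (hT' : 0 < ∑ k ∈ range K, b k)
    (lr1 : ∀ l k, l < k → k < K → a l * b k ≤ a k * b l)
    (lr2 : ∀ l k, l < k → k + 1 < K → a (k + 1) * b l ≤ a (l + 1) * b k) :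
    ∃ c : ℕ → ℕ → ℝ, (∀ k l, 0 ≤ c k l) ∧ (∀ k l, c k l ≠ 0 → k = l ∨ k = l + 1) ∧
      (∀ k < K, ∑ l ∈ range K, c k l = a k / ∑ j ∈ range K, a j) ∧
      (∀ l < K, ∑ k ∈ range K, c k l = b l / ∑ j ∈ range K, b j) := by
  set T := ∑ j ∈ range K, a j with hTd
  set T' := ∑ j ∈ range K, b j with hT'd
  set P : ℕ → ℝ := fun k => if k < K then a k / T else 0 with hP
  set P' : ℕ → ℝ := fun k => if k < K then b k / T' else 0 with hP'
  have hP0 : ∀ k, 0 ≤ P k := by
    intro k
    simp only [hP]
    split_ifs
    · exact div_nonneg (ha k) hT.le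
    · exact le_rfl
  have hP'0 : ∀ k, 0 ≤ P' k := by
    intro k
    simp only [hP']
    split_ifs
    · exact div_nonneg (hb k) hT'.le
    · exact le_rfl
  have hsumP : ∑ k ∈ range K, P k = 1 := by
    have : ∑ k ∈ range K, P k = ∑ k ∈ range K, a k / T :=
      Finset.sum_congr rfl fun k hk => by
        simp only [hP, if_pos (Finset.mem_range.1 hk)]
    rw [this, ← Finset.sum_div, ← hTd, div_self hT.ne']
  have hsumP' : ∑ k ∈ range K, P' k = 1 := by
    have : ∑ k ∈ range K, P' k = ∑ k ∈ range K, b k / T' :=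
      Finset.sum_congr rfl fun k hk => by
        simp only [hP', if_pos (Finset.mem_range.1 hk)]
    rw [this, ← Finset.sum_div, ← hT'd, div_self hT'.ne']
  have hlr1 : ∀ l k, l < k → k < K → P l * P' k ≤ P k * P' l := by
    intro l k hlk hk
    have hl : l < K := by omega
    simp only [hP, hP', if_pos hk, if_pos hl]
    rw [div_mul_div_comm, div_mul_div_comm]
    exact div_le_div_of_nonneg_right (lr1 l k hlk hk) (mul_pos hT hT').le
  have hlr2 : ∀ l k, l < k → k < K → P (k + 1) * P' l ≤ P (l + 1) * P' k := by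
    intro l k hlk hk
    have hl : l < K := by omega
    by_cases hk1 : k + 1 < K
    · have hl1 : l + 1 < K := by omega
      simp only [hP, hP', if_pos hk, if_pos hl, if_pos hk1, if_pos hl1]
      rw [div_mul_div_comm, div_mul_div_comm]
      exact div_le_div_of_nonneg_right (lr2 l k hlk hk1) (mul_pos hT hT').le
    · have : P (k + 1) = 0 := by
        simp only [hP, if_neg hk1]
      rw [this, zero_mul]
      exact mul_nonneg (hP0 _) (hP'0 _)
  obtain ⟨c, h0, hs, hr, hc⟩ := coupling_one K P P' hP0 hP'0
    (by simp only [hP]; rw [if_neg (lt_irrefl K)]) (by rw [hsumP, hsumP']) hlr1 hlr2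
  refine ⟨c, h0, hs, fun k hk => ?_, fun l hl => ?_⟩
  · rw [hr k hk]
    simp only [hP, if_pos hk]
  · rw [hc l hl]
    simp only [hP', if_pos hl]

end Vale.Agent.Lib.P328B
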