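import Vale.Agent.Lib.P328B.CoupFlow
import Vale.Agent.Lib.P328B.CoupOne

/-!
# P328, binary margins: the unit margin coupling for flows (helper61)

For the signed incidence map `D` of a digraph without loops, `F D S w` and `F D S (w - 2 (e_p - e_q))`
carry a coupling of their uniform laws with all entries within `2` (in table units: within `1`).
Induction on the capacities: fix an edge at the head `p`, couple its value monotonically, and recurse;
the head stays, or moves along the edge.
-/

set_option linter.unusedSectionVars false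
set_option linter.unusedSimpArgs false

namespace Vale.Agent.Lib.P328B

open Finset
open Vale.Agent.Lib.P328_helper60.Flow

variable {ι κ : Type*} [Fintype ι] [DecidableEq ι] [DecidableEq κ]

/-- A coupling of the uniform laws on `A` and `B` with all entries within `2`. -/
def Cpl (A B : Finset (ι → ℤ)) (c : (ι → ℤ) → (ι → ℤ) → ℝ) : Prop :=
  (∀ x y, 0 ≤ c x y) ∧ (∀ x ∈ A, ∑ y ∈ B, c x y = 1 / (A.card : ℝ)) ∧
    (∀ y ∈ B, ∑ x ∈ A, c x y = 1 / (B.card : ℝ)) ∧
      (∀ x ∈ A, ∀ y ∈ B, c x y ≠ 0 → ∀ e, |x e - y e| ≤ 2)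

/-- The capacity with the edge `g` closed. -/
def capOff (S : ι → ℕ) (g : ι) : ι → ℕ := Function.update S g 0

/-- The value of the edge `g` at level `k`, with orientation `σ`. -/
def edgeVal (S : ι → ℕ) (g : ι) (σ : ℤ) (k : ℕ) : ℤ := σ * (2 * k - S g)

/-- The level of a flow at the edge `g`, with orientation `σ`. -/
def lev (S : ι → ℕ) (g : ι) (σ : ℤ) (f : ι → ℤ) : ℕ := ((σ * f g + S g) / 2).toNat

theorem lev_spec {S : ι → ℕ} {g : ι} {σ : ℤ} (hσ : σ = 1 ∨ σ = -1) {f : ι → ℤ}
    (h1 : -(S g : ℤ) ≤ f g ∧ f g ≤ S g) (h2 : (f g - S g) % 2 = 0) :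
    lev S g σ f < S g + 1 ∧ edgeVal S g σ (lev S g σ f) = f g := by
  unfold lev edgeVal
  rcases hσ with rfl | rfl
  · simp only [one_mul]
    constructor <;> omega
  · constructor
    · omega
    · omega

theorem lev_add {S : ι → ℕ} {g : ι} {σ : ℤ} (hσ : σ = 1 ∨ σ = -1) {f₀ : ι → ℤ} (h0 : f₀ g = 0)
    (k : ℕ) : lev S g σ (f₀ + Pi.single g (edgeVal S g σ k)) = k := by
  unfold lev edgeVal
  simp only [Pi.add_apply, Pi.single_eq_same, h0, zero_add]
  rcases hσ with rfl | rfl
  · simp only [one_mul]
    omega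
  · omega

theorem update_add {g : ι} {f₀ : ι → ℤ} (h0 : f₀ g = 0) (v : ℤ) :
    Function.update (f₀ + Pi.single g v) g 0 = f₀ := by
  funext e
  by_cases h : e = g
  · subst h
    simp [h0]
  · simp [Function.update_of_ne h, Pi.single_apply, h]

theorem F_capOff_zero {D : (ι → ℤ) →+ (κ → ℤ)} {S : ι → ℕ} {g : ι} {w : κ → ℤ} {f₀ : ι → ℤ}
    (h : f₀ ∈ F D (capOff S g) w) : f₀ g = 0 := by
  obtain ⟨h1, -, -⟩ := mem_F.1 h
  have := h1 g
  simp only [capOff, Function.update_self] at this
  omega

/-- Splitting the set of flows by the value of one edge. -/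
theorem sum_F_fibre (D : (ι → ℤ) →+ (κ → ℤ)) (S : ι → ℕ) (w : κ → ℤ) (g : ι) {σ : ℤ}
    (hσ : σ = 1 ∨ σ = -1) (φ : (ι → ℤ) → ℝ) :
    ∑ f ∈ F D S w, φ f =
      ∑ k ∈ range (S g + 1), ∑ f₀ ∈ F D (capOff S g) (w - D (Pi.single g (edgeVal S g σ k))),
        φ (f₀ + Pi.single g (edgeVal S g σ k)) := by
  classical
  rw [Finset.sum_sigma']
  refine Finset.sum_bij' (fun f _ => ⟨lev S g σ f, Function.update f g 0⟩)
    (fun x _ => x.2 + Pi.single g (edgeVal S g σ x.1)) ?_ ?_ ?_ ?_ ?_
  · intro f hf
    obtain ⟨hf1, hf2, hf3⟩ := mem_F.1 hf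
    obtain ⟨hk, hv⟩ := lev_spec hσ (hf1 g) (hf2 g)
    refine Finset.mem_sigma.2 ⟨Finset.mem_range.2 hk, mem_F.2 ⟨fun e => ?_, fun e => ?_, ?_⟩⟩
    · by_cases h : e = g
      · subst h
        simp [capOff]
      · simp only [capOff, Function.update_of_ne h]
        exact hf1 e
    · by_cases h : e = g
      · subst h
        simp [capOff]
      · simp only [capOff, Function.update_of_ne h]
        exact hf2 e
    · rw [hv, ← hf3, eq_sub_iff_add_eq, ← map_add]
      congr 1
      funext e
      by_cases h : e = g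
      · subst h
        simp
      · simp [Function.update_of_ne h, Pi.single_apply, h]
  · rintro ⟨k, f₀⟩ hx
    obtain ⟨hk, hf₀⟩ := Finset.mem_sigma.1 hx
    have hk' := Finset.mem_range.1 hk
    simp only at hf₀ hk'
    obtain ⟨h1, h2, h3⟩ := mem_F.1 hf₀
    have h0 : f₀ g = 0 := F_capOff_zero hf₀
    refine mem_F.2 ⟨fun e => ?_, fun e => ?_, ?_⟩
    · by_cases h : e = g
      · subst h
        simp only [Pi.add_apply, Pi.single_eq_same, h0, zero_add, edgeVal]
        rcases hσ with rfl | rfl <;> constructor <;> omega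
      · have := h1 e
        simp only [capOff, Function.update_of_ne h] at this
        simpa [Pi.single_apply, h] using this
    · by_cases h : e = g
      · subst h
        simp only [Pi.add_apply, Pi.single_eq_same, h0, zero_add, edgeVal]
        rcases hσ with rfl | rfl <;> omega
      · have := h2 e
        simp only [capOff, Function.update_of_ne h] at this
        simpa [Pi.single_apply, h] using this
    · rw [map_add, h3]
      abel
  · intro f hf
    obtain ⟨hf1, hf2, hf3⟩ := mem_F.1 hf
    obtain ⟨hk, hv⟩ := lev_spec hσ (hf1 g) (hf2 g)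
    simp only [hv]
    funext e
    by_cases h : e = g
    · subst h
      simp
    · simp [Function.update_of_ne h, Pi.single_apply, h]
  · rintro ⟨k, f₀⟩ hx
    obtain ⟨hk, hf₀⟩ := Finset.mem_sigma.1 hx
    simp only at hf₀
    have h0 : f₀ g = 0 := F_capOff_zero hf₀
    simp only [lev_add hσ h0, update_add h0]
  · intro f hf
    obtain ⟨hf1, hf2, hf3⟩ := mem_F.1 hf
    obtain ⟨hk, hv⟩ := lev_spec hσ (hf1 g) (hf2 g)
    simp only [hv]
    congr 1
    funext e
    by_cases h : e = g
    · subst h
      simp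
    · simp [Function.update_of_ne h, Pi.single_apply, h]

/-- The number of flows, split by the value of one edge. -/
theorem card_F_fibre (D : (ι → ℤ) →+ (κ → ℤ)) (S : ι → ℕ) (w : κ → ℤ) (g : ι) {σ : ℤ}
    (hσ : σ = 1 ∨ σ = -1) :
    ((F D S w).card : ℝ) =
      ∑ k ∈ range (S g + 1), ((F D (capOff S g) (w - D (Pi.single g (edgeVal S g σ k)))).card : ℝ) := by
  have := sum_F_fibre D S w g hσ (fun _ => 1)
  simpa using this

/-- An edge with positive capacity at a vertex where two feasible targets differ. -/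
theorem exists_active (src tgt : ι → κ) {S : ι → ℕ} {w w' : κ → ℤ} {p : κ} (hw : w p ≠ w' p)
    (h1 : (F (inc src tgt) S w).Nonempty) (h2 : (F (inc src tgt) S w').Nonempty) :
    ∃ g, S g ≠ 0 ∧ (src g = p ∨ tgt g = p) := by
  by_contra hcon
  push Not at hcon
  have key : ∀ w'' : κ → ℤ, (F (inc src tgt) S w'').Nonempty → w'' p = 0 := by
    rintro w'' ⟨f, hf⟩
    obtain ⟨hf1, -, hf3⟩ := mem_F.1 hf
    rw [← hf3, inc_apply]
    refine Finset.sum_eq_zero fun e _ => ?_
    by_cases hS : S e = 0
    · have := hf1 e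
      rw [hS] at this
      have h0 : f e = 0 := by
        simp only [Nat.cast_zero, neg_zero] at this
        omega
      rw [h0, zero_mul]
    · obtain ⟨h3, h4⟩ := hcon e hS
      simp [h3, h4]
  exact hw ((key w h1).trans (key w' h2).symm)

/-- The diagonal coupling. -/
theorem cpl_diag (A : Finset (ι → ℤ)) : ∃ c, Cpl A A c := by
  classical
  refine ⟨fun x y => if x = y then 1 / (A.card : ℝ) else 0, ?_, ?_, ?_, ?_⟩
  · intro x y
    beta_reduce
    split_ifs
    · positivity
    · exact le_rfl
  · intro x hx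
    rw [Finset.sum_ite_eq]
    simp [hx]
  · intro y hy
    rw [Finset.sum_ite_eq']
    simp [hy]
  · intro x _ y _ h e
    by_cases hxy : x = y
    · subst hxy
      simp
    · simp [hxy] at h

/-- Gluing: a monotone coupling of the levels and couplings of the fibres give a coupling. -/
theorem glue_cpl (D : (ι → ℤ) →+ (κ → ℤ)) (S : ι → ℕ) (w w' : κ → ℤ) (g : ι) {σ : ℤ}
    (hσ : σ = 1 ∨ σ = -1) (c₁ : ℕ → ℕ → ℝ) (ρ : ℕ → ℕ → (ι → ℤ) → (ι → ℤ) → ℝ)
    (hne1 : (F D S w).Nonempty) (hne2 : (F D S w').Nonempty)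
    (hc0 : ∀ k l, 0 ≤ c₁ k l) (hcsupp : ∀ k l, c₁ k l ≠ 0 → k = l ∨ k = l + 1)
    (hcrow : ∀ k < S g + 1, ∑ l ∈ range (S g + 1), c₁ k l =
      ((F D (capOff S g) (w - D (Pi.single g (edgeVal S g σ k)))).card : ℝ) / ((F D S w).card : ℝ))
    (hccol : ∀ l < S g + 1, ∑ k ∈ range (S g + 1), c₁ k l =
      ((F D (capOff S g) (w' - D (Pi.single g (edgeVal S g σ l)))).card : ℝ) / ((F D S w').card : ℝ))
    (hρ0 : ∀ k l x y, 0 ≤ ρ k l x y)
    (hρC : ∀ k l, (k = l ∨ k = l + 1) →
      (F D (capOff S g) (w - D (Pi.single g (edgeVal S g σ k)))).Nonempty →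
      (F D (capOff S g) (w' - D (Pi.single g (edgeVal S g σ l)))).Nonempty →
      Cpl (F D (capOff S g) (w - D (Pi.single g (edgeVal S g σ k))))
        (F D (capOff S g) (w' - D (Pi.single g (edgeVal S g σ l)))) (ρ k l)) :
    ∃ c, Cpl (F D S w) (F D S w') c := by
  classical
  have hTpos : (0 : ℝ) < ((F D S w).card : ℝ) := by exact_mod_cast Finset.card_pos.2 hne1
  have hT'pos : (0 : ℝ) < ((F D S w').card : ℝ) := by exact_mod_cast Finset.card_pos.2 hne2
  -- properties of the fibres
  have hc_nonempty : ∀ k l, k < S g + 1 → l < S g + 1 → c₁ k l ≠ 0 →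
      (F D (capOff S g) (w - D (Pi.single g (edgeVal S g σ k)))).Nonempty ∧
      (F D (capOff S g) (w' - D (Pi.single g (edgeVal S g σ l)))).Nonempty := by
    intro k l hk hl hne0
    have hpos : 0 < c₁ k l := lt_of_le_of_ne (hc0 k l) (Ne.symm hne0)
    constructor
    · have h1 : c₁ k l ≤ ∑ l' ∈ range (S g + 1), c₁ k l' :=
        Finset.single_le_sum (f := fun l' => c₁ k l') (fun i _ => hc0 k i) (Finset.mem_range.2 hl)
      rw [hcrow k hk] at h1
      by_contra hcon
      rw [Finset.not_nonempty_iff_eq_empty] at hcon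
      rw [hcon] at h1
      simp at h1
      linarith
    · have h1 : c₁ k l ≤ ∑ k' ∈ range (S g + 1), c₁ k' l :=
        Finset.single_le_sum (f := fun k' => c₁ k' l) (fun i _ => hc0 i l) (Finset.mem_range.2 hk)
      rw [hccol l hl] at h1
      by_contra hcon
      rw [Finset.not_nonempty_iff_eq_empty] at hcon
      rw [hcon] at h1
      simp at h1
      linarith
  -- a flow and its fibre
  have hfib : ∀ {w₀ : κ → ℤ} {f : ι → ℤ}, f ∈ F D S w₀ →
      lev S g σ f < S g + 1 ∧
        Function.update f g 0 ∈ F D (capOff S g) (w₀ - D (Pi.single g (edgeVal S g σ (lev S g σ f)))) ∧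
        edgeVal S g σ (lev S g σ f) = f g := by
    intro w₀ f hf
    obtain ⟨hf1, hf2, hf3⟩ := mem_F.1 hf
    obtain ⟨hk, hv⟩ := lev_spec hσ (hf1 g) (hf2 g)
    refine ⟨hk, mem_F.2 ⟨fun e => ?_, fun e => ?_, ?_⟩, hv⟩
    · by_cases he : e = g
      · subst he
        simp [capOff]
      · simp only [capOff, Function.update_of_ne he]
        exact hf1 e
    · by_cases he : e = g
      · subst he
        simp [capOff]
      · simp only [capOff, Function.update_of_ne he]
        exact hf2 e
    · rw [hv, ← hf3, eq_sub_iff_add_eq, ← map_add]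
      congr 1
      funext e
      by_cases he : e = g
      · subst he
        simp
      · simp [Function.update_of_ne he, Pi.single_apply, he]
  refine ⟨fun f f' => c₁ (lev S g σ f) (lev S g σ f') *
    ρ (lev S g σ f) (lev S g σ f') (Function.update f g 0) (Function.update f' g 0),
    fun x y => mul_nonneg (hc0 _ _) (hρ0 _ _ _ _), ?_, ?_, ?_⟩
  · -- rows
    intro f hf
    obtain ⟨hk, hf₀, hfv⟩ := hfib hf
    have hAk : (F D (capOff S g) (w - D (Pi.single g (edgeVal S g σ (lev S g σ f))))).Nonempty :=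
      ⟨_, hf₀⟩
    have hAcard : ((F D (capOff S g) (w - D (Pi.single g (edgeVal S g σ (lev S g σ f))))).card : ℝ)
        ≠ 0 := by
      exact_mod_cast (Finset.card_pos.2 hAk).ne'
    rw [sum_F_fibre D S w' g hσ]
    have e1 : ∀ l ∈ range (S g + 1),
        ∑ f₀' ∈ F D (capOff S g) (w' - D (Pi.single g (edgeVal S g σ l))),
          c₁ (lev S g σ f) (lev S g σ (f₀' + Pi.single g (edgeVal S g σ l))) *
            ρ (lev S g σ f) (lev S g σ (f₀' + Pi.single g (edgeVal S g σ l))) (Function.update f g 0)
              (Function.update (f₀' + Pi.single g (edgeVal S g σ l)) g 0) =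
        c₁ (lev S g σ f) l /
          ((F D (capOff S g) (w - D (Pi.single g (edgeVal S g σ (lev S g σ f))))).card : ℝ) := by
      intro l hl
      have hl' : l < S g + 1 := Finset.mem_range.1 hl
      have e2 : ∀ f₀' ∈ F D (capOff S g) (w' - D (Pi.single g (edgeVal S g σ l))),
          c₁ (lev S g σ f) (lev S g σ (f₀' + Pi.single g (edgeVal S g σ l))) *
            ρ (lev S g σ f) (lev S g σ (f₀' + Pi.single g (edgeVal S g σ l))) (Function.update f g 0)
              (Function.update (f₀' + Pi.single g (edgeVal S g σ l)) g 0) =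
            c₁ (lev S g σ f) l * ρ (lev S g σ f) l (Function.update f g 0) f₀' := by
        intro f₀' hf₀'
        have h0 : f₀' g = 0 := F_capOff_zero hf₀'
        rw [lev_add hσ h0, update_add h0]
      rw [Finset.sum_congr rfl e2, ← Finset.mul_sum]
      by_cases hc : c₁ (lev S g σ f) l = 0
      · rw [hc, zero_mul, zero_div]
      · obtain ⟨_, hBl⟩ := hc_nonempty _ l hk hl' hc
        have hC := hρC _ l (hcsupp _ l hc) hAk hBl
        rw [hC.2.1 _ hf₀]
        ring
    rw [Finset.sum_congr rfl e1, ← Finset.sum_div, hcrow _ hk]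
    field_simp
  · -- columns
    intro f' hf'
    obtain ⟨hl, hf₀', hfv'⟩ := hfib hf'
    have hBl : (F D (capOff S g) (w' - D (Pi.single g (edgeVal S g σ (lev S g σ f'))))).Nonempty :=
      ⟨_, hf₀'⟩
    have hBcard : ((F D (capOff S g) (w' - D (Pi.single g (edgeVal S g σ (lev S g σ f'))))).card : ℝ)
        ≠ 0 := by
      exact_mod_cast (Finset.card_pos.2 hBl).ne'
    rw [sum_F_fibre D S w g hσ]
    have e1 : ∀ k ∈ range (S g + 1),
        ∑ f₀ ∈ F D (capOff S g) (w - D (Pi.single g (edgeVal S g σ k))),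
          c₁ (lev S g σ (f₀ + Pi.single g (edgeVal S g σ k))) (lev S g σ f') *
            ρ (lev S g σ (f₀ + Pi.single g (edgeVal S g σ k))) (lev S g σ f')
              (Function.update (f₀ + Pi.single g (edgeVal S g σ k)) g 0) (Function.update f' g 0) =
        c₁ k (lev S g σ f') /
          ((F D (capOff S g) (w' - D (Pi.single g (edgeVal S g σ (lev S g σ f'))))).card : ℝ) := by
      intro k hk
      have hk' : k < S g + 1 := Finset.mem_range.1 hk
      have e2 : ∀ f₀ ∈ F D (capOff S g) (w - D (Pi.single g (edgeVal S g σ k))),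
          c₁ (lev S g σ (f₀ + Pi.single g (edgeVal S g σ k))) (lev S g σ f') *
            ρ (lev S g σ (f₀ + Pi.single g (edgeVal S g σ k))) (lev S g σ f')
              (Function.update (f₀ + Pi.single g (edgeVal S g σ k)) g 0) (Function.update f' g 0) =
            c₁ k (lev S g σ f') * ρ k (lev S g σ f') f₀ (Function.update f' g 0) := by
        intro f₀ hf₀
        have h0 : f₀ g = 0 := F_capOff_zero hf₀
        rw [lev_add hσ h0, update_add h0]
      rw [Finset.sum_congr rfl e2, ← Finset.mul_sum]
      by_cases hc : c₁ k (lev S g σ f') = 0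
      · rw [hc, zero_mul, zero_div]
      · obtain ⟨hAk, _⟩ := hc_nonempty k _ hk' hl hc
        have hC := hρC k _ (hcsupp k _ hc) hAk hBl
        rw [hC.2.2.1 _ hf₀']
        ring
    rw [Finset.sum_congr rfl e1, ← Finset.sum_div, hccol _ hl]
    field_simp
  · -- closeness
    intro f hf f' hf' hcc e
    obtain ⟨hk, hf₀, hfv⟩ := hfib hf
    obtain ⟨hl, hf₀', hfv'⟩ := hfib hf'
    have hc : c₁ (lev S g σ f) (lev S g σ f') ≠ 0 := fun h => hcc (by simp [h])
    have hr : ρ (lev S g σ f) (lev S g σ f') (Function.update f g 0) (Function.update f' g 0) ≠ 0 :=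
      fun h => hcc (by simp [h])
    obtain ⟨hAk, hBl⟩ := hc_nonempty _ _ hk hl hc
    have hsupp := hcsupp _ _ hc
    have hC := hρC _ _ hsupp hAk hBl
    by_cases he : e = g
    · subst he
      rw [← hfv, ← hfv']
      simp only [edgeVal]
      rcases hsupp with h1 | h1 <;> rcases hσ with rfl | rfl <;> rw [h1] <;> push_cast <;>
        rw [abs_le] <;> constructor <;> omega
    · have := hC.2.2.2 _ hf₀ _ hf₀' hr e
      simpa [Function.update_of_ne he] using this

/-- The value of an edge as a multiple of its oriented incidence vector. -/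
theorem inc_edgeVal (src tgt : ι → κ) (S : ι → ℕ) (g : ι) (σ : ℤ) {d : κ → ℤ}
    (hd : inc src tgt (Pi.single g σ) = d) (k : ℕ) :
    inc src tgt (Pi.single g (edgeVal S g σ k)) = (2 * (k : ℤ) - S g) • d := by
  have e : (Pi.single g (edgeVal S g σ k) : ι → ℤ) = (2 * (k : ℤ) - S g) • Pi.single g σ := by
    funext e'
    by_cases h' : e' = g
    · subst h'
      simp [edgeVal, mul_comm]
    · simp [Pi.single_apply, h']
  rw [e, map_zsmul, hd]

/-- The unit coupling for flows. -/
theorem coupling_flow (src tgt : ι → κ) (hne : ∀ e, src e ≠ tgt e) :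
    ∀ (n : ℕ) (S : ι → ℕ), ∑ e, S e = n → ∀ (w : κ → ℤ) (p q : κ),
      (F (inc src tgt) S w).Nonempty →
      (F (inc src tgt) S (w - (2 : ℤ) • (Pi.single p 1 - Pi.single q 1))).Nonempty →
      ∃ c, Cpl (F (inc src tgt) S w)
        (F (inc src tgt) S (w - (2 : ℤ) • (Pi.single p 1 - Pi.single q 1))) c := by
  classical
  intro n
  induction n using Nat.strong_induction_on with
  | _ n ih =>
    intro S hS w p q hne1 hne2
    by_cases hpq : p = q
    · subst hpq
      have e : w - (2 : ℤ) • (Pi.single p 1 - Pi.single p 1 : κ → ℤ) = w := by simp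
      rw [e]
      exact cpl_diag _
    -- the edge
    obtain ⟨g, hSg, hgp⟩ := exists_active src tgt (w := w)
      (w' := w - (2 : ℤ) • (Pi.single p 1 - Pi.single q 1)) (p := p)
      (by
        simp only [Pi.sub_apply, Pi.smul_apply, smul_eq_mul, Pi.single_eq_same,
          Pi.single_apply, if_neg hpq]
        omega) hne1 hne2
    obtain ⟨σ, j, hσ, hd⟩ : ∃ (σ : ℤ) (j : κ), (σ = 1 ∨ σ = -1) ∧
        inc src tgt (Pi.single g σ) = Pi.single p 1 - Pi.single j 1 := by
      rcases hgp with h | h
      · refine ⟨1, tgt g, Or.inl rfl, ?_⟩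
        rw [inc_single, h, one_smul]
      · refine ⟨-1, src g, Or.inr rfl, ?_⟩
        rw [inc_single, h]
        funext v
        simp only [Pi.smul_apply, Pi.sub_apply, smul_eq_mul]
        ring
    have hS'lt : ∑ e, capOff S g e < n := by
      rw [← hS]
      refine Finset.sum_lt_sum (fun e _ => ?_) ⟨g, mem_univ _, ?_⟩
      · by_cases he : e = g
        · subst he
          simp [capOff]
        · simp [capOff, Function.update_of_ne he]
      · simp only [capOff, Function.update_self]
        omega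
    have hval := inc_edgeVal src tgt S g σ hd
    -- rewriting of targets
    have hAW : ∀ k : ℕ, w - inc src tgt (Pi.single g (edgeVal S g σ k)) =
        (w + (S g : ℤ) • (Pi.single p 1 - Pi.single j 1)) - (2 * (k : ℤ)) • (Pi.single p 1 - Pi.single j 1) := by
      intro k
      rw [hval]
      funext v
      simp only [Pi.add_apply, Pi.sub_apply, Pi.smul_apply, smul_eq_mul]
      ring
    have hBW : ∀ k : ℕ, (w - (2 : ℤ) • (Pi.single p 1 - Pi.single q 1)) -
          inc src tgt (Pi.single g (edgeVal S g σ k)) =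
        (w + (S g : ℤ) • (Pi.single p 1 - Pi.single j 1)) - (2 : ℤ) • (Pi.single p 1 - Pi.single q 1) -
          (2 * (k : ℤ)) • (Pi.single p 1 - Pi.single j 1) := by
      intro k
      rw [hval]
      funext v
      simp only [Pi.add_apply, Pi.sub_apply, Pi.smul_apply, smul_eq_mul]
      ring
    -- the coupling of the levels
    obtain ⟨c₁, hc0, hcsupp, hcrow, hccol⟩ := coupling_levels (S g + 1)
      (fun k => ((F (inc src tgt) (capOff S g)
        (w - inc src tgt (Pi.single g (edgeVal S g σ k)))).card : ℝ))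
      (fun k => ((F (inc src tgt) (capOff S g)
        ((w - (2 : ℤ) • (Pi.single p 1 - Pi.single q 1)) -
          inc src tgt (Pi.single g (edgeVal S g σ k)))).card : ℝ))
      (fun _ => by positivity) (fun _ => by positivity)
      (by
        rw [← card_F_fibre _ S w g hσ]
        exact_mod_cast Finset.card_pos.2 hne1)
      (by
        rw [← card_F_fibre _ S _ g hσ]
        exact_mod_cast Finset.card_pos.2 hne2)
      (by
        intro l k hlk _
        simp only [hAW, hBW]
        have h0 := lr_one src tgt hne (j := j) hpq (capOff S g)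
          (w + (S g : ℤ) • (Pi.single p 1 - Pi.single j 1)) (k₁ := (l : ℤ)) (k₂ := (k : ℤ))
          (by exact_mod_cast hlk)
        exact_mod_cast h0)
      (by
        intro l k hlk _
        simp only [hAW, hBW]
        have h0 := lr_two src tgt hne (j := j) hpq (capOff S g)
          (w + (S g : ℤ) • (Pi.single p 1 - Pi.single j 1)) (k₁ := (l : ℤ) + 1) (k₂ := (k : ℤ) + 1)
          (by exact_mod_cast (by omega : l + 1 < k + 1))
        have e1 : ((l : ℤ) + 1 - 1) = (l : ℤ) := by ring
        have e2 : ((k : ℤ) + 1 - 1) = (k : ℤ) := by ring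
        rw [e1, e2] at h0
        exact_mod_cast h0)
    rw [← card_F_fibre _ S w g hσ] at hcrow
    rw [← card_F_fibre _ S _ g hσ] at hccol
    -- the couplings of the fibres
    have hρ : ∀ k l, ∃ ρ : (ι → ℤ) → (ι → ℤ) → ℝ, (∀ x y, 0 ≤ ρ x y) ∧
        ((k = l ∨ k = l + 1) →
          (F (inc src tgt) (capOff S g) (w - inc src tgt (Pi.single g (edgeVal S g σ k)))).Nonempty →
          (F (inc src tgt) (capOff S g) ((w - (2 : ℤ) • (Pi.single p 1 - Pi.single q 1)) -
            inc src tgt (Pi.single g (edgeVal S g σ l)))).Nonempty →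
          Cpl (F (inc src tgt) (capOff S g) (w - inc src tgt (Pi.single g (edgeVal S g σ k))))
            (F (inc src tgt) (capOff S g) ((w - (2 : ℤ) • (Pi.single p 1 - Pi.single q 1)) -
              inc src tgt (Pi.single g (edgeVal S g σ l)))) ρ) := by
      intro k l
      by_cases hcond : (k = l ∨ k = l + 1) ∧
          (F (inc src tgt) (capOff S g) (w - inc src tgt (Pi.single g (edgeVal S g σ k)))).Nonempty ∧
          (F (inc src tgt) (capOff S g) ((w - (2 : ℤ) • (Pi.single p 1 - Pi.single q 1)) -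
            inc src tgt (Pi.single g (edgeVal S g σ l)))).Nonempty
      · obtain ⟨hkl, hAk, hBl⟩ := hcond
        have : ∃ ρ, Cpl (F (inc src tgt) (capOff S g) (w - inc src tgt (Pi.single g (edgeVal S g σ k))))
            (F (inc src tgt) (capOff S g) ((w - (2 : ℤ) • (Pi.single p 1 - Pi.single q 1)) -
              inc src tgt (Pi.single g (edgeVal S g σ l)))) ρ := by
          rcases hkl with rfl | rfl
          · have e : (w - (2 : ℤ) • (Pi.single p 1 - Pi.single q 1)) -
                inc src tgt (Pi.single g (edgeVal S g σ k)) =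
                (w - inc src tgt (Pi.single g (edgeVal S g σ k))) -
                  (2 : ℤ) • (Pi.single p 1 - Pi.single q 1) := by
              abel
            rw [e] at hBl ⊢
            exact ih _ hS'lt _ rfl _ p q hAk hBl
          · have e : (w - (2 : ℤ) • (Pi.single p 1 - Pi.single q 1)) -
                inc src tgt (Pi.single g (edgeVal S g σ l)) =
                (w - inc src tgt (Pi.single g (edgeVal S g σ (l + 1)))) -
                  (2 : ℤ) • (Pi.single j 1 - Pi.single q 1) := by
              rw [hval, hval]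
              funext v
              simp only [Pi.sub_apply, Pi.smul_apply, smul_eq_mul]
              push_cast
              ring
            rw [e] at hBl ⊢
            exact ih _ hS'lt _ rfl _ j q hAk hBl
        obtain ⟨ρ, hρ⟩ := this
        exact ⟨ρ, hρ.1, fun _ _ _ => hρ⟩
      · refine ⟨fun _ _ => 0, fun _ _ => le_rfl, fun h1 h2 h3 => absurd ⟨h1, h2, h3⟩ hcond⟩
    choose ρ hρ0 hρC using hρ
    exact glue_cpl _ S w _ g hσ c₁ ρ hne1 hne2 hc0 hcsupp hcrow hccol hρ0 hρC

end Vale.Agent.Lib.P328B
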