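import Vale.Agent.Lib.P328U.Avg

/-!
The split lemma: two partitions of a finite set which are nearly independent, in the sense that
the classes of the second partition can be coupled so that the first partition does not see the
difference, split the variance of any function additively.
-/

namespace Vale.Agent.Lib.P328B

open Finset Vale.Agent.Lib.P328Q Vale.Agent.Lib.P328U

noncomputable section

variable {G α β : Type*} [AddCommGroup G] [DecidableEq G] [DecidableEq α] [DecidableEq β]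

omit [AddCommGroup G] [DecidableEq G] in
/-- The mean of a function on a finite set. -/
def mean (F : Finset G) (f : G → ℝ) : ℝ := (∑ x ∈ F, f x) / (F.card : ℝ)

omit [AddCommGroup G] [DecidableEq G] [DecidableEq α] in
/-- The conditional expectation of `f` given the class of `L`. -/
def ce (F : Finset G) (L : G → β) (f : G → ℝ) (x : G) : ℝ :=
  mean (F.filter fun y => L y = L x) f

/-- A coupling of the uniform laws on `S` and `T`. -/
structure IsCoupling (S T : Finset G) (π : G → G → ℝ) : Prop where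
  nonneg : ∀ x y, 0 ≤ π x y
  left : ∀ x ∈ S, ∑ y ∈ T, π x y = 1 / (S.card : ℝ)
  right : ∀ y ∈ T, ∑ x ∈ S, π x y = 1 / (T.card : ℝ)

omit [AddCommGroup G] [DecidableEq G] [DecidableEq α] [DecidableEq β] in
lemma abs_mean_le {F : Finset G} {f : G → ℝ} {A : ℝ} (hA0 : 0 ≤ A) (hA : ∀ x ∈ F, |f x| ≤ A) :
    |mean F f| ≤ A := by
  unfold mean
  rcases F.eq_empty_or_nonempty with rfl | hne
  · simpa using hA0
  · have hc : (0 : ℝ) < F.card := by exact_mod_cast hne.card_pos
    rw [abs_div, abs_of_pos hc, div_le_iff₀ hc]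
    calc _ ≤ ∑ x ∈ F, |f x| := abs_sum_le_sum_abs _ _
      _ ≤ ∑ _x ∈ F, A := sum_le_sum hA
      _ = _ := by simp [mul_comm]

omit [AddCommGroup G] [DecidableEq G] in
/-- Sums of a function times an `L`-measurable weight see only the conditional expectation. -/
lemma sum_mul_ce (F : Finset G) (L : G → β) (f ψ : G → ℝ)
    (hψ : ∀ x y, L x = L y → ψ x = ψ y) :
    ∑ x ∈ F, ψ x * f x = ∑ x ∈ F, ψ x * ce F L f x := by
  classical
  rw [← sum_fiberwise_of_maps_to (s := F) (t := F.image L) (g := L)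
      (fun x hx => mem_image_of_mem L hx),
    ← sum_fiberwise_of_maps_to (s := F) (t := F.image L) (g := L)
      (fun x hx => mem_image_of_mem L hx) (f := fun x => ψ x * ce F L f x)]
  refine sum_congr rfl fun ℓ hℓ => ?_
  obtain ⟨x₀, hx₀, rfl⟩ := mem_image.1 hℓ
  have hne : (F.filter fun y => L y = L x₀).Nonempty := ⟨x₀, mem_filter.2 ⟨hx₀, rfl⟩⟩
  have hc : ((F.filter fun y => L y = L x₀).card : ℝ) ≠ 0 := by
    exact_mod_cast hne.card_pos.ne'
  have h1 : ∀ x ∈ F.filter (fun y => L y = L x₀), ψ x * f x = ψ x₀ * f x := fun x hx => by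
    rw [hψ x x₀ (mem_filter.1 hx).2]
  have h2 : ∀ x ∈ F.filter (fun y => L y = L x₀), ψ x * ce F L f x =
      ψ x₀ * mean (F.filter fun y => L y = L x₀) f := fun x hx => by
    rw [hψ x x₀ (mem_filter.1 hx).2]
    unfold ce
    rw [(mem_filter.1 hx).2]
  rw [sum_congr rfl h1, sum_congr rfl h2, sum_const, ← mul_sum, nsmul_eq_mul]
  unfold mean
  field_simp

omit [AddCommGroup G] [DecidableEq G] in
/-- A sum of class sizes. -/
lemma sum_ce (F : Finset G) (L : G → β) (f : G → ℝ) :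
    ∑ x ∈ F, ce F L f x = ∑ x ∈ F, f x := by
  have := sum_mul_ce F L f (fun _ => 1) (fun _ _ _ => rfl)
  simpa using this.symm

/-- The variance as a difference of moments. -/
lemma vr_eq_moments (F : Finset G) (f : G → ℝ) (hF : F.Nonempty) :
    vr F f = (∑ x ∈ F, f x ^ 2) / (F.card : ℝ) - ((∑ x ∈ F, f x) / (F.card : ℝ)) ^ 2 := by
  have hc : (F.card : ℝ) ≠ 0 := by exact_mod_cast hF.card_pos.ne'
  unfold vr
  rw [wv_eq_moments]
  field_simp

/-- The weighted sum of the variances on the classes is the gap between the second moments. -/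
lemma sum_vr_classes (F : Finset G) (L : G → β) (f : G → ℝ) (hF : F.Nonempty) :
    ∑ ℓ ∈ F.image L, (((F.filter fun y => L y = ℓ).card : ℝ) / (F.card : ℝ)) *
        vr (F.filter fun y => L y = ℓ) f =
      (∑ x ∈ F, f x ^ 2 - ∑ x ∈ F, ce F L f x ^ 2) / (F.card : ℝ) := by
  have hc : (F.card : ℝ) ≠ 0 := by exact_mod_cast hF.card_pos.ne'
  rw [← sum_fiberwise_of_maps_to (s := F) (t := F.image L) (g := L)
      (fun x hx => mem_image_of_mem L hx) (f := fun x => f x ^ 2),
    ← sum_fiberwise_of_maps_to (s := F) (t := F.image L) (g := L)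
      (fun x hx => mem_image_of_mem L hx) (f := fun x => ce F L f x ^ 2),
    ← sum_sub_distrib, sum_div]
  refine sum_congr rfl fun ℓ hℓ => ?_
  obtain ⟨x₀, hx₀, rfl⟩ := mem_image.1 hℓ
  have hne : (F.filter fun y => L y = L x₀).Nonempty := ⟨x₀, mem_filter.2 ⟨hx₀, rfl⟩⟩
  have hc' : ((F.filter fun y => L y = L x₀).card : ℝ) ≠ 0 := by
    exact_mod_cast hne.card_pos.ne'
  have h2 : ∀ x ∈ F.filter (fun y => L y = L x₀), ce F L f x ^ 2 =
      mean (F.filter fun y => L y = L x₀) f ^ 2 := fun x hx => by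
    unfold ce
    rw [(mem_filter.1 hx).2]
  rw [vr_eq_moments _ _ hne, sum_congr rfl h2, sum_const, nsmul_eq_mul]
  unfold mean
  field_simp

omit [AddCommGroup G] [DecidableEq G] in
/-- The Hilbert space inequality behind the split lemma. -/
lemma hilbert (F : Finset G) (f : G → ℝ) (H : G → α) (L : G → β) :
    ∑ x ∈ F, ce F H f x ^ 2 + ∑ x ∈ F, ce F L f x ^ 2 ≤
      ∑ x ∈ F, f x ^ 2 + 2 * ∑ x ∈ F, (ce F H f x - mean F f) * (ce F L f x - mean F f) +
        (F.card : ℝ) * mean F f ^ 2 := by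
  set g := ce F H f with hg
  set v := ce F L f with hv
  set μ := mean F f with hμ
  have hfg : ∑ x ∈ F, g x * f x = ∑ x ∈ F, g x * g x :=
    sum_mul_ce F H f g (fun x y hxy => by
      simp only [hg, ce]
      rw [hxy])
  have hfv : ∑ x ∈ F, v x * f x = ∑ x ∈ F, v x * v x :=
    sum_mul_ce F L f v (fun x y hxy => by
      simp only [hv, ce]
      rw [hxy])
  have hsg : ∑ x ∈ F, g x = ∑ x ∈ F, f x := sum_ce F H f
  have hsv : ∑ x ∈ F, v x = ∑ x ∈ F, f x := sum_ce F L f
  have hsf : ∑ x ∈ F, f x = (F.card : ℝ) * μ := by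
    rcases F.eq_empty_or_nonempty with rfl | hne
    · simp
    · have hc : (F.card : ℝ) ≠ 0 := by exact_mod_cast hne.card_pos.ne'
      rw [hμ]
      unfold mean
      field_simp
  have hpos : 0 ≤ ∑ x ∈ F, (f x - g x - v x + μ) ^ 2 := sum_nonneg fun _ _ => sq_nonneg _
  have hexp : ∑ x ∈ F, (f x - g x - v x + μ) ^ 2 =
      ∑ x ∈ F, f x ^ 2 + ∑ x ∈ F, g x * g x + ∑ x ∈ F, v x * v x - 2 * ∑ x ∈ F, g x * f x -
        2 * ∑ x ∈ F, v x * f x + 2 * ∑ x ∈ F, (g x - μ) * (v x - μ) +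
        2 * μ * ∑ x ∈ F, f x - (F.card : ℝ) * μ ^ 2 := by
    have e1 : ∑ x ∈ F, (g x - μ) * (v x - μ) =
        ∑ x ∈ F, g x * v x - μ * ∑ x ∈ F, g x - μ * ∑ x ∈ F, v x + (F.card : ℝ) * μ ^ 2 := by
      simp only [mul_sum, ← sum_sub_distrib]
      rw [show (F.card : ℝ) * μ ^ 2 = ∑ _x ∈ F, μ ^ 2 by simp, ← sum_add_distrib]
      refine sum_congr rfl fun x _ => ?_
      ring
    have e2 : ∑ x ∈ F, (f x - g x - v x + μ) ^ 2 =
        ∑ x ∈ F, f x ^ 2 + ∑ x ∈ F, g x * g x + ∑ x ∈ F, v x * v x - 2 * ∑ x ∈ F, g x * f x -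
          2 * ∑ x ∈ F, v x * f x + 2 * ∑ x ∈ F, g x * v x + 2 * μ * ∑ x ∈ F, f x -
          2 * μ * ∑ x ∈ F, g x - 2 * μ * ∑ x ∈ F, v x + (F.card : ℝ) * μ ^ 2 := by
      simp only [mul_sum, ← sum_add_distrib, ← sum_sub_distrib]
      rw [show (F.card : ℝ) * μ ^ 2 = ∑ _x ∈ F, μ ^ 2 by simp, ← sum_add_distrib]
      refine sum_congr rfl fun x _ => ?_
      ring
    rw [e1, e2, hsg, hsv]
    ring
  rw [hexp, hfg, hfv] at hpos
  have hg2 : ∑ x ∈ F, g x ^ 2 = ∑ x ∈ F, g x * g x := sum_congr rfl fun x _ => sq _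
  have hv2 : ∑ x ∈ F, v x ^ 2 = ∑ x ∈ F, v x * v x := sum_congr rfl fun x _ => sq _
  rw [hg2, hv2]
  rw [hsf] at hpos
  nlinarith

omit [AddCommGroup G] [DecidableEq G] [DecidableEq α] [DecidableEq β] in
/-- Means along a coupling which rarely separates values of `g`. -/
lemma coupling_mean_diff [DecidableEq G] {S T B : Finset G} {π : G → G → ℝ} {g : G → ℝ} {C : ℝ}
    [AddCommGroup G] (hc : IsCoupling S T π)
    (hS : S.Nonempty) (hT : T.Nonempty) (hC : ∀ x ∈ S, ∀ y ∈ T, |g x - g y| ≤ C)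
    (hg : ∀ x ∈ S, ∀ y ∈ T, π x y ≠ 0 → x ∉ B → g x = g y) :
    |mean S g - mean T g| ≤ C * (((S ∩ B).card : ℝ) / (S.card : ℝ)) := by
  have hSc : (S.card : ℝ) ≠ 0 := by exact_mod_cast hS.card_pos.ne'
  have hTc : (T.card : ℝ) ≠ 0 := by exact_mod_cast hT.card_pos.ne'
  have h1 : mean S g = ∑ x ∈ S, ∑ y ∈ T, π x y * g x := by
    unfold mean
    rw [sum_div]
    refine sum_congr rfl fun x hx => ?_
    rw [← sum_mul, hc.left x hx]
    field_simp
  have h2 : mean T g = ∑ x ∈ S, ∑ y ∈ T, π x y * g y := by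
    rw [sum_comm]
    unfold mean
    rw [sum_div]
    refine sum_congr rfl fun y hy => ?_
    rw [← sum_mul, hc.right y hy]
    field_simp
  have h3 : mean S g - mean T g = ∑ x ∈ S, ∑ y ∈ T, π x y * (g x - g y) := by
    rw [h1, h2, ← sum_sub_distrib]
    refine sum_congr rfl fun x _ => ?_
    rw [← sum_sub_distrib]
    refine sum_congr rfl fun y _ => ?_
    ring
  rw [h3]
  have hC0 : 0 ≤ C := by
    obtain ⟨x, hx⟩ := hS
    obtain ⟨y, hy⟩ := hT
    exact (abs_nonneg _).trans (hC x hx y hy)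
  have h4 : ∀ x ∈ S, |∑ y ∈ T, π x y * (g x - g y)| ≤
      if x ∈ B then C * (1 / (S.card : ℝ)) else 0 := by
    intro x hx
    by_cases hxB : x ∈ B
    · rw [if_pos hxB, ← hc.left x hx, mul_sum]
      refine (abs_sum_le_sum_abs _ _).trans (sum_le_sum fun y hy => ?_)
      rw [abs_mul, abs_of_nonneg (hc.nonneg x y), mul_comm]
      exact mul_le_mul_of_nonneg_right (hC x hx y hy) (hc.nonneg x y)
    · rw [if_neg hxB]
      have : ∑ y ∈ T, π x y * (g x - g y) = 0 := by
        refine sum_eq_zero fun y hy => ?_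
        by_cases h0 : π x y = 0
        · simp [h0]
        · rw [hg x hx y hy h0 hxB]
          simp
      rw [this]
      simp
  calc _ ≤ ∑ x ∈ S, |∑ y ∈ T, π x y * (g x - g y)| := abs_sum_le_sum_abs _ _
    _ ≤ ∑ x ∈ S, if x ∈ B then C * (1 / (S.card : ℝ)) else 0 := sum_le_sum h4
    _ = _ := by
      rw [← sum_filter, sum_const, nsmul_eq_mul, filter_mem_eq_inter]
      ring

/-- **The split lemma.** If all classes of `L` can be pairwise coupled such that the value of `H`
can only differ when the first point lies in `B`, the variance of `f` splits, with an error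
controlled by the mass of `B`. -/
theorem split (F : Finset G) (f : G → ℝ) (H : G → α) (L : G → β) (A : ℝ) (hA : ∀ x ∈ F, |f x| ≤ A)
    (B : Finset G)
    (hcpl : ∀ ℓ ∈ F.image L, ∀ ℓ' ∈ F.image L, ∃ π : G → G → ℝ,
      IsCoupling (F.filter fun y => L y = ℓ) (F.filter fun y => L y = ℓ') π ∧
      ∀ x ∈ F.filter (fun y => L y = ℓ), ∀ x' ∈ F.filter (fun y => L y = ℓ'),
        π x x' ≠ 0 → x ∉ B → H x = H x') :
    vr F f ≤ ∑ h ∈ F.image H, (((F.filter fun y => H y = h).card : ℝ) / (F.card : ℝ)) *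
          vr (F.filter fun y => H y = h) f +
        ∑ ℓ ∈ F.image L, (((F.filter fun y => L y = ℓ).card : ℝ) / (F.card : ℝ)) *
          vr (F.filter fun y => L y = ℓ) f +
        8 * A ^ 2 * (((F ∩ B).card : ℝ) / (F.card : ℝ)) := by
  rcases F.eq_empty_or_nonempty with rfl | hF
  · simp [vr, wv]
  have hc : (0 : ℝ) < F.card := by exact_mod_cast hF.card_pos
  have hA0 : 0 ≤ A := by
    obtain ⟨x, hx⟩ := hF
    exact (abs_nonneg _).trans (hA x hx)
  rw [sum_vr_classes F H f hF, sum_vr_classes F L f hF, vr_eq_moments F f hF]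
  set g := ce F H f with hg
  set v := ce F L f with hv
  set μ := mean F f with hμ
  set u := ce F L g with hu
  have hcl : ∀ {γ : Type _} [DecidableEq γ] (K : G → γ) (x : G), x ∈ F →
      (F.filter fun y => K y = K x).Nonempty :=
    fun K x hx => ⟨x, mem_filter.2 ⟨hx, rfl⟩⟩
  have hgA : ∀ x ∈ F, |g x| ≤ A := fun x hx => by
    apply abs_mean_le hA0
    intro y hy
    exact hA y (mem_filter.1 hy).1
  have hvA : ∀ x ∈ F, |v x| ≤ A := fun x hx => by
    apply abs_mean_le hA0
    intro y hy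
    exact hA y (mem_filter.1 hy).1
  have hμA : |μ| ≤ A := abs_mean_le hA0 hA
  -- the conditional means of `g` are almost constant
  have hμg : μ = (∑ x' ∈ F, u x') / (F.card : ℝ) := by
    rw [hμ]
    unfold mean
    congr 1
    rw [hu, sum_ce F L g, hg, sum_ce F H f]
  have huμ : ∀ x ∈ F, |u x - μ| ≤ (2 * A) *
      (((F.filter (fun y => L y = L x) ∩ B).card : ℝ) / ((F.filter fun y => L y = L x).card : ℝ)) := by
    intro x hx
    have hdiff : ∀ x' ∈ F, |u x - u x'| ≤ (2 * A) *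
        (((F.filter (fun y => L y = L x) ∩ B).card : ℝ) /
          ((F.filter fun y => L y = L x).card : ℝ)) := by
      intro x' hx'
      obtain ⟨π, hπ, hπB⟩ := hcpl (L x) (mem_image_of_mem L hx) (L x') (mem_image_of_mem L hx')
      refine coupling_mean_diff hπ (hcl L x hx) (hcl L x' hx') ?_ ?_
      · intro y hy z hz
        have h1 := hgA y (mem_filter.1 hy).1
        have h2 := hgA z (mem_filter.1 hz).1
        have := abs_sub (g y) (g z)
        linarith
      · intro y hy z hz h0 hyB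
        have := hπB y hy z hz h0 hyB
        simp only [hg, ce]
        rw [this]
    have e : u x - μ = (∑ x' ∈ F, (u x - u x')) / (F.card : ℝ) := by
      rw [hμg, sum_sub_distrib, sum_const, nsmul_eq_mul]
      field_simp
    rw [e, abs_div, abs_of_pos hc, div_le_iff₀ hc]
    calc _ ≤ ∑ x' ∈ F, |u x - u x'| := abs_sum_le_sum_abs _ _
      _ ≤ ∑ _x' ∈ F, _ := sum_le_sum hdiff
      _ = _ := by
        rw [sum_const, nsmul_eq_mul]
        ring
  -- the covariance
  have hcov : ∑ x ∈ F, (g x - μ) * (v x - μ) ≤ 4 * A ^ 2 * ((F ∩ B).card : ℝ) := by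
    have e1 : ∑ x ∈ F, (g x - μ) * (v x - μ) = ∑ x ∈ F, (u x - μ) * (v x - μ) := by
      have hm := sum_mul_ce F L g (fun x => v x - μ) (fun x y hxy => by
        simp only [hv, ce]
        rw [hxy])
      have a1 : ∀ x, (g x - μ) * (v x - μ) = (v x - μ) * g x - μ * (v x - μ) := fun x => by ring
      have a2 : ∀ x, (u x - μ) * (v x - μ) = (v x - μ) * ce F L g x - μ * (v x - μ) := fun x => by
        rw [hu]
        ring
      simp only [a1, a2, sum_sub_distrib]
      rw [hm]
    rw [e1]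
    have e2 : ∀ x ∈ F, (u x - μ) * (v x - μ) ≤ 4 * A ^ 2 *
        (((F.filter (fun y => L y = L x) ∩ B).card : ℝ) /
          ((F.filter fun y => L y = L x).card : ℝ)) := by
      intro x hx
      have h1 := huμ x hx
      have h2 : |v x - μ| ≤ 2 * A := by
        have := abs_sub (v x) μ
        have := hvA x hx
        linarith
      have h3 : 0 ≤ ((F.filter (fun y => L y = L x) ∩ B).card : ℝ) /
          ((F.filter fun y => L y = L x).card : ℝ) := by positivity
      calc _ ≤ |(u x - μ) * (v x - μ)| := le_abs_self _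
        _ = |u x - μ| * |v x - μ| := abs_mul _ _
        _ ≤ _ * (2 * A) := mul_le_mul h1 h2 (abs_nonneg _) (by positivity)
        _ = _ := by ring
    refine (sum_le_sum e2).trans (le_of_eq ?_)
    rw [← sum_fiberwise_of_maps_to (s := F) (t := F.image L) (g := L)
      (fun x hx => mem_image_of_mem L hx)]
    have hcard : ((F ∩ B).card : ℝ) = ∑ ℓ ∈ F.image L, ((F.filter (fun y => L y = ℓ) ∩ B).card : ℝ) := by
      rw [← Nat.cast_sum]
      congr 1
      rw [card_eq_sum_card_fiberwise (f := L) (t := F.image L) (s := F ∩ B)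
        (fun x hx => mem_image_of_mem L (mem_inter.1 hx).1)]
      refine sum_congr rfl fun ℓ _ => ?_
      congr 1
      ext y
      simp only [mem_filter, mem_inter]
      tauto
    rw [hcard, mul_sum]
    refine sum_congr rfl fun ℓ hℓ => ?_
    obtain ⟨x₀, hx₀, rfl⟩ := mem_image.1 hℓ
    have hne := hcl L x₀ hx₀
    have hc' : ((F.filter fun y => L y = L x₀).card : ℝ) ≠ 0 := by
      exact_mod_cast hne.card_pos.ne'
    have h : ∀ x ∈ F.filter (fun y => L y = L x₀), 4 * A ^ 2 *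
        (((F.filter (fun y => L y = L x) ∩ B).card : ℝ) /
          ((F.filter fun y => L y = L x).card : ℝ)) =
        4 * A ^ 2 * (((F.filter (fun y => L y = L x₀) ∩ B).card : ℝ) /
          ((F.filter fun y => L y = L x₀).card : ℝ)) := fun x hx => by
      rw [(mem_filter.1 hx).2]
    rw [sum_congr rfl h, sum_const, nsmul_eq_mul]
    field_simp
  have hh := hilbert F f H L
  rw [← hg, ← hv, ← hμ] at hh
  have hmean : (∑ x ∈ F, f x) / (F.card : ℝ) = μ := rfl
  rw [hmean]
  have h1 : (∑ x ∈ F, f x ^ 2) / (F.card : ℝ) - μ ^ 2 ≤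
      (∑ x ∈ F, f x ^ 2 - ∑ x ∈ F, g x ^ 2) / (F.card : ℝ) +
      (∑ x ∈ F, f x ^ 2 - ∑ x ∈ F, v x ^ 2) / (F.card : ℝ) +
      8 * A ^ 2 * (((F ∩ B).card : ℝ) / (F.card : ℝ)) := by
    rw [← sub_nonneg]
    have e : (∑ x ∈ F, f x ^ 2 - ∑ x ∈ F, g x ^ 2) / (F.card : ℝ) +
      (∑ x ∈ F, f x ^ 2 - ∑ x ∈ F, v x ^ 2) / (F.card : ℝ) +
      8 * A ^ 2 * (((F ∩ B).card : ℝ) / (F.card : ℝ)) -
      ((∑ x ∈ F, f x ^ 2) / (F.card : ℝ) - μ ^ 2) =
      (∑ x ∈ F, f x ^ 2 + (F.card : ℝ) * μ ^ 2 - ∑ x ∈ F, g x ^ 2 - ∑ x ∈ F, v x ^ 2 +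
        8 * A ^ 2 * ((F ∩ B).card : ℝ)) / (F.card : ℝ) := by
      field_simp
      ring
    rw [e]
    apply div_nonneg _ hc.le
    linarith
  exact h1

end

end Vale.Agent.Lib.P328B
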