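import Vale.Agent.Lib.P328B.CoupKernel
import Vale.Agent.Lib.P328B.Split

/-!
# P328, binary margins: the unit margin coupling for contingency tables (helper61)

The uniform laws on `Om r c` and `Om (r - e_a) (c - e_b)` have a coupling with every cell differing
by at most one.
-/

set_option linter.unusedSectionVars false
set_option linter.unusedSimpArgs false

namespace Vale.Agent.Lib.P328B

open Finset Vale.Agent.Lib.P328Q
open Vale.Agent.Lib.P328_helper60.Flow

variable {m n : ℕ}

/-- The tail of the edge `(i, j)` is the vertex of the row `i`. -/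
def srcT (e : Fin m × Fin n) : Fin m ⊕ Fin n := Sum.inl e.1

/-- The head of the edge `(i, j)` is the vertex of the column `j`. -/
def tgtT (e : Fin m × Fin n) : Fin m ⊕ Fin n := Sum.inr e.2

/-- Tables as flows: the centred and doubled matrix. -/
def phi (K : ℕ) (X : Mat m n) : (Fin m × Fin n) → ℤ := fun e => 2 * X e.1 e.2 - K

/-- The target of the flow of a table with margins `r`, `c`. -/
def tgtW (K : ℕ) (r : Fin m → ℤ) (c : Fin n → ℤ) : (Fin m ⊕ Fin n) → ℤ :=
  Sum.elim (fun i => 2 * r i - n * K) (fun j => m * K - 2 * c j)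

theorem mem_Om_iff {r : Fin m → ℤ} {c : Fin n → ℤ} {X : Mat m n} :
    X ∈ Om r c ↔ (∀ i j, 0 ≤ X i j) ∧ rowSum X = r ∧ colSum X = c := by
  classical
  simp only [Om, slc, mem_filter, P328Q.box, Fintype.mem_piFinset, Finset.mem_Icc, Pi.zero_apply,
    bigHi]
  constructor
  · rintro ⟨h1, h2, h3⟩
    exact ⟨fun i j => (h1 i j).1, h2, h3⟩
  · rintro ⟨h1, h2, h3⟩
    refine ⟨fun i j => ⟨h1 i j, ?_⟩, h2, h3⟩
    have e1 : X i j ≤ rowSum X i :=
      Finset.single_le_sum (f := fun j => X i j) (fun j _ => h1 i j) (mem_univ j)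
    rw [h2] at e1
    have e2 : |r i| ≤ ∑ i, |r i| :=
      Finset.single_le_sum (f := fun i => |r i|) (fun i _ => abs_nonneg _) (mem_univ i)
    exact e1.trans ((le_abs_self _).trans e2)

theorem inc_phi_row (K : ℕ) (X : Mat m n) (i : Fin m) :
    inc srcT tgtT (phi K X) (Sum.inl i) = 2 * rowSum X i - n * K := by
  rw [inc_apply]
  have e : ∀ e : Fin m × Fin n, phi K X e * ((if srcT e = Sum.inl i then 1 else 0) -
      (if tgtT e = (Sum.inl i : Fin m ⊕ Fin n) then 1 else 0)) =
      if e.1 = i then 2 * X e.1 e.2 - K else 0 := by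
    intro e
    simp only [srcT, tgtT, phi, Sum.inl.injEq, reduceCtorEq, if_false, sub_zero]
    split_ifs <;> simp
  simp_rw [e]
  rw [Fintype.sum_prod_type]
  rw [Finset.sum_eq_single i]
  · simp only [if_true, rowSum, Finset.sum_sub_distrib, ← Finset.mul_sum]
    simp
  · intro i' _ hi'
    simp [hi']
  · intro h
    exact absurd (mem_univ i) h

theorem inc_phi_col (K : ℕ) (X : Mat m n) (j : Fin n) :
    inc srcT tgtT (phi K X) (Sum.inr j) = m * K - 2 * colSum X j := by
  rw [inc_apply]
  have e : ∀ e : Fin m × Fin n, phi K X e * ((if srcT e = Sum.inr j then 1 else 0) -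
      (if tgtT e = (Sum.inr j : Fin m ⊕ Fin n) then 1 else 0)) =
      if e.2 = j then (K : ℤ) - 2 * X e.1 e.2 else 0 := by
    intro e
    simp only [srcT, tgtT, phi, Sum.inr.injEq, reduceCtorEq, if_false, zero_sub]
    split_ifs <;> simp
  simp_rw [e]
  rw [Fintype.sum_prod_type_right]
  rw [Finset.sum_eq_single j]
  · simp only [if_true, colSum, Finset.sum_sub_distrib, ← Finset.mul_sum]
    simp
  · intro j' _ hj'
    simp [hj']
  · intro h
    exact absurd (mem_univ j) h

theorem phi_injective (K : ℕ) : Function.Injective (phi (m := m) (n := n) K) := by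
  intro X Y h
  funext i j
  have := congrFun h (i, j)
  simp only [phi] at this
  omega

/-- The flows with the target of `(r, c)` are the images of the tables, for large capacity. -/
theorem F_eq_image {K : ℕ} {r : Fin m → ℤ} {c : Fin n → ℤ} (hK : ∀ i, r i ≤ K) :
    F (inc srcT tgtT) (fun _ => K) (tgtW K r c) = (Om r c).image (phi K) := by
  classical
  ext f
  simp only [mem_image]
  constructor
  · intro hf
    obtain ⟨h1, h2, h3⟩ := mem_F.1 hf
    have hX : ∀ e, 2 * ((f e + K) / 2) = f e + K := by
      intro e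
      have := h2 e
      omega
    refine ⟨fun i j => (f (i, j) + K) / 2, mem_Om_iff.2 ⟨fun i j => ?_, ?_, ?_⟩, ?_⟩
    · have := h1 (i, j)
      omega
    · have e1 : phi K (fun i j => (f (i, j) + K) / 2) = f := by
        funext e
        obtain ⟨i', j'⟩ := e
        have := hX (i', j')
        simp only [phi]
        omega
      funext i
      have e2 := inc_phi_row K (fun i j => (f (i, j) + K) / 2) i
      rw [e1, h3] at e2
      simp only [tgtW, Sum.elim_inl] at e2
      omega
    · have e1 : phi K (fun i j => (f (i, j) + K) / 2) = f := by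
        funext e
        obtain ⟨i', j'⟩ := e
        have := hX (i', j')
        simp only [phi]
        omega
      funext j
      have e2 := inc_phi_col K (fun i j => (f (i, j) + K) / 2) j
      rw [e1, h3] at e2
      simp only [tgtW, Sum.elim_inr] at e2
      omega
    · funext e
      obtain ⟨i', j'⟩ := e
      have := hX (i', j')
      simp only [phi]
      omega
  · rintro ⟨X, hX, rfl⟩
    obtain ⟨h1, h2, h3⟩ := mem_Om_iff.1 hX
    refine mem_F.2 ⟨fun e => ?_, fun e => ?_, ?_⟩
    · have h4 : X e.1 e.2 ≤ rowSum X e.1 :=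
        Finset.single_le_sum (f := fun j => X e.1 j) (fun j _ => h1 e.1 j) (mem_univ e.2)
      rw [h2] at h4
      have h5 := hK e.1
      have h6 := h1 e.1 e.2
      simp only [phi]
      constructor <;> omega
    · simp only [phi]
      omega
    · funext v
      cases v with
      | inl i =>
        rw [inc_phi_row, h2]
        rfl
      | inr j =>
        rw [inc_phi_col, h3]
        rfl

theorem tgtW_unit (K : ℕ) (r : Fin m → ℤ) (c : Fin n → ℤ) (a : Fin m) (b : Fin n) :
    tgtW K (r - Pi.single a 1) (c - Pi.single b 1) =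
      tgtW K r c - (2 : ℤ) • (Pi.single (Sum.inl a) 1 - Pi.single (Sum.inr b) 1) := by
  funext v
  cases v with
  | inl i =>
    by_cases h : i = a
    · subst h
      simp [tgtW]
      ring
    · simp [tgtW, Pi.single_apply, h]
  | inr j =>
    by_cases h : j = b
    · subst h
      simp [tgtW]
      ring
    · simp [tgtW, Pi.single_apply, h]

/-- THE UNIT COUPLING. -/
theorem unit_coupling (r : Fin m → ℤ) (c : Fin n → ℤ) (a : Fin m) (b : Fin n)
    (hne : (Om r c).Nonempty) (hne' : (Om (r - Pi.single a 1) (c - Pi.single b 1)).Nonempty) :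
    ∃ π : Mat m n → Mat m n → ℝ, IsCoupling (Om r c) (Om (r - Pi.single a 1) (c - Pi.single b 1)) π ∧
      ∀ X ∈ Om r c, ∀ Y ∈ Om (r - Pi.single a 1) (c - Pi.single b 1), π X Y ≠ 0 →
        ∀ i j, |X i j - Y i j| ≤ 1 := by
  classical
  obtain ⟨K, hK⟩ : ∃ K : ℕ, ∀ i, r i ≤ K := by
    refine ⟨(∑ i, |r i|).toNat, fun i => ?_⟩
    have e2 : |r i| ≤ ∑ i, |r i| :=
      Finset.single_le_sum (f := fun i => |r i|) (fun i _ => abs_nonneg _) (mem_univ i)
    have e3 := le_abs_self (r i)
    have e4 : (0 : ℤ) ≤ ∑ i, |r i| := Finset.sum_nonneg fun i _ => abs_nonneg _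
    omega
  have hK' : ∀ i, (r - Pi.single a 1 : Fin m → ℤ) i ≤ K := by
    intro i
    have := hK i
    by_cases h : i = a
    · subst h
      simp only [Pi.sub_apply, Pi.single_eq_same]
      omega
    · simp only [Pi.sub_apply, Pi.single_apply, if_neg h]
      omega
  have hF := F_eq_image (c := c) hK
  have hF' := F_eq_image (c := c - Pi.single b 1) hK'
  rw [tgtW_unit] at hF'
  have hsrc : ∀ e : Fin m × Fin n, srcT e ≠ tgtT e := fun e h => by
    simp [srcT, tgtT] at h
  obtain ⟨π, h0, hl, hr, hclose⟩ := coupling_flow srcT tgtT hsrc _ (fun _ => K) rfl (tgtW K r c)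
    (Sum.inl a) (Sum.inr b)
    (by rw [hF]; exact hne.image _) (by rw [hF']; exact hne'.image _)
  rw [hF, hF'] at hl hr hclose
  rw [hF'] at *
  have hinj := phi_injective (m := m) (n := n) K
  refine ⟨fun X Y => π (phi K X) (phi K Y), ⟨fun X Y => h0 _ _, ?_, ?_⟩, ?_⟩
  · intro X hX
    have := hl (phi K X) (mem_image_of_mem _ hX)
    rw [Finset.sum_image (fun x _ y _ h => hinj h), Finset.card_image_of_injective _ hinj] at this
    exact this
  · intro Y hY
    have := hr (phi K Y) (mem_image_of_mem _ hY)
    rw [Finset.sum_image (fun x _ y _ h => hinj h), Finset.card_image_of_injective _ hinj] at this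
    exact this
  · intro X hX Y hY hXY i j
    have := hclose _ (mem_image_of_mem _ hX) _ (mem_image_of_mem _ hY) hXY (i, j)
    simp only [phi] at this
    rw [abs_le] at this ⊢
    constructor <;> omega

end Vale.Agent.Lib.P328B
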