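import Vale.Agent.Lib.P328B.Parity

/-!
The recursion over the scales: the variance on all tables splits additively into the variance in
the boxes of a grid and the variance in the parity classes, which are again sets of tables.
-/

namespace Vale.Agent.Lib.P328B

open Finset Vale.Agent.Lib.P328Q Vale.Agent.Lib.P328U

noncomputable section

variable {m n : ℕ}

/-- The coupling statement for all margins: the uniform laws on the tables with two given margins
are coupled with all cells differing at most by the `ℓ¹` distance of the margins. -/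
def CouplingAll (m n : ℕ) : Prop :=
  ∀ (r r' : Fin m → ℤ) (c c' : Fin n → ℤ), 0 ≤ r → 0 ≤ c → 0 ≤ r' → 0 ≤ c' →
    ∑ i, r i = ∑ j, c j → ∑ i, r' i = ∑ j, c' j →
    ∃ π : Mat m n → Mat m n → ℝ, IsCoupling (Om r c) (Om r' c') π ∧
      ∀ x ∈ Om r c, ∀ y ∈ Om r' c', π x y ≠ 0 →
        ∀ i j, |x i j - y i j| ≤ ∑ i, |r i - r' i| + ∑ j, |c j - c' j|

/-- The weighted sum of the variances in the boxes of a grid is bounded by energy plus error. -/
def WindowAll (m n : ℕ) (K : ℕ) (C e : ℝ) : Prop :=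
  ∀ (r : Fin m → ℤ) (c : Fin n → ℤ), 0 ≤ r → 0 ≤ c → ∀ (g : Mat m n → ℝ) (M : ℝ), 0 ≤ M →
    (∀ X ∈ Om r c, g X ^ 2 ≤ M) → ∀ σ : Mat m n,
    ∑ h ∈ (Om r c).image (boxIdx K σ),
      ((((Om r c).filter fun X => boxIdx K σ X = h).card : ℝ) / ((Om r c).card : ℝ)) *
        vr ((Om r c).filter fun X => boxIdx K σ X = h) g ≤
      C * (Dir g r c / ((Om r c).card : ℝ)) + M * e

section Margins

variable {r : Fin m → ℤ} {c : Fin n → ℤ}

theorem sum_rowSum_eq_sum_colSum (X : Mat m n) : ∑ i, rowSum X i = ∑ j, colSum X j := by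
  simp only [rowSum, colSum]
  exact sum_comm

theorem rowSum_par_bounds (X : Mat m n) (i : Fin m) :
    0 ≤ rowSum (par X) i ∧ rowSum (par X) i ≤ n := by
  constructor
  · exact sum_nonneg fun j _ => par_nonneg X i j
  · calc rowSum (par X) i ≤ ∑ _j : Fin n, (1 : ℤ) := sum_le_sum fun j _ => par_le_one X i j
      _ = n := by simp

theorem colSum_par_bounds (X : Mat m n) (j : Fin n) :
    0 ≤ colSum (par X) j ∧ colSum (par X) j ≤ m := by
  constructor
  · exact sum_nonneg fun i _ => par_nonneg X i j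
  · calc colSum (par X) j ≤ ∑ _i : Fin m, (1 : ℤ) := sum_le_sum fun i _ => par_le_one X i j
      _ = m := by simp

theorem margin_dist_le {X₀ X₁ : Mat m n} (h₀ : X₀ ∈ Om r c) (h₁ : X₁ ∈ Om r c) :
    ∑ i, |hr r (par X₀) i - hr r (par X₁) i| + ∑ j, |hc c (par X₀) j - hc c (par X₁) j| ≤
      (m : ℤ) * n := by
  have hrow : ∀ i, 2 * |hr r (par X₀) i - hr r (par X₁) i| ≤ n := by
    intro i
    rw [hr_par h₀, hr_par h₁]
    have e0 := hr_eq h₀ i
    have e1 := hr_eq h₁ i
    obtain ⟨a0, a1⟩ := rowSum_par_bounds X₀ i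
    obtain ⟨b0, b1⟩ := rowSum_par_bounds X₁ i
    rcases abs_cases (rowSum (hlf X₀) i - rowSum (hlf X₁) i) with ⟨h, _⟩ | ⟨h, _⟩ <;> rw [h] <;> linarith
  have hcol : ∀ j, 2 * |hc c (par X₀) j - hc c (par X₁) j| ≤ m := by
    intro j
    rw [hc_par h₀, hc_par h₁]
    have e0 := hc_eq h₀ j
    have e1 := hc_eq h₁ j
    obtain ⟨a0, a1⟩ := colSum_par_bounds X₀ j
    obtain ⟨b0, b1⟩ := colSum_par_bounds X₁ j
    rcases abs_cases (colSum (hlf X₀) j - colSum (hlf X₁) j) with ⟨h, _⟩ | ⟨h, _⟩ <;> rw [h] <;> linarith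
  have h1 : 2 * ∑ i, |hr r (par X₀) i - hr r (par X₁) i| ≤ (m : ℤ) * n := by
    rw [mul_sum]
    calc _ ≤ ∑ _i : Fin m, (n : ℤ) := sum_le_sum fun i _ => hrow i
      _ = _ := by simp
  have h2 : 2 * ∑ j, |hc c (par X₀) j - hc c (par X₁) j| ≤ (m : ℤ) * n := by
    rw [mul_sum]
    calc _ ≤ ∑ _j : Fin n, (m : ℤ) := sum_le_sum fun j _ => hcol j
      _ = _ := by simp [mul_comm]
  linarith

/-- A table with total below one is the zero table. -/
theorem card_Om_le_one_of_total (hr0 : 0 ≤ r) (h : ∑ i, r i < 1) : (Om r c).card ≤ 1 := by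
  have hr1 : ∀ i, r i = 0 := by
    intro i
    have h1 : r i ≤ ∑ i, r i := single_le_sum (f := r) (fun i _ => hr0 i) (mem_univ i)
    have h2 : 0 ≤ r i := hr0 i
    omega
  refine card_le_one.2 fun X hX Y hY => ?_
  have hz : ∀ Z ∈ Om r c, Z = 0 := by
    intro Z hZ
    obtain ⟨h0, h1, -⟩ := mem_Om_iff.1 hZ
    funext i j
    have h2 : Z i j ≤ ∑ j, Z i j := single_le_sum (f := Z i) (fun j _ => h0 i j) (mem_univ j)
    have h3 : ∑ j, Z i j = r i := congrFun h1 i
    have := h0 i j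
    have := hr1 i
    simp only [Pi.zero_apply]
    omega
  rw [hz X hX, hz Y hY]

theorem vr_eq_zero_of_card_le_one {G : Type*} {F : Finset G} (h : F.card ≤ 1) (g : G → ℝ) :
    vr F g = 0 := by
  unfold vr wv
  have : ∑ x ∈ F, ∑ y ∈ F, (g x - g y) ^ 2 = 0 := by
    refine sum_eq_zero fun x hx => sum_eq_zero fun y hy => ?_
    rw [card_le_one.1 h x hx y hy]
    simp
  rw [this]
  simp

theorem hr_total_lt {I : ℕ} {X₀ : Mat m n} (h₀ : X₀ ∈ Om r c)
    (h : ∑ i, r i < 2 ^ (I + 1)) : ∑ i, hr r (par X₀) i < 2 ^ I := by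
  rw [hr_par h₀]
  have h1 : ∑ i, r i = ∑ i, rowSum (par X₀) i + 2 * ∑ i, rowSum (hlf X₀) i := by
    rw [mul_sum, ← sum_add_distrib]
    exact sum_congr rfl fun i _ => hr_eq h₀ i
  have h2 : 0 ≤ ∑ i, rowSum (par X₀) i := sum_nonneg fun i _ => (rowSum_par_bounds X₀ i).1
  rw [pow_succ] at h
  linarith

end Margins

/-- **Additivity over the scales.** -/
theorem weak_rec (hCpl : CouplingAll m n) {K : ℕ} (hK : 0 < K) {C e₁ e : ℝ}
    (hW : WindowAll m n K C e₁)
    (he : e₁ + 8 * ((m : ℝ) * n * (2 * (2 * ((m : ℝ) * n) + 1) / K)) ≤ e) (he0 : 0 ≤ e) (I : ℕ) :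
    ∀ (r : Fin m → ℤ) (c : Fin n → ℤ), 0 ≤ r → 0 ≤ c → ∑ i, r i < 2 ^ I →
    ∀ (g : Mat m n → ℝ) (M : ℝ), 0 ≤ M → (∀ X ∈ Om r c, g X ^ 2 ≤ M) →
    vr (Om r c) g ≤ C * ((∑ i ∈ range I, DirS (2 ^ i) g r c) / ((Om r c).card : ℝ)) + I * M * e := by
  induction I with
  | zero =>
    intro r c hr0 hc0 htot g M hM0 hM
    rw [vr_eq_zero_of_card_le_one (card_Om_le_one_of_total hr0 (by simpa using htot))]
    simp
  | succ I ih =>
    intro r c hr0 hc0 htot g M hM0 hM
    set F := Om r c with hF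
    rcases F.eq_empty_or_nonempty with hemp | hne
    · rw [hemp]
      simp only [vr, wv, sum_empty, zero_div, card_empty, Nat.cast_zero, div_zero, mul_zero, zero_add]
      positivity
    have hcard : (0 : ℝ) < F.card := by exact_mod_cast hne.card_pos
    -- the constant of the offsets
    set D : ℕ := 2 * (m * n) + 1 with hD
    obtain ⟨σ, -, B, hBF, hBcard, hB⟩ := exists_offset F K D hK
    set A := Real.sqrt M with hA
    have hA2 : A ^ 2 = M := Real.sq_sqrt hM0
    have hgA : ∀ x ∈ F, |g x| ≤ A := fun x hx => Real.abs_le_sqrt (hM x hx)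
    -- the margins of a class
    have hmarg : ∀ X₀ ∈ F, 0 ≤ hr r (par X₀) ∧ 0 ≤ hc c (par X₀) ∧
        ∑ i, hr r (par X₀) i = ∑ j, hc c (par X₀) j := by
      intro X₀ hX₀
      refine ⟨?_, ?_, ?_⟩
      · rw [hr_par hX₀]
        exact fun i => sum_nonneg fun j _ => hlf_nonneg hX₀ i j
      · rw [hc_par hX₀]
        exact fun j => sum_nonneg fun i _ => hlf_nonneg hX₀ i j
      · rw [hr_par hX₀, hc_par hX₀]
        exact sum_rowSum_eq_sum_colSum _
    have hsplit := split F g (boxIdx K σ) par A hgA B (by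
      intro ℓ hℓ ℓ' hℓ'
      obtain ⟨X₀, hX₀, rfl⟩ := mem_image.1 hℓ
      obtain ⟨X₁, hX₁, rfl⟩ := mem_image.1 hℓ'
      obtain ⟨a0, b0, s0⟩ := hmarg X₀ hX₀
      obtain ⟨a1, b1, s1⟩ := hmarg X₁ hX₁
      obtain ⟨π, hπ, hπd⟩ := hCpl _ _ _ _ a0 b0 a1 b1 s0 s1
      refine ⟨fun x x' => π (hlf x) (hlf x'), cls_coupling hX₀ hX₁ hπ, ?_⟩
      intro x hx x' hx' h0 hxB
      have hx2 : x ∈ cls r c (par X₀) := hx
      have hx2' : x' ∈ cls r c (par X₁) := hx'
      have hxF : x ∈ F := (mem_filter.1 hx).1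
      have hpx : par x = par X₀ := (mem_filter.1 hx).2
      have hpx' : par x' = par X₁ := (mem_filter.1 hx').2
      have hxF' : x' ∈ F := (mem_filter.1 hx').1
      have hY : hlf x ∈ Om (hr r (par X₀)) (hc c (par X₀)) := by
        rw [← hpx]
        exact hlf_mem hxF
      have hY' : hlf x' ∈ Om (hr r (par X₁)) (hc c (par X₁)) := by
        rw [← hpx']
        exact hlf_mem hxF'
      have hdist := hπd _ hY _ hY' h0
      have hmd := margin_dist_le hX₀ hX₁
      refine hB x hxF x' (fun i j => ?_) hxB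
      have := abs_sub_le_of_hlf (x := x) (y := x') i j (hdist i j)
      have hD' : (D : ℤ) = 2 * ((m : ℤ) * n) + 1 := by
        rw [hD]
        push_cast
        ring
      rw [hD']
      omega)
    -- the error term
    have hBinter : F ∩ B = B := inter_eq_right.2 hBF
    have hK' : (0 : ℝ) < K := by exact_mod_cast hK
    have hBr : ((B.card : ℝ) / (F.card : ℝ)) ≤ (m : ℝ) * n * (2 * (2 * ((m : ℝ) * n) + 1) / K) := by
      have h1 : (K : ℝ) * B.card ≤ (m : ℝ) * n * (2 * (2 * ((m : ℝ) * n) + 1) * F.card) := by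
        have : ((K * B.card : ℕ) : ℝ) ≤ ((m * n * (2 * D * F.card) : ℕ) : ℝ) := by
          exact_mod_cast hBcard
        push_cast at this
        rw [hD] at this
        push_cast at this
        exact this
      rw [div_le_iff₀ hcard]
      rw [show (m : ℝ) * n * (2 * (2 * ((m : ℝ) * n) + 1) / K) * (F.card : ℝ) =
        (m : ℝ) * n * (2 * (2 * ((m : ℝ) * n) + 1) * F.card) / K by ring]
      rw [le_div_iff₀ hK']
      linarith
    -- the window term
    have hWin := hW r c hr0 hc0 g M hM0 hM σ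
    -- the parity term
    have hpar : ∑ ℓ ∈ F.image par, (((F.filter fun y => par y = ℓ).card : ℝ) / (F.card : ℝ)) *
          vr (F.filter fun y => par y = ℓ) g ≤
        C * ((∑ i ∈ range I, DirS (2 * 2 ^ i) g r c) / (F.card : ℝ)) + I * M * e := by
      have hterm : ∀ ℓ ∈ F.image par, (((F.filter fun y => par y = ℓ).card : ℝ) / (F.card : ℝ)) *
          vr (F.filter fun y => par y = ℓ) g ≤
          C * ((∑ i ∈ range I, DirS (2 ^ i) (fun Y => g (dbl ℓ Y)) (hr r ℓ) (hc c ℓ)) / (F.card : ℝ)) +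
            (((F.filter fun y => par y = ℓ).card : ℝ) / (F.card : ℝ)) * (I * M * e) := by
        intro ℓ hℓ
        obtain ⟨X₀, hX₀, rfl⟩ := mem_image.1 hℓ
        have hcl : F.filter (fun y => par y = par X₀) = cls r c (par X₀) := rfl
        have hclne : (cls r c (par X₀)).Nonempty := ⟨X₀, mem_filter.2 ⟨hX₀, rfl⟩⟩
        have hccard : (0 : ℝ) < (cls r c (par X₀)).card := by exact_mod_cast hclne.card_pos
        obtain ⟨a0, b0, -⟩ := hmarg X₀ hX₀
        have hih := ih (hr r (par X₀)) (hc c (par X₀)) a0 b0 (hr_total_lt hX₀ htot)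
          (fun Y => g (dbl (par X₀) Y)) M hM0 (fun Y hY => hM _ (dbl_mem hX₀ hY))
        rw [hcl, cls_eq_image hX₀, vr_image (dbl_injective _)]
        rw [← cls_eq_image hX₀, card_cls hX₀] at *
        set Ω' := Om (hr r (par X₀)) (hc c (par X₀)) with hΩ'
        have hccard' : (0 : ℝ) < Ω'.card := hccard
        have hfrac : 0 ≤ (Ω'.card : ℝ) / (F.card : ℝ) := by positivity
        calc _ ≤ ((Ω'.card : ℝ) / (F.card : ℝ)) * _ := mul_le_mul_of_nonneg_left hih hfrac
          _ = _ := by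
            field_simp
      refine (sum_le_sum hterm).trans (le_of_eq ?_)
      rw [sum_add_distrib, ← mul_sum, ← sum_div, ← sum_mul]
      congr 1
      · congr 2
        rw [sum_comm]
        exact sum_congr rfl fun i _ => sum_DirS_cls (2 ^ i) g r c
      · have : ∑ ℓ ∈ F.image par, (((F.filter fun y => par y = ℓ).card : ℝ) / (F.card : ℝ)) = 1 := by
          rw [← sum_div]
          have h : ∑ ℓ ∈ F.image par, ((F.filter fun y => par y = ℓ).card : ℝ) = F.card := by
            rw [← Nat.cast_sum]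
            congr 1
            exact (card_eq_sum_card_image par F).symm
          rw [h]
          exact div_self hcard.ne'
        rw [this, one_mul]
    -- assembling
    have hsum : ∑ i ∈ range (I + 1), DirS (2 ^ i) g r c =
        ∑ i ∈ range I, DirS (2 * 2 ^ i) g r c + DirS 1 g r c := by
      rw [sum_range_succ']
      simp [pow_succ, mul_comm]
    rw [hsum, add_div, mul_add, DirS_one]
    rw [hBinter, hA2] at hsplit
    have h3 : 8 * M * ((B.card : ℝ) / (F.card : ℝ)) ≤
        M * (8 * ((m : ℝ) * n * (2 * (2 * ((m : ℝ) * n) + 1) / K))) := by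
      have := mul_le_mul_of_nonneg_left hBr (by positivity : (0 : ℝ) ≤ 8 * M)
      calc _ ≤ _ := this
        _ = _ := by ring
    have h4 : M * e₁ + M * (8 * ((m : ℝ) * n * (2 * (2 * ((m : ℝ) * n) + 1) / K))) ≤ M * e := by
      rw [← mul_add]
      exact mul_le_mul_of_nonneg_left he hM0
    push_cast
    have h5 : ((I : ℝ) + 1) * M * e = I * M * e + M * e := by ring
    rw [h5]
    have hWin' : ∑ h ∈ F.image (boxIdx K σ),
        (((F.filter fun X => boxIdx K σ X = h).card : ℝ) / (F.card : ℝ)) *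
          vr (F.filter fun X => boxIdx K σ X = h) g ≤
        C * (Dir g r c / (F.card : ℝ)) + M * e₁ := hWin
    linarith

end

end Vale.Agent.Lib.P328B
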