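import Vale.Agent.Lib.P328B.Walk
import Vale.Agent.Lib.P328B.Coupling
import Vale.Agent.Lib.P328B.Recursion
import Vale.Agent.Lib.P328U.Anneal
import Vale.Agent.Lib.P328Q.Bridge

/-!
The coupling of the uniform laws on the tables with two given margins.
-/

namespace Vale.Agent.Lib.P328B

open Finset Vale.Agent.Lib.P328Q Vale.Agent.Lib.P328U Vale.Agent.Lib.P328

variable {m n : ℕ}

/-- Tables exist for nonnegative margins of equal sum. -/
theorem om_nonempty [NeZero m] [NeZero n] {r : Fin m → ℤ} {c : Fin n → ℤ} (hr : 0 ≤ r) (hc : 0 ≤ c)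
    (hs : ∑ i, r i = ∑ j, c j) : (Om r c).Nonempty := by
  classical
  set r' : Fin m → ℕ := fun i => (r i).toNat with hr'
  set c' : Fin n → ℕ := fun j => (c j).toNat with hc'
  have e1 : brR r' = r := by
    funext i
    simp [brR, hr', Int.toNat_of_nonneg (hr i)]
  have e2 : brC c' = c := by
    funext j
    simp [brC, hc', Int.toNat_of_nonneg (hc j)]
  have hs' : ∑ j, c' j = ∑ i, r' i := by
    have h1 : ((∑ j, c' j : ℕ) : ℤ) = ((∑ i, r' i : ℕ) : ℤ) := by
      push_cast
      have a1 : ∑ i, ((r' i : ℕ) : ℤ) = ∑ i, r i := sum_congr rfl fun i _ => by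
        simp [hr', Int.toNat_of_nonneg (hr i)]
      have a2 : ∑ j, ((c' j : ℕ) : ℤ) = ∑ j, c j := sum_congr rfl fun j _ => by
        simp [hc', Int.toNat_of_nonneg (hc j)]
      rw [a1, a2, hs]
    exact_mod_cast h1
  obtain ⟨X, hX⟩ := Tab_nonempty (∑ i, r' i) r' c' rfl hs'
  rw [← e1, ← e2, br_image]
  exact ⟨brEmb X, mem_image_of_mem _ hX⟩

/-- The unit coupling in the form of the walk. -/
theorem unitCoupling (m n : ℕ) : UnitCoupling m n := by
  intro r c hr hc hs a b ha hb
  have : NeZero m := ⟨fun h => by subst h; exact a.elim0⟩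
  have : NeZero n := ⟨fun h => by subst h; exact b.elim0⟩
  have hr1 : 0 ≤ r - Pi.single a 1 := by
    intro i
    by_cases h : i = a
    · subst h
      simpa using ha
    · simpa [h] using hr i
  have hc1 : 0 ≤ c - Pi.single b 1 := by
    intro j
    by_cases h : j = b
    · subst h
      simpa using hb
    · simpa [h] using hc j
  have hs1 : ∑ i, (r - Pi.single a (1 : ℤ) : Fin m → ℤ) i =
      ∑ j, (c - Pi.single b (1 : ℤ) : Fin n → ℤ) j := by
    simp only [Pi.sub_apply, sum_sub_distrib, Finset.sum_pi_single', mem_univ, if_true, hs]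
  exact unit_coupling r c a b (om_nonempty hr hc hs) (om_nonempty hr1 hc1 hs1)

/-- Part of the coordinates. -/
theorem exists_below' {k : ℕ} (f : Fin k → ℤ) (hf : 0 ≤ f) {W : ℤ} (hW0 : 0 ≤ W) (hW : W ≤ ∑ i, f i) :
    ∃ g : Fin k → ℤ, 0 ≤ g ∧ g ≤ f ∧ ∑ i, g i = W := by
  obtain ⟨g, h1, h2, h3⟩ := exists_below f hf (∑ i, f i - W).toNat W hW0 (by
    rw [Int.toNat_of_nonneg (by omega)])
  exact ⟨g, h1, h2, h3⟩

/-- The coupling for all margins. -/
theorem couplingAll (m n : ℕ) : CouplingAll m n := by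
  intro r r' c c' h0r h0c h0r' h0c' hs hs'
  have hU := unitCoupling m n
  have hm0 : (0 : Fin m → ℤ) ≤ fun i => min (r i) (r' i) := fun i => le_min (h0r i) (h0r' i)
  have hc0 : (0 : Fin n → ℤ) ≤ fun j => min (c j) (c' j) := fun j => le_min (h0c j) (h0c' j)
  have hsum1 : 0 ≤ ∑ i, min (r i) (r' i) := sum_nonneg fun i _ => hm0 i
  have hsum2 : 0 ≤ ∑ j, min (c j) (c' j) := sum_nonneg fun j _ => hc0 j
  set W := min (∑ i, min (r i) (r' i)) (∑ j, min (c j) (c' j)) with hW
  have hW0 : 0 ≤ W := le_min hsum1 hsum2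
  obtain ⟨r0, h1, h2, h3⟩ := exists_below' _ hm0 hW0 (min_le_left _ _)
  obtain ⟨c0, h4, h5, h6⟩ := exists_below' _ hc0 hW0 (min_le_right _ _)
  have hr1 : ∑ i, min (r i) (r' i) ≤ ∑ i, r i := sum_le_sum fun i _ => min_le_left _ _
  have hr2 : ∑ i, min (r i) (r' i) ≤ ∑ i, r' i := sum_le_sum fun i _ => min_le_right _ _
  have hc1 : ∑ j, min (c j) (c' j) ≤ ∑ j, c j := sum_le_sum fun j _ => min_le_left _ _
  have hc2 : ∑ j, min (c j) (c' j) ≤ ∑ j, c' j := sum_le_sum fun j _ => min_le_right _ _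
  have hd0 : 0 ≤ ∑ i, r i - W := by
    have : W ≤ ∑ i, min (r i) (r' i) := min_le_left _ _
    omega
  have hd1 : 0 ≤ ∑ i, r' i - W := by
    have : W ≤ ∑ i, min (r i) (r' i) := min_le_left _ _
    omega
  have hA := walk_down hU (∑ i, r i - W).toNat r r0 c c0 h1 h4
    (fun i => le_trans (h2 i) (min_le_left _ _)) (fun j => le_trans (h5 j) (min_le_left _ _))
    hs (by omega) (by rw [Int.toNat_of_nonneg hd0]; omega)
  have hB := walk_down hU (∑ i, r' i - W).toNat r' r0 c' c0 h1 h4
    (fun i => le_trans (h2 i) (min_le_right _ _)) (fun j => le_trans (h5 j) (min_le_right _ _))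
    hs' (by omega) (by rw [Int.toNat_of_nonneg hd1]; omega)
  have hT := hA.trans hB.symm
  have hbound : (((∑ i, r i - W).toNat : ℕ) : ℤ) + (((∑ i, r' i - W).toNat : ℕ) : ℤ) ≤
      ∑ i, |r i - r' i| + ∑ j, |c j - c' j| := by
    rw [Int.toNat_of_nonneg hd0, Int.toNat_of_nonneg hd1]
    -- row and column bounds
    have ha : ∀ i, r i - min (r i) (r' i) + (r' i - min (r i) (r' i)) = |r i - r' i| := by
      intro i
      rcases le_total (r i) (r' i) with h | h
      · rw [min_eq_left h, abs_of_nonpos (by omega)]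
        ring
      · rw [min_eq_right h, abs_of_nonneg (by omega)]
        ring
    have hb : ∀ j, c j - min (c j) (c' j) + (c' j - min (c j) (c' j)) = |c j - c' j| := by
      intro j
      rcases le_total (c j) (c' j) with h | h
      · rw [min_eq_left h, abs_of_nonpos (by omega)]
        ring
      · rw [min_eq_right h, abs_of_nonneg (by omega)]
        ring
    have sa : ∑ i, r i + ∑ i, r' i - 2 * ∑ i, min (r i) (r' i) = ∑ i, |r i - r' i| := by
      rw [← sum_congr rfl fun i _ => ha i]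
      simp only [sum_add_distrib, sum_sub_distrib]
      ring
    have sb : ∑ j, c j + ∑ j, c' j - 2 * ∑ j, min (c j) (c' j) = ∑ j, |c j - c' j| := by
      rw [← sum_congr rfl fun j _ => hb j]
      simp only [sum_add_distrib, sum_sub_distrib]
      ring
    have hsa : 0 ≤ ∑ i, |r i - r' i| := sum_nonneg fun i _ => abs_nonneg _
    have hsb : 0 ≤ ∑ j, |c j - c' j| := sum_nonneg fun j _ => abs_nonneg _
    rcases le_total (∑ i, min (r i) (r' i)) (∑ j, min (c j) (c' j)) with h | h
    · have : W = ∑ i, min (r i) (r' i) := min_eq_left h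
      omega
    · have : W = ∑ j, min (c j) (c' j) := min_eq_right h
      omega
  obtain ⟨π, hπ, hπ2⟩ := hT.mono hbound
  exact ⟨π, hπ, hπ2⟩

end Vale.Agent.Lib.P328B
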