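import Vale.Agent.Lib.P328B.Anneal
import Vale.Agent.Lib.P328U.FprasCore
import Vale.Agent.Lib.P328U.FprasMedian

/-!
The product estimator for the number of contingency tables along the schedule with jumps, with the median
of independent repetitions, given a weak Poincare inequality for the multi-scale chain.
-/

namespace Vale.Agent.Lib.P328B

open Finset Vale.Agent.Lib.P328 Vale.Agent.Lib.P328Q Vale.Agent.Lib.P328U

noncomputable section

variable {m n : ℕ} [NeZero m] [NeZero n]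

/-- The margins after `j` stages of the schedule. -/
def schedB (r : Fin m → ℕ) (c : Fin n → ℕ) (j : ℕ) : (Fin m → ℕ) × (Fin n → ℕ) :=
  nextM^[j] (r, c)

/-- The tables of stage `j`. -/
def bSet (r : Fin m → ℕ) (c : Fin n → ℕ) (J : ℕ) (j : Fin J) : Finset (Tb m (Fin n)) :=
  Tab (schedB r c j).1 (schedB r c j).2

/-- The table has at least the jump of stage `j` at the cell of stage `j`. -/
def bHit (r : Fin m → ℕ) (c : Fin n → ℕ) (J : ℕ) (j : Fin J) (X : Tb m (Fin n)) : Prop :=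
  ceilDiv n ((schedB r c j).1 (firstRow (schedB r c j).1)) ≤
    X (firstRow (schedB r c j).1) (topCol (schedB r c j).2)

instance (r : Fin m → ℕ) (c : Fin n → ℕ) (J : ℕ) (j : Fin J) :
    DecidablePred (bHit r c J j) := fun X => by
  unfold bHit
  exact inferInstance

/-- The law of a draw at stage `j`: the annealed sampler for the margins of this stage. -/
def bLaw (L k : ℕ) (r : Fin m → ℕ) (c : Fin n → ℕ) (J : ℕ) (j : Fin J) : Tb m (Fin n) → ℝ :=
  annealB L k (J - j) (schedB r c j).1 (schedB r c j).2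

theorem schedB_succ (r : Fin m → ℕ) (c : Fin n → ℕ) (j : ℕ) :
    schedB r c (j + 1) = nextM (schedB r c j) := by
  unfold schedB
  rw [Function.iterate_succ_apply']

/-- The facts along the schedule. -/
theorem schedB_facts {r : Fin m → ℕ} {c : Fin n → ℕ} (hrc : ∑ i, r i = ∑ j, c j) {J : ℕ}
    (hJ : stagesOf n r ≤ J) (j : ℕ) (hj : j ≤ J) :
    ∑ i, (schedB r c j).1 i = ∑ i, (schedB r c j).2 i ∧ ∑ i, (schedB r c j).1 i ≤ ∑ i, r i ∧
      stagesOf n (schedB r c j).1 ≤ J - j := by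
  induction j with
  | zero => exact ⟨hrc, le_rfl, hJ⟩
  | succ j ih =>
    obtain ⟨h1, h2, h3⟩ := ih (by omega)
    obtain ⟨_, _, h6, h7⟩ := next_facts h1
    have e : schedB r c (j + 1) = nextM ((schedB r c j).1, (schedB r c j).2) := schedB_succ r c j
    rw [e]
    refine ⟨by omega, by omega, ?_⟩
    exact stagesOf_next _ (by omega)

/-- Telescoping of the ratios. -/
theorem prod_ratio_invB (f : ℕ → ℝ) (N : ℕ) (hf : ∀ j, j ≤ N → f j ≠ 0) :
    ∏ j : Fin N, (f (j + 1) / f j)⁻¹ = f 0 / f N := by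
  induction N with
  | zero => simp [div_self (hf 0 le_rfl)]
  | succ N ih =>
    rw [Fin.prod_univ_castSucc]
    simp only [Fin.val_castSucc, Fin.val_last]
    rw [ih fun j hj => hf j (by omega), inv_div]
    have := hf N (by omega)
    have := hf (N + 1) le_rfl
    field_simp

/-- THE ESTIMATOR: one repetition. -/
theorem fprasB_one {C d : ℝ} (hC : 0 < C) (hd : 0 ≤ d) (L : ℕ) {r : Fin m → ℕ} {c : Fin n → ℕ}
    (hrc : ∑ i, r i = ∑ j, c j)
    (hP : ∀ (r' : Fin m → ℕ) (c' : Fin n → ℕ), ∑ i, r' i = ∑ j, c' j → ∑ i, r' i ≤ ∑ i, r i →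
      ∀ (g : Tb m (Fin n) → ℝ) (M : ℝ), 0 ≤ M → (∀ x ∈ Tab r' c', g x ^ 2 ≤ M) →
      tabVar r' c' g ≤ C * ∑ l ∈ range (L + 1), tabDirS (2 ^ l) r' c' g + d * M)
    {J : ℕ} (hJ : stagesOf n r ≤ J) {ε δ : ℝ} (hε0 : 0 < ε) (hε1 : ε < 1) (hδ0 : 0 < δ) (hδ1 : δ < 1)
    {k w : ℕ}
    (hk : (J : ℝ) * (((n : ℝ) / 2) * Real.sqrt
        (d + Real.exp (-((k : ℝ) / (4 * ((L : ℝ) + 1) * (m : ℝ) ^ 2 * (n : ℝ) ^ 2 * C))))) ≤
      ε / (8 * (n : ℝ) * ((J : ℝ) + 1)))
    (hw0 : 0 < w) (hw : 64 * (n : ℝ) * (J : ℝ) / (ε ^ 2 * δ) ≤ w) :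
    (∀ j y, 0 ≤ bLaw L k r c J j y) ∧ (∀ j, ∑ y ∈ bSet r c J j, bLaw L k r c J j y = 1) ∧
    1 - δ ≤ ∑ ω ∈ drawSpace (bSet r c J) w,
      if (1 - ε) * ((Tab r c).card : ℝ) ≤ zHat (bHit r c J) ω ∧
          zHat (bHit r c J) ω ≤ (1 + ε) * ((Tab r c).card : ℝ) then
        drawWeight (bLaw L k r c J) ω else 0 := by
  have hn : 1 ≤ n := Nat.one_le_iff_ne_zero.2 (NeZero.ne n)
  have hn' : (1 : ℝ) ≤ n := by exact_mod_cast hn
  have hfacts := schedB_facts hrc hJ
  set f : ℕ → ℝ := fun j => ((Tab (schedB r c j).1 (schedB r c j).2).card : ℝ) with hf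
  have hfpos : ∀ j, j ≤ J → 0 < f j := by
    intro j hj
    obtain ⟨h1, _, _⟩ := hfacts j hj
    have hne := Tab_nonempty _ (schedB r c j).1 (schedB r c j).2 rfl h1.symm
    simp only [hf]
    exact_mod_cast card_pos.2 hne
  set p : Fin J → ℝ := fun j => f (j + 1) / f j with hp
  have hf0 : f 0 = ((Tab r c).card : ℝ) := rfl
  have hfN : f J = 1 := by
    obtain ⟨h1, _, h3⟩ := hfacts J le_rfl
    have hT := tab_zero_of_stages hn h1 (by omega)
    simp only [hf]
    rw [hT]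
    simp
  have hprod : ∏ j, (p j)⁻¹ = ((Tab r c).card : ℝ) := by
    have := prod_ratio_invB f J fun j hj => (hfpos j hj).ne'
    rw [hfN, hf0, div_one] at this
    exact this
  have hspec : ∀ j : Fin J, _ := fun j : Fin J => by
    obtain ⟨h1, h2, h3⟩ := hfacts j j.2.le
    exact annealB_spec (m := m) (n := n) hC hd L (∑ i, r i) hP k (J - j) _ _ h1 h2 h3
  have hq0 : ∀ j y, 0 ≤ bLaw L k r c J j y := fun j y => (hspec j).1 y
  have hq1 : ∀ j, ∑ y ∈ bSet r c J j, bLaw L k r c J j y = 1 := fun j => (hspec j).2.2.1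
  have hE0 : 0 ≤ ((n : ℝ) / 2) * Real.sqrt
      (d + Real.exp (-((k : ℝ) / (4 * ((L : ℝ) + 1) * (m : ℝ) ^ 2 * (n : ℝ) ^ 2 * C)))) :=
    mul_nonneg (by positivity) (Real.sqrt_nonneg _)
  have htv : ∀ j : Fin J, tvUnif (schedB r c j).1 (schedB r c j).2 (bLaw L k r c J j) ≤
      ε / (8 * (n : ℝ) * ((J : ℝ) + 1)) := by
    intro j
    refine le_trans (hspec j).2.2.2 (le_trans ?_ hk)
    refine mul_le_mul_of_nonneg_right ?_ hE0
    exact_mod_cast Nat.sub_le _ _
  have hratio : ∀ j : Fin J, 1 / (n : ℝ) ≤ p j := by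
    intro j
    have h3 := next_ratio (schedB r c j).1 (schedB r c j).2
    have h4 : f j ≤ (n : ℝ) * f (j + 1) := by
      simp only [hf]
      rw [schedB_succ]
      exact_mod_cast h3
    have h5 := hfpos j j.2.le
    simp only [hp]
    rw [div_le_div_iff₀ (by positivity) h5]
    linarith
  have hclose : ∀ j : Fin J, |∑ y ∈ (bSet r c J j).filter (bHit r c J j), bLaw L k r c J j y - p j| ≤
      ε / (8 * (n : ℝ) * ((J : ℝ) + 1)) := by
    intro j
    obtain ⟨h1, _, _⟩ := hfacts j j.2.le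
    obtain ⟨ha, hb, _, _⟩ := next_facts h1
    have hpos := hfpos j j.2.le
    have hu : ∑ _y ∈ bSet r c J j, 1 / f j = 1 := by
      simp only [sum_const, nsmul_eq_mul, bSet]
      change f j * (1 / f j) = 1
      field_simp
    have hclose1 := mass_close (S := bSet r c J j) (bHit r c J j) (hq1 j) hu
    have hval : ∑ _y ∈ (bSet r c J j).filter (bHit r c J j), 1 / f j = p j := by
      simp only [sum_const, nsmul_eq_mul]
      have e1 : (((bSet r c J j).filter (bHit r c J j)).card : ℝ) = f (j + 1) := by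
        have := card_filter_cellT (r := (schedB r c j).1) (c := (schedB r c j).2) ha hb
        simp only [hf]
        rw [schedB_succ]
        exact_mod_cast this
      rw [e1]
      simp only [hp]
      ring
    rw [hval] at hclose1
    exact le_trans hclose1 (htv j)
  have key := fpras_core (S := bSet r c J) (q := bLaw L k r c J) (w := w)
    (bHit r c J) (fun j y _ => hq0 j y) hq1 p (n := (n : ℝ))
    hn' hratio hε0 hε1 hδ0 hδ1 hclose hw0 hw
  rw [hprod] at key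
  exact ⟨hq0, hq1, key⟩

/-- THE ESTIMATOR WITH THE MEDIAN OF `T` REPETITIONS. -/
theorem fprasB_median {C d : ℝ} (hC : 0 < C) (hd : 0 ≤ d) (L : ℕ) {r : Fin m → ℕ} {c : Fin n → ℕ}
    (hrc : ∑ i, r i = ∑ j, c j)
    (hP : ∀ (r' : Fin m → ℕ) (c' : Fin n → ℕ), ∑ i, r' i = ∑ j, c' j → ∑ i, r' i ≤ ∑ i, r i →
      ∀ (g : Tb m (Fin n) → ℝ) (M : ℝ), 0 ≤ M → (∀ x ∈ Tab r' c', g x ^ 2 ≤ M) →
      tabVar r' c' g ≤ C * ∑ l ∈ range (L + 1), tabDirS (2 ^ l) r' c' g + d * M)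
    {J : ℕ} (hJ : stagesOf n r ≤ J) {ε δ : ℝ} (hε0 : 0 < ε) (hε1 : ε < 1) (hδ0 : 0 < δ)
    {k w T : ℕ}
    (hk : (J : ℝ) * (((n : ℝ) / 2) * Real.sqrt
        (d + Real.exp (-((k : ℝ) / (4 * ((L : ℝ) + 1) * (m : ℝ) ^ 2 * (n : ℝ) ^ 2 * C))))) ≤
      ε / (8 * (n : ℝ) * ((J : ℝ) + 1)))
    (hw0 : 0 < w) (hw : 512 * (n : ℝ) * (J : ℝ) / ε ^ 2 ≤ w)
    (hT : 3 * Real.log (1 / δ) ≤ T) :
    1 - δ ≤ ∑ ω ∈ Fintype.piFinset (fun _ : Fin T => drawSpace (bSet r c J) w),
      if (1 - ε) * ((Tab r c).card : ℝ) ≤ medianOf (fun t => zHat (bHit r c J) (ω t)) ∧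
          medianOf (fun t => zHat (bHit r c J) (ω t)) ≤ (1 + ε) * ((Tab r c).card : ℝ) then
        ∏ t, drawWeight (bLaw L k r c J) (ω t) else 0 := by
  obtain ⟨hq0, hq1, hone⟩ := fprasB_one hC hd L hrc hP hJ hε0 hε1 (δ := 1 / 8) (by norm_num)
    (by norm_num) hk hw0
    (by
      have e : 64 * (n : ℝ) * (J : ℝ) / (ε ^ 2 * (1 / 8)) = 512 * (n : ℝ) * (J : ℝ) / ε ^ 2 := by
        field_simp
        ring
      rw [e]
      exact hw)
  have hW0 : ∀ ω ∈ drawSpace (bSet r c J) w, 0 ≤ drawWeight (bLaw L k r c J) ω :=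
    fun ω hω => draw_nonneg (fun j y _ => hq0 j y) hω
  have hW1 : ∑ ω ∈ drawSpace (bSet r c J) w, drawWeight (bLaw L k r c J) ω = 1 :=
    draw_mass hq1
  have hbad : (∑ ω ∈ drawSpace (bSet r c J) w,
      if (1 - ε) * ((Tab r c).card : ℝ) ≤ zHat (bHit r c J) ω ∧
          zHat (bHit r c J) ω ≤ (1 + ε) * ((Tab r c).card : ℝ) then
        0 else drawWeight (bLaw L k r c J) ω) ≤ 1 / 8 := by
    have hsplit : ∑ ω ∈ drawSpace (bSet r c J) w, drawWeight (bLaw L k r c J) ω =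
        (∑ ω ∈ drawSpace (bSet r c J) w,
          if (1 - ε) * ((Tab r c).card : ℝ) ≤ zHat (bHit r c J) ω ∧
            zHat (bHit r c J) ω ≤ (1 + ε) * ((Tab r c).card : ℝ) then
          drawWeight (bLaw L k r c J) ω else 0) +
        ∑ ω ∈ drawSpace (bSet r c J) w,
          if (1 - ε) * ((Tab r c).card : ℝ) ≤ zHat (bHit r c J) ω ∧
            zHat (bHit r c J) ω ≤ (1 + ε) * ((Tab r c).card : ℝ) then
          0 else drawWeight (bLaw L k r c J) ω := by
      rw [← sum_add_distrib]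
      refine sum_congr rfl fun ω _ => ?_
      split_ifs <;> simp
    rw [hW1] at hsplit
    linarith
  have hboost := median_boost hW0 hW1 (zHat (bHit r c J)) hbad T
  have h23 := two_thirds_pow_le hδ0 hT
  linarith

end

end Vale.Agent.Lib.P328B
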