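import Vale.Agent.Lib.P328B.WeakTab
import Vale.Agent.Lib.P328B.Fpras

/-!
The closed form of the number of chain steps for the sampler and the estimator for contingency
tables with margins in binary.
-/

namespace Vale.Agent.Lib.P328B

open Finset Vale.Agent.Lib.P328 Vale.Agent.Lib.P328Q Vale.Agent.Lib.P328U

noncomputable section

set_option exponentiation.threshold 1000

variable {m n : ℕ}

/-- The size parameter `⌈m n (L + 2) / ε⌉`: every parameter of the algorithm is a fixed power of it. -/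
def zPar (m n L : ℕ) (ε : ℝ) : ℕ := ⌈(m : ℝ) * n * ((L : ℝ) + 2) / ε⌉₊

section Facts

variable {L : ℕ} {ε : ℝ}

theorem zPar_ge (hε0 : 0 < ε) : (m : ℝ) * n * ((L : ℝ) + 2) ≤ zPar m n L ε * ε := by
  have h := Nat.le_ceil ((m : ℝ) * n * ((L : ℝ) + 2) / ε)
  unfold zPar
  rwa [div_le_iff₀ hε0] at h

theorem zPar_ge' (hε0 : 0 < ε) (hε1 : ε < 1) : (m : ℝ) * n * ((L : ℝ) + 2) ≤ zPar m n L ε := by
  have h := zPar_ge (m := m) (n := n) (L := L) hε0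
  have hZ : (0 : ℝ) ≤ zPar m n L ε := Nat.cast_nonneg _
  nlinarith

theorem prod_ge_one (hm : 1 ≤ m) (hn : 1 ≤ n) : (1 : ℝ) ≤ (m : ℝ) * n := by
  have h1 : (1 : ℝ) ≤ m := by exact_mod_cast hm
  have h2 : (1 : ℝ) ≤ n := by exact_mod_cast hn
  nlinarith

theorem zPar_ge_two (hm : 1 ≤ m) (hn : 1 ≤ n) (hε0 : 0 < ε) (hε1 : ε < 1) : (2 : ℝ) ≤ zPar m n L ε := by
  have h := zPar_ge' (m := m) (n := n) (L := L) hε0 hε1
  have h1 := prod_ge_one hm hn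
  have hL : (0 : ℝ) ≤ L := Nat.cast_nonneg _
  nlinarith

theorem m_le_zPar (hm : 1 ≤ m) (hn : 1 ≤ n) (hε0 : 0 < ε) (hε1 : ε < 1) : (m : ℝ) ≤ zPar m n L ε := by
  have h := zPar_ge' (m := m) (n := n) (L := L) hε0 hε1
  have h1 : (1 : ℝ) ≤ m := by exact_mod_cast hm
  have h2 : (1 : ℝ) ≤ n := by exact_mod_cast hn
  have hL : (0 : ℝ) ≤ L := Nat.cast_nonneg _
  have h3 : (m : ℝ) * 1 * 1 ≤ (m : ℝ) * n * ((L : ℝ) + 2) := by
    gcongr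
    linarith
  linarith

theorem n_le_zPar (hm : 1 ≤ m) (hn : 1 ≤ n) (hε0 : 0 < ε) (hε1 : ε < 1) : (n : ℝ) ≤ zPar m n L ε := by
  have h := zPar_ge' (m := m) (n := n) (L := L) hε0 hε1
  have h1 : (1 : ℝ) ≤ m := by exact_mod_cast hm
  have h2 : (1 : ℝ) ≤ n := by exact_mod_cast hn
  have hL : (0 : ℝ) ≤ L := Nat.cast_nonneg _
  have h3 : 1 * (n : ℝ) * 1 ≤ (m : ℝ) * n * ((L : ℝ) + 2) := by
    gcongr
    linarith
  linarith

theorem mn_le_zPar (hm : 1 ≤ m) (hn : 1 ≤ n) (hε0 : 0 < ε) (hε1 : ε < 1) :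
    (m : ℝ) * n ≤ zPar m n L ε := by
  have h := zPar_ge' (m := m) (n := n) (L := L) hε0 hε1
  have h1 := prod_ge_one hm hn
  have hL : (0 : ℝ) ≤ L := Nat.cast_nonneg _
  nlinarith

theorem L_le_zPar (hm : 1 ≤ m) (hn : 1 ≤ n) (hε0 : 0 < ε) (hε1 : ε < 1) :
    (L : ℝ) + 1 ≤ zPar m n L ε := by
  have h := zPar_ge' (m := m) (n := n) (L := L) hε0 hε1
  have h1 := prod_ge_one hm hn
  have hL : (0 : ℝ) ≤ L := Nat.cast_nonneg _
  nlinarith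

/-- The number of stages plus one is at most `Z ε`. -/
theorem stages_le_zPar (hm : 1 ≤ m) (hn : 1 ≤ n) (hε0 : 0 < ε) :
    (m : ℝ) * (n * ((L : ℝ) + 1)) + 1 ≤ zPar m n L ε * ε := by
  have h := zPar_ge (m := m) (n := n) (L := L) hε0
  have h1 := prod_ge_one hm hn
  have hL : (0 : ℝ) ≤ L := Nat.cast_nonneg _
  nlinarith

end Facts

/-- The exponent `a`. -/
def aPar (Z : ℕ) : ℕ := Nat.clog 2 (256 * Z ^ 10)

theorem two_aPar_ge (Z : ℕ) : ((256 : ℝ) * (Z : ℝ) ^ 10) ≤ 2 ^ aPar Z := by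
  have := Nat.le_pow_clog (b := 2) (by norm_num) (256 * Z ^ 10)
  unfold aPar
  exact_mod_cast this

theorem two_aPar_le {Z : ℕ} (hZ : 2 ≤ Z) : (2 : ℝ) ^ aPar Z ≤ 512 * (Z : ℝ) ^ 10 := by
  have h1 : 1 < 256 * Z ^ 10 := by
    have : 1 ≤ Z ^ 10 := Nat.one_le_pow _ _ (by omega)
    omega
  have h2 := Nat.pow_pred_clog_lt_self (b := 2) (by norm_num) h1
  have h3 : 0 < Nat.clog 2 (256 * Z ^ 10) := Nat.clog_pos (by norm_num) (by omega)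
  obtain ⟨k, hk⟩ : ∃ k, Nat.clog 2 (256 * Z ^ 10) = k + 1 := ⟨Nat.clog 2 (256 * Z ^ 10) - 1, by omega⟩
  have h4 : 2 ^ aPar Z ≤ 512 * Z ^ 10 := by
    unfold aPar
    rw [hk] at h2 ⊢
    simp only [Nat.pred_succ] at h2
    rw [pow_succ]
    omega
  exact_mod_cast h4

/-- The constant of the weak Poincare inequality. -/
def cPar (Z : ℕ) : ℝ := 2 ^ (126 + 41 * aPar Z)

theorem cPar_pos (Z : ℕ) : 0 < cPar Z := by
  unfold cPar
  positivity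

theorem cPar_le {Z : ℕ} (hZ : 2 ≤ Z) : cPar Z ≤ 2 ^ 495 * (Z : ℝ) ^ 410 := by
  unfold cPar
  rw [pow_add, pow_mul']
  have h := two_aPar_le hZ
  have h0 : (0 : ℝ) ≤ 2 ^ aPar Z := by positivity
  calc (2 : ℝ) ^ 126 * (2 ^ aPar Z) ^ 41 ≤ 2 ^ 126 * (512 * (Z : ℝ) ^ 10) ^ 41 := by gcongr
    _ = 2 ^ 495 * (Z : ℝ) ^ 410 := by
        rw [mul_pow, ← pow_mul]
        norm_num
        ring

/-- The accuracy of the weak Poincare inequality. -/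
def dPar (Z : ℕ) : ℝ := 1 / (128 * (Z : ℝ) ^ 8)

/-- The weak Poincare inequality with the parameters of the algorithm. -/
theorem weak_par (hm : 1 ≤ m) (hn : 1 ≤ n) (hCpl : CouplingAll m n) (hWin : WindowFamily m n)
    {L Z : ℕ} (hZ : 2 ≤ Z) (hLZ : (L : ℝ) + 1 ≤ Z) (hmnZ : (m : ℝ) * n ≤ Z)
    (r : Fin m → ℕ) (c : Fin n → ℕ) (htot : ∑ i, r i < 2 ^ (L + 1)) (g : Tb m (Fin n) → ℝ) (M : ℝ)
    (hM0 : 0 ≤ M) (hM : ∀ x ∈ Tab r c, g x ^ 2 ≤ M) :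
    tabVar r c g ≤ cPar Z * ∑ l ∈ range (L + 1), tabDirS (2 ^ l) r c g + dPar Z * M := by
  have hZ1 : (2 : ℝ) ≤ Z := by exact_mod_cast hZ
  have hZ0 : (0 : ℝ) < Z := by linarith
  have hd0 : 0 < dPar Z := by unfold dPar; positivity
  have hd1 : dPar Z ≤ 1 := by
    unfold dPar
    rw [div_le_one (by positivity)]
    have : (1 : ℝ) ≤ (Z : ℝ) ^ 8 := one_le_pow₀ (by linarith)
    linarith
  refine weak_tab_ms_explicit hm hn hCpl hWin L (aPar Z) hd0 hd1 ?_ r c htot g M hM0 hM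
  have h2 := two_aPar_ge Z
  have h3 : dPar Z * (256 * (Z : ℝ) ^ 10) = 2 * (Z : ℝ) ^ 2 := by
    unfold dPar
    field_simp
    ring
  have h4 : dPar Z * (256 * (Z : ℝ) ^ 10) ≤ dPar Z * 2 ^ aPar Z :=
    mul_le_mul_of_nonneg_left h2 hd0.le
  have h5 : ((L : ℝ) + 1) * ((m : ℝ) * n + 1) ≤ (Z : ℝ) * (2 * Z) := by
    have hL : (0 : ℝ) ≤ (L : ℝ) + 1 := by positivity
    have hmn : (m : ℝ) * n + 1 ≤ 2 * Z := by linarith
    exact mul_le_mul hLZ hmn (by positivity) hZ0.le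
  nlinarith

/-- The relaxation time of the chain with the parameters of the algorithm. -/
def tauPar (m n L Z : ℕ) : ℝ := 4 * ((L : ℝ) + 1) * (m : ℝ) ^ 2 * (n : ℝ) ^ 2 * cPar Z

theorem tail_small {L Z k : ℕ} (hZ : 2 ≤ Z) (hLZ : (L : ℝ) + 1 ≤ Z) (hmnZ : (m : ℝ) * n ≤ Z)
    (hm : 1 ≤ m) (hn : 1 ≤ n) (hk : (2 * Z) ^ 504 ≤ k) :
    Real.exp (-((k : ℝ) / (4 * ((L : ℝ) + 1) * (m : ℝ) ^ 2 * (n : ℝ) ^ 2 * cPar Z))) ≤ dPar Z := by
  have hZ1 : (2 : ℝ) ≤ Z := by exact_mod_cast hZ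
  have hZ0 : (0 : ℝ) < Z := by linarith
  have hm0 : (0 : ℝ) < m := by exact_mod_cast hm
  have hn0 : (0 : ℝ) < n := by exact_mod_cast hn
  have hL0 : (0 : ℝ) < (L : ℝ) + 1 := by positivity
  set τ : ℝ := 4 * ((L : ℝ) + 1) * (m : ℝ) ^ 2 * (n : ℝ) ^ 2 * cPar Z with hτ
  have hτ0 : 0 < τ := by
    have := cPar_pos Z
    rw [hτ]
    positivity
  have hτle : τ ≤ 2 ^ 497 * (Z : ℝ) ^ 413 := by
    have h1 : (m : ℝ) ^ 2 * (n : ℝ) ^ 2 = ((m : ℝ) * n) ^ 2 := by ring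
    have h2 : ((m : ℝ) * n) ^ 2 ≤ (Z : ℝ) ^ 2 := pow_le_pow_left₀ (by positivity) hmnZ 2
    have h3 := cPar_le hZ
    have hc := cPar_pos Z
    calc τ = 4 * ((L : ℝ) + 1) * (((m : ℝ) * n) ^ 2) * cPar Z := by rw [hτ, ← h1]; ring
      _ ≤ 4 * (Z : ℝ) * ((Z : ℝ) ^ 2) * (2 ^ 495 * (Z : ℝ) ^ 410) := by gcongr
      _ = 2 ^ 497 * (Z : ℝ) ^ 413 := by ring
  have hkr : (2 : ℝ) ^ 504 * (Z : ℝ) ^ 504 ≤ k := by
    have : (((2 * Z) ^ 504 : ℕ) : ℝ) ≤ k := by exact_mod_cast hk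
    push_cast at this
    rwa [mul_pow] at this
  have hkτ : 128 * (Z : ℝ) ^ 8 * τ ≤ k := by
    have h1 : (Z : ℝ) ^ 421 ≤ (Z : ℝ) ^ 504 := pow_le_pow_right₀ (by linarith) (by norm_num)
    calc 128 * (Z : ℝ) ^ 8 * τ ≤ 128 * (Z : ℝ) ^ 8 * (2 ^ 497 * (Z : ℝ) ^ 413) := by gcongr
      _ = 2 ^ 504 * (Z : ℝ) ^ 421 := by ring
      _ ≤ 2 ^ 504 * (Z : ℝ) ^ 504 := by gcongr
      _ ≤ k := hkr
  set y : ℝ := (k : ℝ) / τ with hy
  have hy0 : 0 < 128 * (Z : ℝ) ^ 8 := by positivity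
  have hyge : 128 * (Z : ℝ) ^ 8 ≤ y := by
    rw [hy, le_div_iff₀ hτ0]
    exact hkτ
  have hexp : Real.exp (-y) ≤ 1 / y := by
    have hyp : 0 < y := lt_of_lt_of_le hy0 hyge
    rw [Real.exp_neg, one_div]
    exact inv_anti₀ hyp (by linarith [Real.add_one_le_exp y])
  refine hexp.trans ?_
  unfold dPar
  exact one_div_le_one_div_of_le hy0 hyge

/-- The bound under the square root in the final estimates. -/
theorem sqrt_small {L Z k : ℕ} (hZ : 2 ≤ Z) (hLZ : (L : ℝ) + 1 ≤ Z) (hmnZ : (m : ℝ) * n ≤ Z)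
    (hm : 1 ≤ m) (hn : 1 ≤ n) (hk : (2 * Z) ^ 504 ≤ k) :
    Real.sqrt (dPar Z + Real.exp (-((k : ℝ) / (4 * ((L : ℝ) + 1) * (m : ℝ) ^ 2 * (n : ℝ) ^ 2 * cPar Z)))) ≤
      1 / (8 * (Z : ℝ) ^ 4) := by
  have h := tail_small (L := L) hZ hLZ hmnZ hm hn hk
  have hZ1 : (2 : ℝ) ≤ Z := by exact_mod_cast hZ
  have hZ0 : (0 : ℝ) < Z := by linarith
  have e : dPar Z + dPar Z = (1 / (8 * (Z : ℝ) ^ 4)) ^ 2 := by
    unfold dPar
    field_simp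
    norm_num
  refine Real.sqrt_le_iff.2 ⟨by positivity, ?_⟩
  rw [← e]
  linarith

variable [NeZero m] [NeZero n]

omit [NeZero m] [NeZero n] in
theorem total_lt {N L : ℕ} (hL : L = Nat.log 2 N) {x : ℕ} (hx : x ≤ N) : x < 2 ^ (L + 1) := by
  subst hL
  exact lt_of_le_of_lt hx (Nat.lt_pow_succ_log_self (by norm_num) N)

/-- The sampler, with an explicit polynomial number of chain steps. -/
theorem final_tv (hCpl : CouplingAll m n) (hWin : WindowFamily m n) (r : Fin m → ℕ) (c : Fin n → ℕ)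
    (hrc : ∑ i, r i = ∑ j, c j) {ε : ℝ} (hε0 : 0 < ε) (hε1 : ε < 1) {L J k : ℕ}
    (hL : L = Nat.log 2 (∑ i, r i)) (hJ : J = m * (n * (L + 1))) (hk : (2 * zPar m n L ε) ^ 504 ≤ k) :
    (∀ y, 0 ≤ annealB L k J r c y) ∧ (∀ y, y ∉ Tab r c → annealB L k J r c y = 0) ∧
      ∑ y ∈ Tab r c, annealB L k J r c y = 1 ∧ tvUnif r c (annealB L k J r c) ≤ ε := by
  have hm : 1 ≤ m := Nat.pos_of_neZero m
  have hn : 1 ≤ n := Nat.pos_of_neZero n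
  set Z := zPar m n L ε with hZdef
  have hZ2 : 2 ≤ Z := by
    have := zPar_ge_two (m := m) (n := n) (L := L) hm hn hε0 hε1
    rw [← hZdef] at this
    exact_mod_cast this
  have hZr : (2 : ℝ) ≤ Z := by exact_mod_cast hZ2
  have hLZ : (L : ℝ) + 1 ≤ Z := L_le_zPar hm hn hε0 hε1
  have hmnZ : (m : ℝ) * n ≤ Z := mn_le_zPar hm hn hε0 hε1
  have hP : ∀ (r' : Fin m → ℕ) (c' : Fin n → ℕ), ∑ i, r' i = ∑ j, c' j → ∑ i, r' i ≤ ∑ i, r i →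
      ∀ (g : Tb m (Fin n) → ℝ) (M : ℝ), 0 ≤ M → (∀ x ∈ Tab r' c', g x ^ 2 ≤ M) →
      tabVar r' c' g ≤ cPar Z * ∑ l ∈ range (L + 1), tabDirS (2 ^ l) r' c' g + dPar Z * M := by
    intro r' c' _ h2 g M hM0 hM
    exact weak_par hm hn hCpl hWin hZ2 hLZ hmnZ r' c' (total_lt hL h2) g M hM0 hM
  have hd0 : 0 ≤ dPar Z := by unfold dPar; positivity
  have hspec := annealB_spec (m := m) (n := n) (cPar_pos Z) hd0 L (∑ i, r i) hP k J r c hrc le_rfl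
    (by
      rw [hJ, hL]
      exact stagesOf_le hn le_rfl)
  obtain ⟨h1, h2, h3, h4⟩ := hspec
  refine ⟨h1, h2, h3, h4.trans ?_⟩
  have hs := sqrt_small (L := L) hZ2 hLZ hmnZ hm hn hk
  have hJr : (J : ℝ) = (m : ℝ) * (n * ((L : ℝ) + 1)) := by
    rw [hJ]; push_cast; ring
  have hJZ : (J : ℝ) + 1 ≤ Z * ε := by
    rw [hJr]
    exact stages_le_zPar hm hn hε0
  have hJ0 : (0 : ℝ) ≤ J := Nat.cast_nonneg _
  have hnZ : (n : ℝ) ≤ Z := n_le_zPar hm hn hε0 hε1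
  have hZ0 : (0 : ℝ) < Z := by linarith
  calc (J : ℝ) * (((n : ℝ) / 2) * Real.sqrt _) ≤ (J : ℝ) * (((n : ℝ) / 2) * (1 / (8 * (Z : ℝ) ^ 4))) := by
        gcongr
    _ ≤ (Z * ε) * (((Z : ℝ) / 2) * (1 / (8 * (Z : ℝ) ^ 4))) := by
        have hJ1 : (J : ℝ) ≤ Z * ε := by linarith
        gcongr
    _ = ε * (1 / (16 * (Z : ℝ) ^ 2)) := by
        field_simp
        ring
    _ ≤ ε * 1 := by
        gcongr
        rw [div_le_one (by positivity)]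
        nlinarith [sq_nonneg ((Z : ℝ))]
    _ = ε := mul_one _

/-- The laws of the draws of the estimator are probability laws on the tables of their stage. -/
theorem final_laws (hCpl : CouplingAll m n) (hWin : WindowFamily m n) (r : Fin m → ℕ) (c : Fin n → ℕ)
    (hrc : ∑ i, r i = ∑ j, c j) {ε : ℝ} (hε0 : 0 < ε) (hε1 : ε < 1) {L J : ℕ} (k : ℕ)
    (hL : L = Nat.log 2 (∑ i, r i)) (hJ : J = m * (n * (L + 1))) (j : Fin J) :
    (∀ y, 0 ≤ bLaw L k r c J j y) ∧ ∑ y ∈ bSet r c J j, bLaw L k r c J j y = 1 := by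
  have hm : 1 ≤ m := Nat.pos_of_neZero m
  have hn : 1 ≤ n := Nat.pos_of_neZero n
  set Z := zPar m n L ε with hZdef
  have hZ2 : 2 ≤ Z := by
    have := zPar_ge_two (m := m) (n := n) (L := L) hm hn hε0 hε1
    rw [← hZdef] at this
    exact_mod_cast this
  have hLZ : (L : ℝ) + 1 ≤ Z := L_le_zPar hm hn hε0 hε1
  have hmnZ : (m : ℝ) * n ≤ Z := mn_le_zPar hm hn hε0 hε1
  have hP : ∀ (r' : Fin m → ℕ) (c' : Fin n → ℕ), ∑ i, r' i = ∑ j, c' j → ∑ i, r' i ≤ ∑ i, r i →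
      ∀ (g : Tb m (Fin n) → ℝ) (M : ℝ), 0 ≤ M → (∀ x ∈ Tab r' c', g x ^ 2 ≤ M) →
      tabVar r' c' g ≤ cPar Z * ∑ l ∈ range (L + 1), tabDirS (2 ^ l) r' c' g + dPar Z * M := by
    intro r' c' _ h2 g M hM0 hM
    exact weak_par hm hn hCpl hWin hZ2 hLZ hmnZ r' c' (total_lt hL h2) g M hM0 hM
  have hd0 : 0 ≤ dPar Z := by unfold dPar; positivity
  have hJs : stagesOf n r ≤ J := by
    rw [hJ, hL]
    exact stagesOf_le hn le_rfl
  obtain ⟨h1, h2, h3⟩ := schedB_facts hrc hJs j j.2.le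
  have hs := annealB_spec (m := m) (n := n) (cPar_pos Z) hd0 L (∑ i, r i) hP k (J - j) _ _ h1 h2 h3
  exact ⟨hs.1, hs.2.2.1⟩

/-- The estimator, with an explicit polynomial number of chain steps. -/
theorem final_fpras (hCpl : CouplingAll m n) (hWin : WindowFamily m n) (r : Fin m → ℕ) (c : Fin n → ℕ)
    (hrc : ∑ i, r i = ∑ j, c j) {ε δ : ℝ} (hε0 : 0 < ε) (hε1 : ε < 1) (hδ0 : 0 < δ) {L J k w T : ℕ}
    (hL : L = Nat.log 2 (∑ i, r i)) (hJ : J = m * (n * (L + 1))) (hk : (2 * zPar m n L ε) ^ 504 ≤ k)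
    (hw : 512 * (zPar m n L ε) ^ 3 ≤ w) (hT : 3 * Real.log (1 / δ) ≤ T) :
    1 - δ ≤ ∑ ω ∈ Fintype.piFinset (fun _ : Fin T => drawSpace (bSet r c J) w),
      if (1 - ε) * ((Tab r c).card : ℝ) ≤ medianOf (fun t => zHat (bHit r c J) (ω t)) ∧
          medianOf (fun t => zHat (bHit r c J) (ω t)) ≤ (1 + ε) * ((Tab r c).card : ℝ) then
        ∏ t, drawWeight (bLaw L k r c J) (ω t) else 0 := by
  have hm : 1 ≤ m := Nat.pos_of_neZero m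
  have hn : 1 ≤ n := Nat.pos_of_neZero n
  set Z := zPar m n L ε with hZdef
  have hZ2 : 2 ≤ Z := by
    have := zPar_ge_two (m := m) (n := n) (L := L) hm hn hε0 hε1
    rw [← hZdef] at this
    exact_mod_cast this
  have hZr : (2 : ℝ) ≤ Z := by exact_mod_cast hZ2
  have hLZ : (L : ℝ) + 1 ≤ Z := L_le_zPar hm hn hε0 hε1
  have hmnZ : (m : ℝ) * n ≤ Z := mn_le_zPar hm hn hε0 hε1
  have hP : ∀ (r' : Fin m → ℕ) (c' : Fin n → ℕ), ∑ i, r' i = ∑ j, c' j → ∑ i, r' i ≤ ∑ i, r i →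
      ∀ (g : Tb m (Fin n) → ℝ) (M : ℝ), 0 ≤ M → (∀ x ∈ Tab r' c', g x ^ 2 ≤ M) →
      tabVar r' c' g ≤ cPar Z * ∑ l ∈ range (L + 1), tabDirS (2 ^ l) r' c' g + dPar Z * M := by
    intro r' c' _ h2 g M hM0 hM
    exact weak_par hm hn hCpl hWin hZ2 hLZ hmnZ r' c' (total_lt hL h2) g M hM0 hM
  have hd0 : 0 ≤ dPar Z := by unfold dPar; positivity
  have hJs : stagesOf n r ≤ J := by
    rw [hJ, hL]
    exact stagesOf_le hn le_rfl
  have hJr : (J : ℝ) = (m : ℝ) * (n * ((L : ℝ) + 1)) := by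
    rw [hJ]; push_cast; ring
  have hJZ : (J : ℝ) + 1 ≤ Z * ε := by
    rw [hJr]
    exact stages_le_zPar hm hn hε0
  have hJ0 : (0 : ℝ) ≤ J := Nat.cast_nonneg _
  have hnZ : (n : ℝ) ≤ Z := n_le_zPar hm hn hε0 hε1
  have hn0 : (0 : ℝ) < n := by exact_mod_cast hn
  have hZ0 : (0 : ℝ) < Z := by linarith
  have hs := sqrt_small (L := L) hZ2 hLZ hmnZ hm hn hk
  have hZ3pos : 0 < 512 * Z ^ 3 := by positivity
  have hw0 : 0 < w := by omega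
  have hwr : 512 * (Z : ℝ) ^ 3 ≤ w := by exact_mod_cast hw
  refine fprasB_median (m := m) (n := n) (cPar_pos Z) hd0 L hrc hP hJs hε0 hε1 hδ0 ?_ hw0 ?_ hT
  · -- the accuracy of the sampler
    have hJ1 : (J : ℝ) ≤ Z * ε := by linarith
    have hJ2 : (J : ℝ) ≤ Z := by nlinarith
    have hlhs : (J : ℝ) * (((n : ℝ) / 2) * Real.sqrt
        (dPar Z + Real.exp (-((k : ℝ) / (4 * ((L : ℝ) + 1) * (m : ℝ) ^ 2 * (n : ℝ) ^ 2 * cPar Z))))) ≤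
        (J : ℝ) * (((n : ℝ) / 2) * (1 / (8 * (Z : ℝ) ^ 4))) := by
      gcongr
    refine hlhs.trans ?_
    rw [le_div_iff₀ (by positivity)]
    have hkey : (J : ℝ) * (n : ℝ) ^ 2 * ((J : ℝ) + 1) ≤ (Z : ℝ) ^ 4 * ε := by
      have h1 : (n : ℝ) ^ 2 ≤ (Z : ℝ) ^ 2 := pow_le_pow_left₀ hn0.le hnZ 2
      calc (J : ℝ) * (n : ℝ) ^ 2 * ((J : ℝ) + 1) ≤ (Z : ℝ) * (Z : ℝ) ^ 2 * (Z * ε) := by gcongr
        _ = _ := by ring
    have hlhs2 : (J : ℝ) * (((n : ℝ) / 2) * (1 / (8 * (Z : ℝ) ^ 4))) * (8 * (n : ℝ) * ((J : ℝ) + 1)) =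
        ((J : ℝ) * (n : ℝ) ^ 2 * ((J : ℝ) + 1)) / (2 * (Z : ℝ) ^ 4) := by
      field_simp
    rw [hlhs2, div_le_iff₀ (by positivity)]
    nlinarith [pow_pos hZ0 4]
  · -- the number of draws
    refine le_trans ?_ hwr
    have hJ1 : (J : ℝ) ≤ Z * ε := by linarith
    rw [div_le_iff₀ (by positivity)]
    have hZε : 1 ≤ Z * ε := by linarith
    have h1 : (n : ℝ) * J ≤ (Z : ℝ) * (Z * ε) := by gcongr
    have h2 : (Z : ℝ) * (Z * ε) ≤ (Z : ℝ) ^ 3 * ε ^ 2 := by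
      have : (Z : ℝ) ^ 3 * ε ^ 2 = (Z : ℝ) * (Z * ε) * (Z * ε) := by ring
      rw [this]
      have hp : 0 ≤ (Z : ℝ) * (Z * ε) := by positivity
      nlinarith
    nlinarith

end

end Vale.Agent.Lib.P328B
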