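import Vale.Agent.Lib.P328Q.Basic

/-!
Offsets for a grid of boxes: for a finite set of matrices, one can shift a grid of side `K` so that
few matrices have a cell near a grid point.
-/

namespace Vale.Agent.Lib.P328B

open Finset Vale.Agent.Lib.P328Q

noncomputable section

variable {m n : ℕ}

/-- The index of the box of side `K` with offset `σ` which contains the matrix `X`. -/
def boxIdx (K : ℤ) (σ X : Mat m n) : Mat m n := fun i j => (X i j + σ i j) / K

lemma same_floor {K D u u' : ℤ} (hK : 0 < K) (hd : |u - u'| ≤ D) (h : 2 * D ≤ (u + D) % K) :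
    u / K = u' / K := by
  have hD : 0 ≤ D := (abs_nonneg _).trans hd
  have h1 := Int.emod_add_mul_ediv (u + D) K
  have h2 := Int.emod_lt_of_pos (u + D) hK
  obtain ⟨h3, h4⟩ := abs_le.1 hd
  set w := (u + D) % K
  set q := (u + D) / K
  have e1 : u / K = q ∧ u % K = w - D := by
    rw [Int.ediv_emod_unique hK]
    refine ⟨?_, ?_, ?_⟩ <;> omega
  have e2 : u' / K = q ∧ u' % K = w - D + (u' - u) := by
    rw [Int.ediv_emod_unique hK]
    refine ⟨?_, ?_, ?_⟩ <;> omega
  rw [e1.1, e2.1]

lemma card_shift (a : ℤ) (K t : ℕ) (hK : 0 < K) :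
    ((range K).filter fun s : ℕ => (a + (s : ℤ)) % (K : ℤ) < (t : ℤ)).card ≤ t := by
  have hK' : (0 : ℤ) < K := by exact_mod_cast hK
  have := Finset.card_le_card_of_injOn (s := (range K).filter fun s : ℕ => (a + (s : ℤ)) % (K : ℤ) < (t : ℤ))
    (t := range t) (fun s => ((a + (s : ℤ)) % (K : ℤ)).toNat) ?_ ?_
  · simpa using this
  · intro s hs
    have hs' := (mem_filter.1 hs).2
    have h0 := Int.emod_nonneg (a + (s : ℤ)) hK'.ne'
    simp only [coe_range, Set.mem_Iio]
    omega
  · intro s hs s' hs' he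
    have hs1 := mem_range.1 (mem_filter.1 hs).1
    have hs2 := mem_range.1 (mem_filter.1 hs').1
    have h0 := Int.emod_nonneg (a + (s : ℤ)) hK'.ne'
    have h0' := Int.emod_nonneg (a + (s' : ℤ)) hK'.ne'
    simp only at he
    have he' : (a + (s : ℤ)) % (K : ℤ) = (a + (s' : ℤ)) % (K : ℤ) := by omega
    have hdvd : (K : ℤ) ∣ (a + (s' : ℤ)) - (a + (s : ℤ)) :=
      Int.dvd_of_emod_eq_zero (by
        rw [Int.sub_emod, he']
        simp)
    obtain ⟨k, hk⟩ := hdvd
    have hk0 : k = 0 := by
      by_contra hne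
      rcases lt_or_gt_of_ne hne with h | h
      · have : (K : ℤ) * k ≤ (K : ℤ) * (-1) := mul_le_mul_of_nonneg_left (by omega) hK'.le
        omega
      · have : (K : ℤ) * 1 ≤ (K : ℤ) * k := mul_le_mul_of_nonneg_left (by omega) hK'.le
        omega
    subst hk0
    simp at hk
    omega

/-- The matrices of `F` with a cell close to the shifted grid. -/
def nearGrid (F : Finset (Mat m n)) (K D : ℕ) (i : Fin m) (j : Fin n) (s : ℕ) : Finset (Mat m n) :=
  F.filter fun X => (X i j + (s : ℤ) + (D : ℤ)) % (K : ℤ) < 2 * (D : ℤ)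

lemma exists_cell_offset (F : Finset (Mat m n)) (K D : ℕ) (hK : 0 < K) (i : Fin m) (j : Fin n) :
    ∃ s ∈ range K, K * (nearGrid F K D i j s).card ≤ 2 * D * F.card := by
  have hsum : ∑ s ∈ range K, K * (nearGrid F K D i j s).card ≤ ∑ _s ∈ range K, 2 * D * F.card := by
    rw [← mul_sum]
    have h1 : ∑ s ∈ range K, (nearGrid F K D i j s).card ≤ 2 * D * F.card := by
      unfold nearGrid
      simp only [card_filter]
      rw [sum_comm]
      have h2 : ∀ X ∈ F, ∑ s ∈ range K, (if (X i j + (s : ℤ) + (D : ℤ)) % (K : ℤ) < 2 * (D : ℤ) then 1 else 0)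
          ≤ 2 * D := by
        intro X _
        rw [← card_filter]
        have := card_shift (X i j + (D : ℤ)) K (2 * D) hK
        have e : ∀ s : ℕ, (X i j + (s : ℤ) + (D : ℤ)) = X i j + (D : ℤ) + (s : ℤ) := fun s => by ring
        simp only [e]
        push_cast at this
        exact this
      calc _ ≤ ∑ _X ∈ F, 2 * D := sum_le_sum h2
        _ = _ := by
          rw [sum_const, smul_eq_mul, mul_comm]
    rw [sum_const, smul_eq_mul, card_range]
    exact Nat.mul_le_mul_left K h1
  exact exists_le_of_sum_le (nonempty_range_iff.2 hK.ne') hsum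

/-- **Good offsets.** -/
theorem exists_offset (F : Finset (Mat m n)) (K D : ℕ) (hK : 0 < K) :
    ∃ σ : Mat m n, (∀ i j, 0 ≤ σ i j ∧ σ i j < K) ∧ ∃ B : Finset (Mat m n), B ⊆ F ∧
      K * B.card ≤ m * n * (2 * D * F.card) ∧
      ∀ X ∈ F, ∀ X' : Mat m n, (∀ i j, |X i j - X' i j| ≤ D) → X ∉ B →
        boxIdx K σ X = boxIdx K σ X' := by
  classical
  choose s hs hs' using fun (p : Fin m × Fin n) => exists_cell_offset F K D hK p.1 p.2
  refine ⟨fun i j => (s (i, j) : ℤ), fun i j => ?_, (univ : Finset (Fin m × Fin n)).biUnion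
    (fun p => nearGrid F K D p.1 p.2 (s p)), ?_, ?_, ?_⟩
  · have := mem_range.1 (hs (i, j))
    constructor
    · positivity
    · show (s (i, j) : ℤ) < K
      exact_mod_cast this
  · intro X hX
    obtain ⟨p, -, hp⟩ := mem_biUnion.1 hX
    exact (mem_filter.1 hp).1
  · calc K * ((univ : Finset (Fin m × Fin n)).biUnion
        (fun p => nearGrid F K D p.1 p.2 (s p))).card
        ≤ K * ∑ p : Fin m × Fin n, (nearGrid F K D p.1 p.2 (s p)).card :=
          Nat.mul_le_mul_left K card_biUnion_le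
      _ = ∑ p : Fin m × Fin n, K * (nearGrid F K D p.1 p.2 (s p)).card := mul_sum _ _ _
      _ ≤ ∑ _p : Fin m × Fin n, 2 * D * F.card := sum_le_sum fun p _ => hs' p
      _ = _ := by
        simp [Fintype.card_prod, card_univ]
  · intro X hX X' hd hB
    funext i j
    simp only [boxIdx]
    have hK' : (0 : ℤ) < K := by exact_mod_cast hK
    have hd' : |X i j + (s (i, j) : ℤ) - (X' i j + (s (i, j) : ℤ))| ≤ (D : ℤ) := by
      have : X i j + (s (i, j) : ℤ) - (X' i j + (s (i, j) : ℤ)) = X i j - X' i j := by ring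
      rw [this]
      exact hd i j
    refine same_floor hK' hd' ?_
    by_contra hlt
    push Not at hlt
    exact hB (mem_biUnion.2 ⟨(i, j), mem_univ _, mem_filter.2 ⟨hX, hlt⟩⟩)

end

end Vale.Agent.Lib.P328B
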