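import Vale.Agent.Lib.P328Q.TopLevel
import Vale.Agent.Lib.P328B.Split
import Vale.Agent.Lib.P328B.Shift

/-!
The parity classes of the contingency tables with given margins are again sets of contingency
tables: `X = ε + 2 Y`, with `Y` an arbitrary table with margins `(r - r(ε)) / 2`, `(c - c(ε)) / 2`.
Moves of size `s` of `Y` are moves of size `2 s` of `X`.
-/

namespace Vale.Agent.Lib.P328B

open Finset Vale.Agent.Lib.P328Q Vale.Agent.Lib.P328U

noncomputable section

variable {m n : ℕ}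

/-- The matrix of parities. -/
def par (X : Mat m n) : Mat m n := fun i j => X i j % 2

/-- The halved matrix. -/
def hlf (X : Mat m n) : Mat m n := fun i j => X i j / 2

/-- The matrix `ε + 2 Y`. -/
def dbl (ε Y : Mat m n) : Mat m n := fun i j => ε i j + 2 * Y i j

/-- Row sums of a parity class after halving. -/
def hr (r : Fin m → ℤ) (ε : Mat m n) : Fin m → ℤ := fun i => (r i - rowSum ε i) / 2

/-- Column sums of a parity class after halving. -/
def hc (c : Fin n → ℤ) (ε : Mat m n) : Fin n → ℤ := fun j => (c j - colSum ε j) / 2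

/-- The parity class of `ε` in the tables with margins `r`, `c`. -/
def cls (r : Fin m → ℤ) (c : Fin n → ℤ) (ε : Mat m n) : Finset (Mat m n) :=
  (Om r c).filter fun X => par X = ε

theorem mem_Om_iff {r : Fin m → ℤ} {c : Fin n → ℤ} {X : Mat m n} :
    X ∈ Om r c ↔ (∀ i j, 0 ≤ X i j) ∧ rowSum X = r ∧ colSum X = c := by
  constructor
  · intro h
    exact ⟨fun i j => top_nonneg_of_mem le_rfl h i j, top_margins_of_mem h⟩
  · rintro ⟨h0, h1, h2⟩
    exact top_mem_Om h0 h1 h2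

theorem dbl_par_hlf (X : Mat m n) : dbl (par X) (hlf X) = X := by
  funext i j
  simp only [dbl, par, hlf]
  omega

theorem rowSum_dbl (ε Y : Mat m n) (i : Fin m) : rowSum (dbl ε Y) i = rowSum ε i + 2 * rowSum Y i := by
  simp [rowSum, dbl, sum_add_distrib, mul_sum]

theorem colSum_dbl (ε Y : Mat m n) (j : Fin n) : colSum (dbl ε Y) j = colSum ε j + 2 * colSum Y j := by
  simp [colSum, dbl, sum_add_distrib, mul_sum]

theorem par_nonneg (X : Mat m n) (i : Fin m) (j : Fin n) : 0 ≤ par X i j := by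
  simp only [par]
  omega

theorem par_le_one (X : Mat m n) (i : Fin m) (j : Fin n) : par X i j ≤ 1 := by
  simp only [par]
  omega

theorem hlf_dbl {ε : Mat m n} (h0 : ∀ i j, 0 ≤ ε i j) (h1 : ∀ i j, ε i j ≤ 1) (Y : Mat m n) :
    hlf (dbl ε Y) = Y := by
  funext i j
  have := h0 i j
  have := h1 i j
  simp only [hlf, dbl]
  omega

theorem par_dbl {ε : Mat m n} (h0 : ∀ i j, 0 ≤ ε i j) (h1 : ∀ i j, ε i j ≤ 1) (Y : Mat m n) :
    par (dbl ε Y) = ε := by
  funext i j
  have := h0 i j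
  have := h1 i j
  simp only [par, dbl]
  omega

theorem dbl_injective (ε : Mat m n) : Function.Injective (dbl ε) := by
  intro Y Y' h
  funext i j
  have := congrFun (congrFun h i) j
  simp only [dbl] at this
  omega

section Class

variable {r : Fin m → ℤ} {c : Fin n → ℤ} {X₀ : Mat m n}

theorem hr_eq (hX : X₀ ∈ Om r c) (i : Fin m) : r i = rowSum (par X₀) i + 2 * rowSum (hlf X₀) i := by
  rw [← rowSum_dbl, dbl_par_hlf, (mem_Om_iff.1 hX).2.1]

theorem hc_eq (hX : X₀ ∈ Om r c) (j : Fin n) : c j = colSum (par X₀) j + 2 * colSum (hlf X₀) j := by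
  rw [← colSum_dbl, dbl_par_hlf, (mem_Om_iff.1 hX).2.2]

theorem hr_par (hX : X₀ ∈ Om r c) : hr r (par X₀) = rowSum (hlf X₀) := by
  funext i
  simp only [hr]
  rw [hr_eq hX i]
  omega

theorem hc_par (hX : X₀ ∈ Om r c) : hc c (par X₀) = colSum (hlf X₀) := by
  funext j
  simp only [hc]
  rw [hc_eq hX j]
  omega

theorem hlf_nonneg (hX : X₀ ∈ Om r c) (i : Fin m) (j : Fin n) : 0 ≤ hlf X₀ i j := by
  have := (mem_Om_iff.1 hX).1 i j
  simp only [hlf]
  omega

theorem hlf_mem (hX : X₀ ∈ Om r c) : hlf X₀ ∈ Om (hr r (par X₀)) (hc c (par X₀)) := by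
  rw [hr_par hX, hc_par hX]
  exact mem_Om_iff.2 ⟨hlf_nonneg hX, rfl, rfl⟩

theorem dbl_mem (hX : X₀ ∈ Om r c) {Y : Mat m n} (hY : Y ∈ Om (hr r (par X₀)) (hc c (par X₀))) :
    dbl (par X₀) Y ∈ Om r c := by
  rw [hr_par hX, hc_par hX] at hY
  obtain ⟨h0, h1, h2⟩ := mem_Om_iff.1 hY
  refine mem_Om_iff.2 ⟨fun i j => ?_, ?_, ?_⟩
  · have := par_nonneg X₀ i j
    have := h0 i j
    simp only [dbl]
    omega
  · funext i
    rw [rowSum_dbl, h1, hr_eq hX i]
  · funext j
    rw [colSum_dbl, h2, hc_eq hX j]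

theorem cls_eq_image (hX : X₀ ∈ Om r c) :
    cls r c (par X₀) = (Om (hr r (par X₀)) (hc c (par X₀))).image (dbl (par X₀)) := by
  ext X
  simp only [cls, mem_filter, mem_image]
  constructor
  · rintro ⟨hXO, hp⟩
    refine ⟨hlf X, ?_, ?_⟩
    · rw [← hp]
      exact hlf_mem hXO
    · rw [← hp]
      exact dbl_par_hlf X
  · rintro ⟨Y, hY, rfl⟩
    exact ⟨dbl_mem hX hY, par_dbl (par_nonneg X₀) (par_le_one X₀) Y⟩

theorem card_cls (hX : X₀ ∈ Om r c) :
    (cls r c (par X₀)).card = (Om (hr r (par X₀)) (hc c (par X₀))).card := by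
  rw [cls_eq_image hX, card_image_of_injective _ (dbl_injective _)]

end Class

/-- The variance is unchanged by an injective change of variables. -/
theorem vr_image {G G' : Type*} [DecidableEq G'] {S : Finset G} {φ : G → G'}
    (hφ : Function.Injective φ) (f : G' → ℝ) :
    vr (S.image φ) f = vr S (fun x => f (φ x)) := by
  unfold vr wv
  rw [card_image_of_injective _ hφ, sum_image (fun x _ y _ h => hφ h)]
  congr 1
  refine sum_congr rfl fun x _ => ?_
  rw [sum_image (fun x _ y _ h => hφ h)]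

/-- The energy of the moves of size `s` out of the table `Y`. -/
def enrg (s : ℤ) (g : Mat m n → ℝ) (Y : Mat m n) : ℝ :=
  ∑ a, ∑ i, ∑ b, ∑ b',
    if i ≠ a ∧ b' ≠ b ∧ s ≤ Y a b ∧ s ≤ Y i b' then
      (g Y - g (Y - s • eu a b + s • eu a b' + s • eu i b - s • eu i b')) ^ 2 else 0

/-- The energy of the moves of size `s`. -/
def DirS (s : ℤ) (g : Mat m n → ℝ) (r : Fin m → ℤ) (c : Fin n → ℤ) : ℝ :=
  ∑ Y ∈ Om r c, enrg s g Y

theorem DirS_one (g : Mat m n → ℝ) (r : Fin m → ℤ) (c : Fin n → ℤ) : DirS 1 g r c = Dir g r c := by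
  simp [DirS, Dir, enrg]

theorem enrg_nonneg (s : ℤ) (g : Mat m n → ℝ) (Y : Mat m n) : 0 ≤ enrg s g Y := by
  unfold enrg
  refine sum_nonneg fun _ _ => sum_nonneg fun _ _ => sum_nonneg fun _ _ => sum_nonneg fun _ _ => ?_
  split_ifs
  · positivity
  · exact le_rfl

theorem DirS_nonneg (s : ℤ) (g : Mat m n → ℝ) (r : Fin m → ℤ) (c : Fin n → ℤ) : 0 ≤ DirS s g r c :=
  sum_nonneg fun _ _ => enrg_nonneg _ _ _

theorem enrg_dbl {ε : Mat m n} (h0 : ∀ i j, 0 ≤ ε i j) (h1 : ∀ i j, ε i j ≤ 1) (s : ℤ)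
    (g : Mat m n → ℝ) (Y : Mat m n) :
    enrg s (fun Y => g (dbl ε Y)) Y = enrg (2 * s) g (dbl ε Y) := by
  unfold enrg
  refine sum_congr rfl fun a _ => sum_congr rfl fun i _ => sum_congr rfl fun b _ =>
    sum_congr rfl fun b' _ => ?_
  have e1 : s ≤ Y a b ↔ 2 * s ≤ dbl ε Y a b := by
    have := h0 a b
    have := h1 a b
    simp only [dbl]
    omega
  have e2 : s ≤ Y i b' ↔ 2 * s ≤ dbl ε Y i b' := by
    have := h0 i b'
    have := h1 i b'
    simp only [dbl]
    omega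
  have e3 : dbl ε (Y - s • eu a b + s • eu a b' + s • eu i b - s • eu i b') =
      dbl ε Y - (2 * s) • eu a b + (2 * s) • eu a b' + (2 * s) • eu i b - (2 * s) • eu i b' := by
    funext x y
    simp only [dbl, Pi.sub_apply, Pi.add_apply, Pi.smul_apply, smul_eq_mul]
    ring
  simp only [e1, e2, e3]

/-- Energies of the parity classes add up to the energy of moves of the double size. -/
theorem sum_DirS_cls (s : ℤ) (g : Mat m n → ℝ) (r : Fin m → ℤ) (c : Fin n → ℤ) :
    ∑ ε ∈ (Om r c).image par, DirS s (fun Y => g (dbl ε Y)) (hr r ε) (hc c ε) =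
      DirS (2 * s) g r c := by
  unfold DirS
  rw [← sum_fiberwise_of_maps_to (s := Om r c) (t := (Om r c).image par) (g := par)
      (fun x hx => mem_image_of_mem par hx) (f := fun Y => enrg (2 * s) g Y)]
  refine sum_congr rfl fun ε hε => ?_
  obtain ⟨X₀, hX₀, rfl⟩ := mem_image.1 hε
  have : (Om r c).filter (fun X => par X = par X₀) = cls r c (par X₀) := rfl
  rw [this, cls_eq_image hX₀, sum_image (fun x _ y _ h => dbl_injective _ h)]
  refine sum_congr rfl fun Y _ => ?_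
  exact enrg_dbl (par_nonneg X₀) (par_le_one X₀) s g Y

/-- Transport of a coupling to the parity classes. -/
theorem cls_coupling {r : Fin m → ℤ} {c : Fin n → ℤ} {X₀ X₁ : Mat m n} (h₀ : X₀ ∈ Om r c)
    (h₁ : X₁ ∈ Om r c) {π : Mat m n → Mat m n → ℝ}
    (hπ : IsCoupling (Om (hr r (par X₀)) (hc c (par X₀))) (Om (hr r (par X₁)) (hc c (par X₁))) π) :
    IsCoupling (cls r c (par X₀)) (cls r c (par X₁)) (fun x x' => π (hlf x) (hlf x')) := by
  have hl₀ := hlf_dbl (par_nonneg X₀) (par_le_one X₀)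
  have hl₁ := hlf_dbl (par_nonneg X₁) (par_le_one X₁)
  refine ⟨fun x y => hπ.nonneg _ _, fun x hx => ?_, fun y hy => ?_⟩
  · rw [cls_eq_image h₁, sum_image (fun x _ y _ h => dbl_injective _ h), card_cls h₀]
    simp only [hl₁]
    rw [cls_eq_image h₀] at hx
    obtain ⟨Y, hY, rfl⟩ := mem_image.1 hx
    rw [hl₀]
    exact hπ.left Y hY
  · rw [cls_eq_image h₀, sum_image (fun x _ y _ h => dbl_injective _ h), card_cls h₁]
    simp only [hl₀]
    rw [cls_eq_image h₁] at hy
    obtain ⟨Y, hY, rfl⟩ := mem_image.1 hy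
    rw [hl₁]
    exact hπ.right Y hY

/-- Matrices with equal halves up to `Φ` differ by at most `2 Φ + 1`. -/
theorem abs_sub_le_of_hlf {x y : Mat m n} {Φ : ℤ} (i : Fin m) (j : Fin n)
    (h : |hlf x i j - hlf y i j| ≤ Φ) : |x i j - y i j| ≤ 2 * Φ + 1 := by
  simp only [hlf] at h
  rw [abs_le] at h ⊢
  omega

end

end Vale.Agent.Lib.P328B
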