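import Vale.Agent.Lib.P328B.AnnealDefs
import Vale.Agent.Lib.P328U.ColBal

/-!
The margin schedule with jumps: the jump is legal, the ratio bound `|Ω(r, c)| ≤ n |Ω(next)|`, and the
number of stages is at most `m n (log₂ N + 1)`.
-/

namespace Vale.Agent.Lib.P328B

open Finset Vale.Agent.Lib.P328 Vale.Agent.Lib.P328U

noncomputable section

variable {m n : ℕ}

/-! ### Row and column choice -/

theorem firstRow_pos [NeZero m] {r : Fin m → ℕ} (h : ∃ i, r i ≠ 0) : 1 ≤ r (firstRow r) := by
  have hne : (univ.filter fun i => r i ≠ 0).Nonempty := by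
    obtain ⟨i, hi⟩ := h
    exact ⟨i, mem_filter.2 ⟨mem_univ _, hi⟩⟩
  unfold firstRow
  rw [dif_pos hne]
  have := (mem_filter.1 (min'_mem _ hne)).2
  omega

theorem topCol_max [NeZero n] (c : Fin n → ℕ) (j : Fin n) : c j ≤ c (topCol c) := by
  have hne : (univ.filter fun j => ∀ j', c j' ≤ c j).Nonempty := by
    obtain ⟨i, _, hi⟩ := Finset.exists_max_image univ c ⟨0, mem_univ _⟩
    exact ⟨i, mem_filter.2 ⟨mem_univ _, fun j' => hi j' (mem_univ _)⟩⟩
  unfold topCol
  rw [dif_pos hne]
  exact (mem_filter.1 (min'_mem _ hne)).2 j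

/-! ### The integer ceiling -/

theorem ceilDiv_zero {n : ℕ} (hn : 1 ≤ n) : ceilDiv n 0 = 0 := by
  unfold ceilDiv
  rw [Nat.zero_add]
  exact Nat.div_eq_of_lt (by omega)

theorem ceilDiv_mul_ge {n : ℕ} (hn : 1 ≤ n) (x : ℕ) : x ≤ n * ceilDiv n x := by
  unfold ceilDiv
  have h1 := Nat.div_add_mod (x + n - 1) n
  have h2 := Nat.mod_lt (x + n - 1) (show 0 < n by omega)
  omega

theorem ceilDiv_le {n : ℕ} (hn : 1 ≤ n) (x : ℕ) : ceilDiv n x ≤ x := by
  unfold ceilDiv
  rcases Nat.eq_zero_or_pos x with rfl | hx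
  · rw [Nat.zero_add, Nat.div_eq_of_lt (by omega)]
  · refine Nat.div_le_of_le_mul ?_
    have : (x - 1) * (n - 1) + x + n - 1 = n * x := by
      obtain ⟨x', rfl⟩ : ∃ x', x = x' + 1 := ⟨x - 1, by omega⟩
      obtain ⟨n', rfl⟩ : ∃ n', n = n' + 1 := ⟨n - 1, by omega⟩
      simp only [Nat.add_sub_cancel]
      have e : x' * n' + (x' + 1) + (n' + 1) = (n' + 1) * (x' + 1) + 1 := by ring
      omega
    have h2 : 0 ≤ (x - 1) * (n - 1) := Nat.zero_le _
    omega

theorem ceilDiv_pos {n : ℕ} (hn : 1 ≤ n) {x : ℕ} (hx : 1 ≤ x) : 1 ≤ ceilDiv n x := by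
  have := ceilDiv_mul_ge hn x
  by_contra h
  have h0 : ceilDiv n x = 0 := by omega
  rw [h0] at this
  omega

/-- Pigeonhole: if `x` is a sum of `n` numbers, one of them is at least `⌈x / n⌉`. -/
theorem ceilDiv_pigeon {f : Fin n → ℕ} (hn : 1 ≤ n) :
    ∃ j, ceilDiv n (∑ j, f j) ≤ f j := by
  by_contra hcon
  have hcon : ∀ j, f j + 1 ≤ ceilDiv n (∑ j, f j) := fun j => by
    have := not_exists.1 hcon j
    omega
  set x := ∑ j, f j with hx
  unfold ceilDiv at hcon
  have h1 : ∑ j, (f j + 1) ≤ ∑ _j : Fin n, (x + n - 1) / n := sum_le_sum fun j _ => hcon j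
  simp only [sum_add_distrib, sum_const, card_univ, Fintype.card_fin, smul_eq_mul, mul_one] at h1
  rw [← hx] at h1
  have h2 : n * ((x + n - 1) / n) ≤ x + n - 1 := Nat.mul_div_le _ _
  omega

/-! ### Margins and cells -/

/-- The table with `t` added at the cell `(a, b)`. -/
def addT (a : Fin m) (b : Fin n) (t : ℕ) (X : Tb m (Fin n)) : Tb m (Fin n) :=
  fun i j => X i j + if i = a ∧ j = b then t else 0

theorem subT_addT (a : Fin m) (b : Fin n) (t : ℕ) (X : Tb m (Fin n)) :
    subT a b t (addT a b t X) = X := by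
  funext i j
  simp [subT, addT]

theorem addT_subT {a : Fin m} {b : Fin n} {t : ℕ} {X : Tb m (Fin n)} (h : t ≤ X a b) :
    addT a b t (subT a b t X) = X := by
  funext i j
  simp only [subT, addT]
  by_cases hh : i = a ∧ j = b
  · obtain ⟨rfl, rfl⟩ := hh
    simp
    omega
  · simp [hh]

theorem rowS_addT (a : Fin m) (b : Fin n) (t : ℕ) (X : Tb m (Fin n)) (i : Fin m) :
    rowS (addT a b t X) i = rowS X i + if i = a then t else 0 := by
  unfold rowS addT
  rw [sum_add_distrib]
  congr 1
  by_cases h : i = a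
  · simp [h]
  · simp [h]

theorem colS_addT (a : Fin m) (b : Fin n) (t : ℕ) (X : Tb m (Fin n)) (j : Fin n) :
    colS (addT a b t X) j = colS X j + if j = b then t else 0 := by
  unfold colS addT
  rw [sum_add_distrib]
  congr 1
  by_cases h : j = b
  · simp [h]
  · simp [h]

theorem addT_mem {r : Fin m → ℕ} {c : Fin n → ℕ} {a : Fin m} {b : Fin n} {t : ℕ} (hr : t ≤ r a)
    (hc : t ≤ c b) {X : Tb m (Fin n)} (hX : X ∈ Tab (decT r a t) (decT c b t)) :
    addT a b t X ∈ Tab r c := by
  rw [mem_Tab] at hX ⊢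
  refine ⟨fun i => ?_, fun j => ?_⟩
  · rw [rowS_addT, hX.1 i]
    unfold decT
    by_cases h : i = a
    · subst h; simp; omega
    · simp [h]
  · rw [colS_addT, hX.2 j]
    unfold decT
    by_cases h : j = b
    · subst h; simp; omega
    · simp [h]

theorem subT_mem {r : Fin m → ℕ} {c : Fin n → ℕ} {a : Fin m} {b : Fin n} {t : ℕ}
    {Y : Tb m (Fin n)} (hY : Y ∈ Tab r c) (h1 : t ≤ Y a b) :
    subT a b t Y ∈ Tab (decT r a t) (decT c b t) := by
  have e := addT_subT h1
  rw [mem_Tab] at hY ⊢
  refine ⟨fun i => ?_, fun j => ?_⟩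
  · have := rowS_addT a b t (subT a b t Y) i
    rw [e, hY.1 i] at this
    unfold decT
    rw [this]
    simp
  · have := colS_addT a b t (subT a b t Y) j
    rw [e, hY.2 j] at this
    unfold decT
    rw [this]
    simp

theorem cell_le_col {r : Fin m → ℕ} {c : Fin n → ℕ} {a : Fin m} {b : Fin n}
    {Y : Tb m (Fin n)} (hY : Y ∈ Tab r c) : Y a b ≤ c b := by
  rw [mem_Tab] at hY
  rw [← hY.2 b]
  unfold colS
  exact single_le_sum (f := fun i => Y i b) (fun _ _ => Nat.zero_le _) (mem_univ a)

theorem cell_le_row {r : Fin m → ℕ} {c : Fin n → ℕ} {a : Fin m} {b : Fin n}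
    {Y : Tb m (Fin n)} (hY : Y ∈ Tab r c) : Y a b ≤ r a := by
  rw [mem_Tab] at hY
  rw [← hY.1 a]
  unfold rowS
  exact single_le_sum (f := fun j => Y a j) (fun _ _ => Nat.zero_le _) (mem_univ b)

/-- The tables with at least `t` at the cell `(a, b)` are in bijection with the tables of the next stage. -/
theorem card_filter_cellT {r : Fin m → ℕ} {c : Fin n → ℕ} {a : Fin m} {b : Fin n} {t : ℕ}
    (hr : t ≤ r a) (hc : t ≤ c b) :
    ((Tab r c).filter fun Y => t ≤ Y a b).card = (Tab (decT r a t) (decT c b t)).card := by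
  refine Finset.card_bij' (fun X _ => subT a b t X) (fun X _ => addT a b t X) ?_ ?_ ?_ ?_
  · intro X hX
    rw [mem_filter] at hX
    exact subT_mem hX.1 hX.2
  · intro X hX
    rw [mem_filter]
    refine ⟨addT_mem hr hc hX, ?_⟩
    simp [addT]
  · intro X hX
    rw [mem_filter] at hX
    exact addT_subT hX.2
  · intro X _
    exact subT_addT a b t X

/-- Sums over tables with at least `t` at the cell as sums over tables of the next stage. -/
theorem sum_shiftT_filter {r : Fin m → ℕ} {c : Fin n → ℕ} {a : Fin m} {b : Fin n} {t : ℕ}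
    (hr : t ≤ r a) (hc : t ≤ c b) (φ : Tb m (Fin n) → ℝ) :
    ∑ y ∈ (Tab r c).filter (fun Y => t ≤ Y a b), φ (subT a b t y) =
      ∑ x ∈ Tab (decT r a t) (decT c b t), φ x := by
  refine Finset.sum_bij' (fun X _ => subT a b t X) (fun X _ => addT a b t X) ?_ ?_ ?_ ?_ ?_
  · intro X hX
    rw [mem_filter] at hX
    exact subT_mem hX.1 hX.2
  · intro X hX
    rw [mem_filter]
    refine ⟨addT_mem hr hc hX, ?_⟩
    simp [addT]
  · intro X hX
    rw [mem_filter] at hX
    exact addT_subT hX.2
  · intro X _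
    exact subT_addT a b t X
  · intro X _
    rfl

theorem sum_shiftT {r : Fin m → ℕ} {c : Fin n → ℕ} {a : Fin m} {b : Fin n} {t : ℕ} (hr : t ≤ r a)
    (hc : t ≤ c b) (μ : Tb m (Fin n) → ℝ) :
    ∑ y ∈ Tab r c, shiftT a b t μ y = ∑ x ∈ Tab (decT r a t) (decT c b t), μ x := by
  rw [← sum_shiftT_filter hr hc μ, sum_filter]
  rfl

theorem l1_shiftT {r : Fin m → ℕ} {c : Fin n → ℕ} {a : Fin m} {b : Fin n} {t : ℕ} (hr : t ≤ r a)
    (hc : t ≤ c b) (μ ν : Tb m (Fin n) → ℝ) :
    ∑ y ∈ Tab r c, |shiftT a b t μ y - shiftT a b t ν y| =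
      ∑ x ∈ Tab (decT r a t) (decT c b t), |μ x - ν x| := by
  rw [← sum_shiftT_filter hr hc (fun x => |μ x - ν x|), sum_filter]
  refine sum_congr rfl fun y _ => ?_
  unfold shiftT
  split_ifs <;> simp

/-! ### Column balance for jumps -/

/-- The columns `b`, `b'` of `y` replaced by `u`, `v`. -/
def updC (y : Fin n → ℕ) (b b' : Fin n) (u v : ℕ) : Fin n → ℕ :=
  Function.update (Function.update y b u) b' v

theorem updC_balance (r : Fin m → ℕ) (y : Fin n → ℕ) {b b' : Fin n} (hne : b ≠ b') {u v : ℕ}
    (h : v ≤ u) :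
    (Tab r (updC y b b' (u + 1) v)).card ≤ (Tab r (updC y b b' u (v + 1))).card := by
  have hval1 : updC y b b' u v b' = v := by simp [updC]
  have hval2 : updC y b b' u v b = u := by simp [updC, hne]
  have key := col_balance r (updC y b b' u v) (b := b) (b' := b') (by rw [hval1, hval2]; exact h)
  have e1 : updC y b b' u v + Pi.single b 1 = updC y b b' (u + 1) v := by
    funext j
    simp only [Pi.add_apply, updC, Pi.single_apply, Function.update_apply]
    by_cases h1 : j = b'
    · subst h1
      simp [Ne.symm hne]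
    · by_cases h2 : j = b
      · subst h2
        simp [h1]
      · simp [h1, h2]
  have e2 : updC y b b' u v + Pi.single b' 1 = updC y b b' u (v + 1) := by
    funext j
    simp only [Pi.add_apply, updC, Pi.single_apply, Function.update_apply]
    by_cases h1 : j = b'
    · subst h1
      simp
    · by_cases h2 : j = b
      · subst h2
        simp [h1]
      · simp [h1, h2]
  rwa [e1, e2] at key

theorem updC_swap (r : Fin m → ℕ) (y : Fin n → ℕ) {b b' : Fin n} (hne : b ≠ b') (u v : ℕ) :
    (Tab r (updC y b b' u v)).card = (Tab r (updC (y ∘ Equiv.swap b b') b b' v u)).card := by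
  rw [← card_Tab_comp (Equiv.swap b b') r (updC y b b' u v)]
  congr 2
  funext j
  simp only [Function.comp, updC, Function.update_apply]
  by_cases h1 : j = b'
  · subst h1
    simp [hne]
  · by_cases h2 : j = b
    · subst h2
      simp [h1]
    · rw [Equiv.swap_apply_of_ne_of_ne h2 h1]
      simp [h1, h2]

theorem updC_walk (r : Fin m → ℕ) (y : Fin n → ℕ) {b b' : Fin n} (hne : b ≠ b') (a v k : ℕ)
    (hk : v + 2 * k ≤ a) :
    (Tab r (updC y b b' a v)).card ≤ (Tab r (updC y b b' (a - k) (v + k))).card := by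
  induction k with
  | zero => simp
  | succ k ih =>
    have h1 := ih (by omega)
    refine le_trans h1 ?_
    have h2 := updC_balance r y hne (u := a - (k + 1)) (v := v + k) (by omega)
    have e1 : a - (k + 1) + 1 = a - k := by omega
    have e2 : v + k + 1 = v + (k + 1) := by omega
    rw [e1, e2] at h2
    exact h2

/-- Removing `t` from a larger column keeps at least as many tables as from a smaller one. -/
theorem card_decT_le (r : Fin m → ℕ) {c : Fin n → ℕ} {b b' : Fin n} {t : ℕ} (hb' : t ≤ c b')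
    (h : c b' ≤ c b) : (Tab r (decT c b' t)).card ≤ (Tab r (decT c b t)).card := by
  by_cases hne : b = b'
  · subst hne; exact le_rfl
  have hb : t ≤ c b := le_trans hb' h
  set u := c b - t with hu
  set v := c b' - t with hv
  have e1 : decT c b' t = updC c b b' (u + t) v := by
    funext j
    simp only [decT, updC, Function.update_apply]
    by_cases h1 : j = b'
    · subst h1
      simp [hv]
    · by_cases h2 : j = b
      · subst h2
        simp [h1, hu]
        omega
      · simp [h1, h2]
  have e2 : decT c b t = updC c b b' u (v + t) := by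
    funext j
    simp only [decT, updC, Function.update_apply]
    by_cases h1 : j = b'
    · subst h1
      simp [Ne.symm hne, hv]
      omega
    · by_cases h2 : j = b
      · subst h2
        simp [h1, hu]
      · simp [h1, h2]
  rw [e1, e2]
  have hvu : v ≤ u := by omega
  by_cases hcase : v + t ≤ u
  · have := updC_walk r c hne (u + t) v t (by omega)
    simpa using this
  · have h3 := updC_walk r c hne (u + t) v (u - v) (by omega)
    have e3 : u + t - (u - v) = v + t := by omega
    have e4 : v + (u - v) = u := by omega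
    rw [e3, e4] at h3
    refine le_trans h3 (le_of_eq ?_)
    -- exchange the two columns
    have h4 := updC_swap r c hne (v + t) u
    have h5 := updC_swap r c hne u (v + t)
    -- both sides are the counts for the same multiset of columns
    have e5 : updC (c ∘ Equiv.swap b b') b b' u (v + t) = updC c b b' u (v + t) := by
      funext j
      simp only [Function.comp, updC, Function.update_apply]
      by_cases h1 : j = b'
      · simp [h1]
      · by_cases h2 : j = b
        · simp [h2]
        · simp [h1, h2, Equiv.swap_apply_of_ne_of_ne h2 h1]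
    rw [h4, e5]

/-- THE RATIO BOUND WITH JUMPS. -/
theorem card_Tab_le_mulT {r : Fin m → ℕ} {c : Fin n → ℕ} {a : Fin m} {b : Fin n} (hn : 1 ≤ n)
    (hb : ∀ j, c j ≤ c b) :
    (Tab r c).card ≤ n * (Tab (decT r a (ceilDiv n (r a))) (decT c b (ceilDiv n (r a)))).card := by
  classical
  set t := ceilDiv n (r a) with ht
  have hsub : Tab r c ⊆ univ.biUnion fun j : Fin n => (Tab r c).filter fun Y => t ≤ Y a j := by
    intro Y hY
    rw [mem_biUnion]
    have hY' := hY
    rw [mem_Tab] at hY'
    obtain ⟨j, hj⟩ := ceilDiv_pigeon (f := fun j => Y a j) hn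
    have e : ∑ j, Y a j = r a := hY'.1 a
    simp only [e] at hj
    exact ⟨j, mem_univ _, mem_filter.2 ⟨hY, hj⟩⟩
  have htr : t ≤ r a := ceilDiv_le hn _
  calc (Tab r c).card ≤ (univ.biUnion fun j : Fin n => (Tab r c).filter fun Y => t ≤ Y a j).card :=
        card_le_card hsub
    _ ≤ ∑ j : Fin n, ((Tab r c).filter fun Y => t ≤ Y a j).card := card_biUnion_le
    _ ≤ ∑ _j : Fin n, (Tab (decT r a t) (decT c b t)).card := by
        refine sum_le_sum fun j _ => ?_
        by_cases hcj : t ≤ c j
        · rw [card_filter_cellT htr hcj]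
          exact card_decT_le _ hcj (hb j)
        · have : ((Tab r c).filter fun Y => t ≤ Y a j) = ∅ := by
            rw [filter_eq_empty_iff]
            intro Y hY h1
            exact hcj (le_trans h1 (cell_le_col hY))
          rw [this]
          simp
    _ = _ := by simp

end

end Vale.Agent.Lib.P328B
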