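import Vale.Agent.Lib.P328B.Split

/-!
Composition of couplings of uniform laws, and walks between margins: a unit coupling for neighbouring
margins gives a coupling for any two margins of equal total, with a bound on the sup distance.
-/

namespace Vale.Agent.Lib.P328B

open Finset Vale.Agent.Lib.P328Q

noncomputable section

section Abstract

set_option linter.unusedSectionVars false

variable {G : Type*} [AddCommGroup G] [DecidableEq G]

/-- The reverse coupling. -/
theorem IsCoupling.symm {S T : Finset G} {π : G → G → ℝ} (h : IsCoupling S T π) :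
    IsCoupling T S (fun y x => π x y) :=
  ⟨fun x y => h.nonneg y x, fun y hy => h.right y hy, fun x hx => h.left x hx⟩

/-- The identity coupling. -/
theorem isCoupling_refl (S : Finset G) :
    IsCoupling S S (fun x y => if x = y then 1 / (S.card : ℝ) else 0) := by
  refine ⟨fun x y => ?_, fun x hx => ?_, fun y hy => ?_⟩
  · split_ifs <;> positivity
  · rw [sum_ite_eq, if_pos hx]
  · rw [sum_ite_eq', if_pos hy]

/-- Composition of couplings. -/
theorem IsCoupling.comp {S T W : Finset G} {π ρ : G → G → ℝ} (h1 : IsCoupling S T π)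
    (h2 : IsCoupling T W ρ) :
    IsCoupling S W (fun x z => (T.card : ℝ) * ∑ y ∈ T, π x y * ρ y z) := by
  refine ⟨fun x z => ?_, fun x hx => ?_, fun z hz => ?_⟩
  · exact mul_nonneg (Nat.cast_nonneg _) (sum_nonneg fun y _ => mul_nonneg (h1.nonneg _ _) (h2.nonneg _ _))
  · rw [← mul_sum, sum_comm]
    have e : ∀ y ∈ T, ∑ z ∈ W, π x y * ρ y z = π x y * (1 / (T.card : ℝ)) := fun y hy => by
      rw [← mul_sum, h2.left y hy]
    rw [sum_congr rfl e, ← sum_mul, h1.left x hx]
    rcases T.eq_empty_or_nonempty with rfl | hne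
    · have := h1.left x hx
      simp only [sum_empty] at this
      rw [← this]
      simp
    · have hc : (T.card : ℝ) ≠ 0 := by exact_mod_cast hne.card_pos.ne'
      field_simp
  · have e : ∑ x ∈ S, (T.card : ℝ) * ∑ y ∈ T, π x y * ρ y z =
        (T.card : ℝ) * ∑ y ∈ T, ∑ x ∈ S, π x y * ρ y z := by
      rw [← mul_sum, sum_comm]
    rw [e]
    have e2 : ∀ y ∈ T, ∑ x ∈ S, π x y * ρ y z = (1 / (T.card : ℝ)) * ρ y z := fun y hy => by
      rw [← sum_mul, h1.right y hy]
    rw [sum_congr rfl e2, ← mul_sum, h2.right z hz]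
    rcases T.eq_empty_or_nonempty with rfl | hne
    · have := h2.right z hz
      simp only [sum_empty] at this
      rw [← this]
      simp
    · have hc : (T.card : ℝ) ≠ 0 := by exact_mod_cast hne.card_pos.ne'
      field_simp

end Abstract

variable {m n : ℕ}

/-- Two finite sets of matrices have a coupling of their uniform laws with sup distance at most `U`. -/
def NearC (S T : Finset (Mat m n)) (U : ℤ) : Prop :=
  ∃ π : Mat m n → Mat m n → ℝ, IsCoupling S T π ∧
    ∀ x ∈ S, ∀ y ∈ T, π x y ≠ 0 → ∀ i j, |x i j - y i j| ≤ U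

theorem NearC.symm {S T : Finset (Mat m n)} {U : ℤ} (h : NearC S T U) : NearC T S U := by
  obtain ⟨π, h1, h2⟩ := h
  refine ⟨_, h1.symm, fun y hy x hx hne i j => ?_⟩
  rw [abs_sub_comm]
  exact h2 x hx y hy hne i j

theorem NearC.refl (S : Finset (Mat m n)) {U : ℤ} (hU : 0 ≤ U) : NearC S S U := by
  refine ⟨_, isCoupling_refl S, fun x _ y _ hne i j => ?_⟩
  by_cases h : x = y
  · subst h
    simpa using hU
  · simp [h] at hne

theorem NearC.trans {S T W : Finset (Mat m n)} {U V : ℤ} (h1 : NearC S T U) (h2 : NearC T W V) :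
    NearC S W (U + V) := by
  obtain ⟨π, h1, h3⟩ := h1
  obtain ⟨ρ, h2, h4⟩ := h2
  refine ⟨_, h1.comp h2, fun x hx z hz hne i j => ?_⟩
  have hne2 : ∑ y ∈ T, π x y * ρ y z ≠ 0 := right_ne_zero_of_mul hne
  obtain ⟨y, hy, hy2⟩ := exists_ne_zero_of_sum_ne_zero hne2
  have h5 := h3 x hx y hy (left_ne_zero_of_mul hy2) i j
  have h6 := h4 y hy z hz (right_ne_zero_of_mul hy2) i j
  calc |x i j - z i j| = |(x i j - y i j) + (y i j - z i j)| := by ring_nf
    _ ≤ |x i j - y i j| + |y i j - z i j| := abs_add_le _ _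
    _ ≤ U + V := add_le_add h5 h6

theorem NearC.mono {S T : Finset (Mat m n)} {U V : ℤ} (h : NearC S T U) (hUV : U ≤ V) :
    NearC S T V := by
  obtain ⟨π, h1, h2⟩ := h
  exact ⟨π, h1, fun x hx y hy hne i j => le_trans (h2 x hx y hy hne i j) hUV⟩

/-- The unit coupling, for all margins. -/
def UnitCoupling (m n : ℕ) : Prop :=
  ∀ (r : Fin m → ℤ) (c : Fin n → ℤ), 0 ≤ r → 0 ≤ c → ∑ i, r i = ∑ j, c j →
    ∀ a b, 1 ≤ r a → 1 ≤ c b →
      NearC (Om r c) (Om (r - Pi.single a 1) (c - Pi.single b 1)) 1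

/-- A nonnegative vector above another one with larger sum has a coordinate which is larger. -/
theorem exists_coord_lt {k : ℕ} {f g : Fin k → ℤ} (hlt : ∑ i, g i < ∑ i, f i) :
    ∃ i, g i < f i := by
  by_contra hcon
  have h : ∀ i, f i ≤ g i := fun i => not_lt.1 fun h => hcon ⟨i, h⟩
  have := sum_le_sum (s := univ) fun i _ => h i
  omega

/-- Walk down from margins to lower margins. -/
theorem walk_down (hU : UnitCoupling m n) (k : ℕ) :
    ∀ (r r0 : Fin m → ℤ) (c c0 : Fin n → ℤ), 0 ≤ r0 → 0 ≤ c0 → r0 ≤ r → c0 ≤ c →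
      ∑ i, r i = ∑ j, c j → ∑ i, r0 i = ∑ j, c0 j → ∑ i, r i - ∑ i, r0 i = k →
      NearC (Om r c) (Om r0 c0) k := by
  induction k with
  | zero =>
    intro r r0 c c0 _ _ hr hc hs hs0 hk
    have e1 : r = r0 := by
      funext i
      by_contra hne
      have h1 : r0 i < r i := lt_of_le_of_ne (hr i) (Ne.symm hne)
      have := sum_lt_sum (s := univ) (fun i _ => hr i) ⟨i, mem_univ _, h1⟩
      simp only [Nat.cast_zero] at hk
      omega
    have e2 : c = c0 := by
      funext i
      by_contra hne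
      have h1 : c0 i < c i := lt_of_le_of_ne (hc i) (Ne.symm hne)
      have := sum_lt_sum (s := univ) (fun i _ => hc i) ⟨i, mem_univ _, h1⟩
      simp only [Nat.cast_zero] at hk
      omega
    rw [e1, e2]
    exact NearC.refl _ (by simp)
  | succ k ih =>
    intro r r0 c c0 h0r h0c hr hc hs hs0 hk
    push_cast at hk
    have hk0 : (0 : ℤ) ≤ k := Nat.cast_nonneg k
    obtain ⟨a, ha⟩ := exists_coord_lt (f := r) (g := r0) (by omega)
    obtain ⟨b, hb⟩ := exists_coord_lt (f := c) (g := c0) (by omega)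
    have hra : 1 ≤ r a := by
      have := h0r a
      simp only [Pi.zero_apply] at this
      omega
    have hcb : 1 ≤ c b := by
      have := h0c b
      simp only [Pi.zero_apply] at this
      omega
    have h0r' : (0 : Fin m → ℤ) ≤ r := le_trans h0r hr
    have h0c' : (0 : Fin n → ℤ) ≤ c := le_trans h0c hc
    have hstep := hU r c h0r' h0c' hs a b hra hcb
    have e1 : ∑ i, (r - Pi.single a 1 : Fin m → ℤ) i = ∑ i, r i - 1 := by
      simp [sum_sub_distrib]
    have e2 : ∑ j, (c - Pi.single b 1 : Fin n → ℤ) j = ∑ j, c j - 1 := by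
      simp [sum_sub_distrib]
    have hnext := ih (r - Pi.single a 1) r0 (c - Pi.single b 1) c0 h0r h0c ?_ ?_ (by omega) hs0
      (by omega)
    · have := hstep.trans hnext
      refine this.mono ?_
      push_cast
      omega
    · intro i
      simp only [Pi.sub_apply, Pi.single_apply]
      by_cases h : i = a
      · subst h
        simp
        omega
      · simp [h]
        exact hr i
    · intro i
      simp only [Pi.sub_apply, Pi.single_apply]
      by_cases h : i = b
      · subst h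
        simp
        omega
      · simp [h]
        exact hc i

/-- A nonnegative vector has a smaller nonnegative vector with any smaller sum. -/
theorem exists_below {k : ℕ} (f : Fin k → ℤ) (hf : 0 ≤ f) (d : ℕ) :
    ∀ s : ℤ, 0 ≤ s → ∑ i, f i - s = d → ∃ g : Fin k → ℤ, 0 ≤ g ∧ g ≤ f ∧ ∑ i, g i = s := by
  induction d generalizing f with
  | zero =>
    intro s _ hd
    exact ⟨f, hf, le_rfl, by simp at hd; omega⟩
  | succ d ih =>
    intro s hs hd
    push_cast at hd
    have hd0 : (0 : ℤ) ≤ d := Nat.cast_nonneg d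
    have hlt : ∑ i, (0 : Fin k → ℤ) i < ∑ i, f i := by
      simp only [Pi.zero_apply, sum_const_zero]
      omega
    obtain ⟨a, ha⟩ := exists_coord_lt hlt
    simp only [Pi.zero_apply] at ha
    have hf' : (0 : Fin k → ℤ) ≤ f - Pi.single a 1 := by
      intro i
      simp only [Pi.zero_apply, Pi.sub_apply, Pi.single_apply]
      by_cases h : i = a
      · subst h
        simp
        omega
      · simp [h]
        exact hf i
    obtain ⟨g, h1, h2, h3⟩ := ih (f - Pi.single a 1) hf' s hs (by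
      simp [sum_sub_distrib]
      omega)
    refine ⟨g, h1, fun i => le_trans (h2 i) ?_, h3⟩
    simp only [Pi.sub_apply, Pi.single_apply]
    by_cases h : i = a
    · subst h
      simp
    · simp [h]

/-- THE WALK. Margins of equal total with large common lower bounds have a coupling. -/
theorem near_walk (hU : UnitCoupling m n) {r r2 : Fin m → ℤ} {c c2 : Fin n → ℤ} (h0r : 0 ≤ r)
    (h0r2 : 0 ≤ r2) (h0c : 0 ≤ c) (h0c2 : 0 ≤ c2) (hs : ∑ i, r i = ∑ j, c j)
    (hs2 : ∑ i, r2 i = ∑ j, c2 j) (hs3 : ∑ i, r i = ∑ i, r2 i) {V : ℤ}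
    (hV1 : ∑ i, r i - V ≤ ∑ i, min (r i) (r2 i))
    (hV2 : ∑ i, r i - V ≤ ∑ j, min (c j) (c2 j)) :
    NearC (Om r c) (Om r2 c2) (2 * V) := by
  set W := max 0 (∑ i, r i - V) with hW
  have hW0 : 0 ≤ W := le_max_left _ _
  have hm0 : (0 : Fin m → ℤ) ≤ fun i => min (r i) (r2 i) := fun i => le_min (h0r i) (h0r2 i)
  have hc0 : (0 : Fin n → ℤ) ≤ fun j => min (c j) (c2 j) := fun j => le_min (h0c j) (h0c2 j)
  have hsum1 : 0 ≤ ∑ i, min (r i) (r2 i) := sum_nonneg fun i _ => hm0 i
  have hsum2 : 0 ≤ ∑ j, min (c j) (c2 j) := sum_nonneg fun j _ => hc0 j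
  have hW1 : W ≤ ∑ i, min (r i) (r2 i) := max_le hsum1 hV1
  have hW2 : W ≤ ∑ j, min (c j) (c2 j) := max_le hsum2 hV2
  obtain ⟨r0, h1, h2, h3⟩ := exists_below (fun i => min (r i) (r2 i)) hm0
    (∑ i, min (r i) (r2 i) - W).toNat W hW0 (by
      rw [Int.toNat_of_nonneg (by omega)])
  obtain ⟨c0, h4, h5, h6⟩ := exists_below (fun j => min (c j) (c2 j)) hc0
    (∑ j, min (c j) (c2 j) - W).toNat W hW0 (by
      rw [Int.toNat_of_nonneg (by omega)])
  have hN0 : 0 ≤ ∑ i, r i := sum_nonneg fun i _ => h0r i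
  have hdiff : ∑ i, r i - W ≤ V := by
    have : ∑ i, r i - V ≤ W := le_max_right _ _
    omega
  have hdiff0 : 0 ≤ ∑ i, r i - W := by
    have h7 : ∑ i, min (r i) (r2 i) ≤ ∑ i, r i := sum_le_sum fun i _ => min_le_left _ _
    omega
  have hA := walk_down hU (∑ i, r i - W).toNat r r0 c c0 h1 h4
    (fun i => le_trans (h2 i) (min_le_left _ _)) (fun j => le_trans (h5 j) (min_le_left _ _))
    hs (by omega) (by rw [Int.toNat_of_nonneg hdiff0]; omega)
  have hB := walk_down hU (∑ i, r i - W).toNat r2 r0 c2 c0 h1 h4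
    (fun i => le_trans (h2 i) (min_le_right _ _)) (fun j => le_trans (h5 j) (min_le_right _ _))
    hs2 (by omega) (by rw [Int.toNat_of_nonneg hdiff0]; omega)
  have := hA.trans hB.symm
  refine this.mono ?_
  rw [Int.toNat_of_nonneg hdiff0]
  omega

/-- Margins close in each coordinate have a coupling. -/
theorem near_walk_bdd (hU : UnitCoupling m n) {r r2 : Fin m → ℤ} {c c2 : Fin n → ℤ} (h0r : 0 ≤ r)
    (h0r2 : 0 ≤ r2) (h0c : 0 ≤ c) (h0c2 : 0 ≤ c2) (hs : ∑ i, r i = ∑ j, c j)
    (hs2 : ∑ i, r2 i = ∑ j, c2 j) (hs3 : ∑ i, r i = ∑ i, r2 i) {A A' V : ℤ}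
    (hA : ∀ i, r i - r2 i ≤ A ∧ r2 i - r i ≤ A) (hA' : ∀ j, c j - c2 j ≤ A' ∧ c2 j - c j ≤ A')
    (hV1 : (m : ℤ) * A ≤ V) (hV2 : (n : ℤ) * A' ≤ V) :
    NearC (Om r c) (Om r2 c2) (2 * V) := by
  refine near_walk hU h0r h0r2 h0c h0c2 hs hs2 hs3 ?_ ?_
  · have h1 : ∑ i : Fin m, (r i - A) ≤ ∑ i, min (r i) (r2 i) :=
      sum_le_sum fun i _ => le_min (by have := (hA i).1; have := (hA i).2; omega)
        (by have := (hA i).1; omega)
    simp only [sum_sub_distrib, sum_const, card_univ, Fintype.card_fin, nsmul_eq_mul] at h1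
    omega
  · have h1 : ∑ j : Fin n, (c j - A') ≤ ∑ j, min (c j) (c2 j) :=
      sum_le_sum fun j _ => le_min (by have := (hA' j).1; have := (hA' j).2; omega)
        (by have := (hA' j).1; omega)
    simp only [sum_sub_distrib, sum_const, card_univ, Fintype.card_fin, nsmul_eq_mul] at h1
    omega

end

end Vale.Agent.Lib.P328B
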