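import Vale.Agent.Lib.P328B.Recursion
import Vale.Agent.Lib.P328B.ChainDefs
import Vale.Agent.Lib.P328Q.Bridge

/-!
The multi-scale weak Poincare inequality on natural number tables.
-/

namespace Vale.Agent.Lib.P328B

open Finset Vale.Agent.Lib.P328Q Vale.Agent.Lib.P328U Vale.Agent.Lib.P328

noncomputable section

variable {m n : ℕ}

/-- The embedding of the move of size `s`. -/
theorem br_msMove (s : ℕ) (i k : Fin m) (j l : Fin n) (X : Tb m (Fin n)) (h : msValid s i k j l X) :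
    brEmb X - (s : ℤ) • eu i l + (s : ℤ) • eu i j + (s : ℤ) • eu k l - (s : ℤ) • eu k j =
      brEmb (msMove s i k j l X) := by
  obtain ⟨hik, hjl, h1, h2⟩ := h
  funext a b
  simp only [Pi.add_apply, Pi.sub_apply, Pi.smul_apply, smul_eq_mul, eu, brEmb, msMove]
  by_cases ha1 : a = i
  · subst ha1
    have hak : a ≠ k := hik
    by_cases hb1 : b = j
    · subst hb1
      have hbl : b ≠ l := hjl
      simp [hak, hbl]
    · by_cases hb2 : b = l
      · subst hb2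
        simp [hak, hb1]
        omega
      · simp [hak, hb1, hb2]
  · by_cases ha2 : a = k
    · subst ha2
      by_cases hb1 : b = j
      · subst hb1
        have hbl : b ≠ l := hjl
        simp [ha1, hbl]
        omega
      · by_cases hb2 : b = l
        · subst hb2
          simp [ha1, hb1]
        · simp [ha1, hb1, hb2]
    · simp [ha1, ha2]

open Classical in
theorem br_DirS (s : ℕ) (r : Fin m → ℕ) (c : Fin n → ℕ) (g : Tb m (Fin n) → ℝ) :
    DirS (s : ℤ) (fun Y => g (brBack Y)) (brR r) (brC c) =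
      ∑ x ∈ Tab r c, ∑ i : Fin m, ∑ k : Fin m, ∑ j : Fin n, ∑ l : Fin n,
        if msValid s i k j l x then (g x - g (msMove s i k j l x)) ^ 2 else 0 := by
  classical
  unfold DirS enrg
  rw [br_image, Finset.sum_image (fun x _ y _ h => brEmb_inj h)]
  refine Finset.sum_congr rfl fun X _ => Finset.sum_congr rfl fun i _ =>
    Finset.sum_congr rfl fun k _ => ?_
  rw [Finset.sum_comm]
  refine Finset.sum_congr rfl fun j _ => Finset.sum_congr rfl fun l _ => ?_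
  by_cases hv : msValid s i k j l X
  · have hm := br_msMove s i k j l X hv
    obtain ⟨hik, hjl, h1, h2⟩ := hv
    have hc : k ≠ i ∧ j ≠ l ∧ (s : ℤ) ≤ brEmb X i l ∧ (s : ℤ) ≤ brEmb X k j := by
      refine ⟨hik.symm, hjl, ?_, ?_⟩
      · simp only [brEmb]; exact_mod_cast h1
      · simp only [brEmb]; exact_mod_cast h2
    have hv' : msValid s i k j l X := ⟨hik, hjl, h1, h2⟩
    rw [if_pos hc, if_pos hv']
    show (g (brBack (brEmb X)) - g (brBack (brEmb X - (s : ℤ) • eu i l + (s : ℤ) • eu i j +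
      (s : ℤ) • eu k l - (s : ℤ) • eu k j))) ^ 2 = _
    rw [hm, brBack_emb, brBack_emb]
  · have hc : ¬ (k ≠ i ∧ j ≠ l ∧ (s : ℤ) ≤ brEmb X i l ∧ (s : ℤ) ≤ brEmb X k j) := by
      rintro ⟨h1, h2, h3, h4⟩
      refine hv ⟨h1.symm, h2, ?_, ?_⟩
      · simp only [brEmb] at h3; exact_mod_cast h3
      · simp only [brEmb] at h4; exact_mod_cast h4
    rw [if_neg hc, if_neg hv]

theorem br_vr (r : Fin m → ℕ) (c : Fin n → ℕ) (g : Tb m (Fin n) → ℝ) :
    vr (Om (brR r) (brC c)) (fun Y => g (brBack Y)) = tabVar r c g := by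
  unfold vr
  rw [br_wv, br_card, br_double_sum]
  unfold tabVar
  rcases Nat.eq_zero_or_pos (Tab r c).card with h0 | hpos
  · rw [h0]
    simp
  · have hN : (0 : ℝ) < (Tab r c).card := by exact_mod_cast hpos
    field_simp

/-- The weak Poincare inequality for the multi-scale chain on natural number tables. -/
theorem weak_tab_ms (hCpl : CouplingAll m n) {K : ℕ} (hK : 0 < K) {C e₁ e : ℝ}
    (hW : WindowAll m n K C e₁)
    (he : e₁ + 8 * ((m : ℝ) * n * (2 * (2 * ((m : ℝ) * n) + 1) / K)) ≤ e) (he0 : 0 ≤ e) (L : ℕ)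
    (r : Fin m → ℕ) (c : Fin n → ℕ) (htot : ∑ i, r i < 2 ^ (L + 1)) (g : Tb m (Fin n) → ℝ) (M : ℝ)
    (hM0 : 0 ≤ M) (hM : ∀ x ∈ Tab r c, g x ^ 2 ≤ M) :
    tabVar r c g ≤ C * ∑ l ∈ range (L + 1), tabDirS (2 ^ l) r c g + ((L : ℝ) + 1) * e * M := by
  classical
  have hr0 : (0 : Fin m → ℤ) ≤ brR r := fun i => by simp [brR]
  have hc0 : (0 : Fin n → ℤ) ≤ brC c := fun j => by simp [brC]
  have hM' : ∀ X ∈ Om (brR r) (brC c), (fun Y => g (brBack Y)) X ^ 2 ≤ M := by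
    intro X hX
    rw [br_image] at hX
    obtain ⟨x, hx, rfl⟩ := mem_image.mp hX
    show g (brBack (brEmb x)) ^ 2 ≤ M
    rw [brBack_emb]
    exact hM x hx
  have htot' : ∑ i, brR r i < 2 ^ (L + 1) := by
    have : ((∑ i, r i : ℕ) : ℤ) < ((2 ^ (L + 1) : ℕ) : ℤ) := by exact_mod_cast htot
    push_cast at this
    simpa [brR] using this
  have hrec := weak_rec hCpl hK hW he he0 (L + 1) (brR r) (brC c) hr0 hc0 htot'
    (fun Y => g (brBack Y)) M hM0 hM'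
  rw [br_vr] at hrec
  refine hrec.trans (le_of_eq ?_)
  congr 1
  · congr 1
    rw [sum_div, br_card]
    refine sum_congr rfl fun l _ => ?_
    have e2 : ((2 : ℤ) ^ l) = ((2 ^ l : ℕ) : ℤ) := by push_cast; rfl
    rw [e2, br_DirS]
    unfold tabDirS
    rfl
  · push_cast
    ring

/-- The window bound for all parameters. -/
def WindowFamily (m n : ℕ) : Prop :=
  ∀ (K s t : ℕ) (ρ : ℝ), 0 < K → 0 < ρ → WindowAll m n K (2 ^ (s + t + 1) * (m : ℝ) * ρ)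
    (2 ^ (s + 1) * (3 / 4 * ((m : ℝ) * n) ^ 2 / 2 ^ t) +
      2 * (2 / 3) ^ s * ((1 / 3) * ((m : ℝ) * n * (K : ℝ) ^ 4)) +
      ((m : ℝ) * n) * ((m : ℝ) * n + 1) / ρ)

theorem tabDirS_nonneg (s : ℕ) (r : Fin m → ℕ) (c : Fin n → ℕ) (g : Tb m (Fin n) → ℝ) :
    0 ≤ tabDirS s r c g := by
  classical
  unfold tabDirS
  refine div_nonneg (sum_nonneg fun _ _ => sum_nonneg fun _ _ => sum_nonneg fun _ _ =>
    sum_nonneg fun _ _ => sum_nonneg fun _ _ => ?_) (Nat.cast_nonneg _)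
  split_ifs
  · positivity
  · exact le_rfl

/-- The numerical part of the choice of parameters. -/
theorem constants_ok {I D A δ : ℝ} (a : ℕ) (hA : A = 2 ^ a) (hI : 1 ≤ I) (hD : 0 ≤ D) (hδ0 : 0 < δ)
    (hδ1 : δ ≤ 1) (h : I * (D + 1) ≤ δ * A) :
    I * (2 ^ ((60 + 18 * a) + 1) * (3 / 4 * D ^ 2 / 2 ^ ((60 + 18 * a) + 3 + 2 * a)) +
      2 * (2 / 3) ^ (60 + 18 * a) * ((1 / 3) * (D * ((128 * A ^ 2) : ℝ) ^ 4)) +
      D * (D + 1) / (4 * A ^ 2) +
      8 * (D * (2 * (2 * D + 1) / (128 * A ^ 2)))) ≤ δ := by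
  have hA1 : 1 ≤ A := by
    rw [hA]
    exact one_le_pow₀ (by norm_num)
  have hA0 : 0 < A := by linarith
  have hD1 : D + 1 ≤ A := by
    have : 1 * (D + 1) ≤ I * (D + 1) := mul_le_mul_of_nonneg_right hI (by linarith)
    nlinarith
  have hID : I * (D + 1) ^ 2 ≤ δ * A ^ 2 := by
    have h1 : I * (D + 1) * (D + 1) ≤ δ * A * A :=
      mul_le_mul h hD1 (by linarith) (by positivity)
    nlinarith
  have hI0 : 0 < I := by linarith
  have e1 : (2 : ℝ) ^ ((60 + 18 * a) + 1) * (3 / 4 * D ^ 2 / 2 ^ ((60 + 18 * a) + 3 + 2 * a)) =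
      3 / 16 * D ^ 2 / A ^ 2 := by
    have : (2 : ℝ) ^ ((60 + 18 * a) + 3 + 2 * a) = 2 ^ (60 + 18 * a) * 8 * A ^ 2 := by
      rw [hA, pow_add, pow_add, pow_mul' (2 : ℝ) 2 a]
      norm_num
    rw [this, pow_succ]
    have h2 : (2 : ℝ) ^ (60 + 18 * a) ≠ 0 := by positivity
    field_simp
    ring
  have e2 : (2 / 3 : ℝ) ^ (60 + 18 * a) ≤ 1 / (2 ^ 30 * A ^ 9) := by
    have h1 : (2 / 3 : ℝ) ^ (60 + 18 * a) = ((2 / 3 : ℝ) ^ 2) ^ (30 + 9 * a) := by
      rw [← pow_mul]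
      congr 1
      ring
    have h2 : ((2 / 3 : ℝ) ^ 2) ^ (30 + 9 * a) ≤ (1 / 2 : ℝ) ^ (30 + 9 * a) :=
      pow_le_pow_left₀ (by positivity) (by norm_num) _
    have h3 : (1 / 2 : ℝ) ^ (30 + 9 * a) = 1 / (2 ^ 30 * A ^ 9) := by
      rw [hA, one_div_pow, pow_add, pow_mul' (2 : ℝ) 9 a]
    rw [h1]
    rw [h3] at h2
    exact h2
  -- the four terms
  have t1 : I * (3 / 16 * D ^ 2 / A ^ 2) ≤ δ / 4 := by
    have h1 : I * D ^ 2 ≤ δ * A ^ 2 := by nlinarith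
    rw [show I * (3 / 16 * D ^ 2 / A ^ 2) = (3 / 16) * (I * D ^ 2) / A ^ 2 by ring,
      div_le_iff₀ (by positivity)]
    nlinarith [mul_pos hδ0 (pow_pos hA0 2)]
  have t2 : I * (2 * (2 / 3) ^ (60 + 18 * a) * ((1 / 3) * (D * ((128 * A ^ 2) : ℝ) ^ 4))) ≤ δ / 4 := by
    have hq : 0 ≤ (2 / 3 : ℝ) * I * D * (128 * A ^ 2) ^ 4 := by positivity
    have h1 : I * (2 * (2 / 3) ^ (60 + 18 * a) * ((1 / 3) * (D * ((128 * A ^ 2) : ℝ) ^ 4))) =
        ((2 / 3 : ℝ) * I * D * (128 * A ^ 2) ^ 4) * (2 / 3 : ℝ) ^ (60 + 18 * a) := by ring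
    rw [h1]
    refine (mul_le_mul_of_nonneg_left e2 hq).trans ?_
    have h2 : I * D ≤ δ * A := by nlinarith
    have e3 : (2 / 3 : ℝ) * I * D * (128 * A ^ 2) ^ 4 * (1 / (2 ^ 30 * A ^ 9)) =
        (I * D) * ((2 / 3) * 128 ^ 4 / 2 ^ 30) / A := by
      field_simp
    rw [e3, div_le_iff₀ hA0]
    norm_num
    nlinarith
  have t3 : I * (D * (D + 1) / (4 * A ^ 2)) ≤ δ / 4 := by
    rw [show I * (D * (D + 1) / (4 * A ^ 2)) = (I * (D * (D + 1))) / (4 * A ^ 2) by ring,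
      div_le_iff₀ (by positivity)]
    nlinarith
  have t4 : I * (8 * (D * (2 * (2 * D + 1) / (128 * A ^ 2)))) ≤ δ / 4 := by
    rw [show I * (8 * (D * (2 * (2 * D + 1) / (128 * A ^ 2)))) =
      (I * (D * (2 * D + 1))) / (8 * A ^ 2) by ring, div_le_iff₀ (by positivity)]
    nlinarith
  rw [e1, mul_add, mul_add, mul_add]
  linarith

/-- The multi-scale weak Poincare inequality with explicit constants. -/
theorem weak_tab_ms_explicit (hm : 1 ≤ m) (hn : 1 ≤ n) (hCpl : CouplingAll m n)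
    (hWin : WindowFamily m n) (L a : ℕ) {δ : ℝ} (hδ0 : 0 < δ) (hδ1 : δ ≤ 1)
    (ha : ((L : ℝ) + 1) * ((m : ℝ) * n + 1) ≤ δ * 2 ^ a)
    (r : Fin m → ℕ) (c : Fin n → ℕ) (htot : ∑ i, r i < 2 ^ (L + 1)) (g : Tb m (Fin n) → ℝ) (M : ℝ)
    (hM0 : 0 ≤ M) (hM : ∀ x ∈ Tab r c, g x ^ 2 ≤ M) :
    tabVar r c g ≤ 2 ^ (126 + 41 * a) * ∑ l ∈ range (L + 1), tabDirS (2 ^ l) r c g + δ * M := by
  set D : ℝ := (m : ℝ) * n with hD
  set A : ℝ := 2 ^ a with hA
  set I : ℝ := (L : ℝ) + 1 with hI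
  have hD0 : 0 ≤ D := by positivity
  have hI1 : 1 ≤ I := by
    have : (0 : ℝ) ≤ L := Nat.cast_nonneg _
    linarith
  have hA1 : 1 ≤ A := one_le_pow₀ (by norm_num)
  have hA0 : 0 < A := by linarith
  set s := 60 + 18 * a with hs
  set t := s + 3 + 2 * a with ht
  set K : ℕ := 2 ^ (7 + 2 * a) with hKdef
  have hK : 0 < K := by positivity
  have hKr : (K : ℝ) = 128 * A ^ 2 := by
    rw [hKdef, hA]
    push_cast
    rw [pow_add, pow_mul' (2 : ℝ) 2 a]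
    norm_num
  set ρ : ℝ := 4 * A ^ 2 with hρ
  have hρ0 : 0 < ρ := by positivity
  have hW := hWin K s t ρ hK hρ0
  have hconst := constants_ok (I := I) (D := D) (A := A) (δ := δ) a rfl hI1 hD0 hδ0 hδ1 ha
  set e := 2 ^ (s + 1) * (3 / 4 * ((m : ℝ) * n) ^ 2 / 2 ^ t) +
      2 * (2 / 3) ^ s * ((1 / 3) * ((m : ℝ) * n * (K : ℝ) ^ 4)) +
      ((m : ℝ) * n) * ((m : ℝ) * n + 1) / ρ +
      8 * ((m : ℝ) * n * (2 * (2 * ((m : ℝ) * n) + 1) / K)) with he
  have he0 : 0 ≤ e := by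
    rw [he]
    have : (0 : ℝ) < K := by exact_mod_cast hK
    positivity
  have hmain := weak_tab_ms hCpl hK hW (e := e) (le_of_eq rfl) he0 L r c htot g M hM0 hM
  have hIe : I * e ≤ δ := by
    rw [he, hKr]
    exact hconst
  have hDm : (m : ℝ) ≤ A := by
    have hm1 : (m : ℝ) ≤ D := by
      have : (1 : ℝ) ≤ n := by exact_mod_cast hn
      rw [hD]
      nlinarith [(Nat.cast_nonneg m : (0 : ℝ) ≤ m)]
    have : 1 * (D + 1) ≤ I * (D + 1) := mul_le_mul_of_nonneg_right hI1 (by linarith)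
    nlinarith
  have hC : (2 : ℝ) ^ (s + t + 1) * (m : ℝ) * ρ ≤ 2 ^ (126 + 41 * a) := by
    have e1 : (2 : ℝ) ^ (126 + 41 * a) = 2 ^ (s + t + 1) * A * (4 * A ^ 2) := by
      rw [hA, ht, hs]
      have : 126 + 41 * a = (60 + 18 * a + (60 + 18 * a + 3 + 2 * a) + 1) + a + (2 + 2 * a) := by ring
      rw [this, pow_add, pow_add _ (60 + 18 * a + (60 + 18 * a + 3 + 2 * a) + 1) a, pow_add (2 : ℝ) 2,
        pow_mul' (2 : ℝ) 2 a]
      norm_num
    rw [e1]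
    have : (0 : ℝ) < 2 ^ (s + t + 1) := by positivity
    rw [hρ]
    gcongr
  have hsum : 0 ≤ ∑ l ∈ range (L + 1), tabDirS (2 ^ l) r c g :=
    sum_nonneg fun l _ => tabDirS_nonneg _ _ _ _
  have h1 := mul_le_mul_of_nonneg_right hC hsum
  have h2 : I * e * M ≤ δ * M := mul_le_mul_of_nonneg_right hIe hM0
  linarith

end

end Vale.Agent.Lib.P328B
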