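import Vale.Agent.Lib.P328U.Main
import Vale.Agent.Lib.P328Q.TopLevel
import Vale.Agent.Lib.P328B.Recursion

/-!
One scale of the multi-scale weak Poincare inequality: the partition of all tables into the box slices
of a grid of side `K`.
-/

namespace Vale.Agent.Lib.P328B

open Finset Vale.Agent.Lib.P328Q Vale.Agent.Lib.P328U
open scoped Pointwise

noncomputable section

variable {m n : ℕ}

/-- The grid box of `X` for the grid of side `K` with offset `a`. -/
def hcls (a : Mat m n) (K : ℕ) (X : Mat m n) : Mat m n := fun i j => (X i j - a i j) / (K : ℤ)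

/-- The lower corner of a grid box, cut at zero. -/
def wLo (a : Mat m n) (K : ℕ) (h : Mat m n) : Mat m n := fun i j => max 0 (a i j + K * h i j)

/-- The upper corner of a grid box. -/
def wHi (a : Mat m n) (K : ℕ) (h : Mat m n) : Mat m n := fun i j => a i j + K * h i j + K - 1

theorem win_wLo_nonneg (a : Mat m n) (K : ℕ) (h : Mat m n) : (0 : Mat m n) ≤ wLo a K h :=
  fun i j => le_max_left _ _

theorem win_hcls_iff (a : Mat m n) {K : ℕ} (hK : 1 ≤ K) (X h : Mat m n) :
    hcls a K X = h ↔ ∀ i j, a i j + K * h i j ≤ X i j ∧ X i j ≤ a i j + K * h i j + K - 1 := by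
  have hK' : (0 : ℤ) < K := by exact_mod_cast hK
  constructor
  · rintro rfl i j
    have h1 := Int.mul_ediv_add_emod (X i j - a i j) K
    have h2 := Int.emod_nonneg (X i j - a i j) hK'.ne'
    have h3 := Int.emod_lt_of_pos (X i j - a i j) hK'
    show a i j + K * ((X i j - a i j) / (K : ℤ)) ≤ X i j ∧
      X i j ≤ a i j + K * ((X i j - a i j) / (K : ℤ)) + K - 1
    constructor <;> linarith
  · intro hh
    funext i j
    obtain ⟨h1, h2⟩ := hh i j
    show (X i j - a i j) / (K : ℤ) = h i j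
    have e : X i j - a i j = (X i j - a i j - K * h i j) + K * h i j := by ring
    rw [e, Int.add_mul_ediv_left _ _ hK'.ne']
    have h3 : (X i j - a i j - K * h i j) / (K : ℤ) = 0 :=
      Int.ediv_eq_zero_of_lt (by linarith) (by linarith)
    rw [h3, zero_add]

theorem win_mem_box {lo hi X : Mat m n} {r : Fin m → ℤ} {c : Fin n → ℤ} :
    X ∈ slc lo hi r c ↔ (∀ i j, lo i j ≤ X i j ∧ X i j ≤ hi i j) ∧ rowSum X = r ∧ colSum X = c := by
  unfold slc Vale.Agent.Lib.P328Q.box
  simp only [mem_filter, Fintype.mem_piFinset, mem_Icc]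

/-- The classes are box slices. -/
theorem win_class_eq (r : Fin m → ℤ) (c : Fin n → ℤ) (a : Mat m n) {K : ℕ} (hK : 1 ≤ K) (h : Mat m n) :
    (Om r c).filter (fun X => hcls a K X = h) = slc (wLo a K h) (wHi a K h) r c := by
  ext X
  rw [mem_filter, win_mem_box, win_hcls_iff a hK]
  constructor
  · rintro ⟨hX, hh⟩
    have h0 := top_nonneg_of_mem le_rfl hX
    obtain ⟨h1, h2⟩ := top_margins_of_mem hX
    refine ⟨fun i j => ⟨?_, (hh i j).2⟩, h1, h2⟩
    exact max_le (h0 i j) (hh i j).1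
  · rintro ⟨hh, h1, h2⟩
    have h0 : ∀ i j, 0 ≤ X i j := fun i j => le_trans (le_max_left _ _) (hh i j).1
    refine ⟨top_mem_Om h0 h1 h2, fun i j => ⟨le_trans (le_max_right _ _) (hh i j).1, (hh i j).2⟩⟩

/-- A near table of a grid box has this grid box as its class. -/
theorem win_hcls_of_box (a : Mat m n) {K : ℕ} (hK : 1 ≤ K) {h V : Mat m n}
    {r : Fin m → ℤ} {c : Fin n → ℤ} (hV : V ∈ slc (wLo a K h) (wHi a K h) r c) : hcls a K V = h := by
  rw [win_mem_box] at hV
  rw [win_hcls_iff a hK]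
  exact fun i j => ⟨le_trans (le_max_right _ _) (hV.1 i j).1, (hV.1 i j).2⟩

/-- The general slice form with a bound on the quartic functional given as a hypothesis. -/
theorem win_top_general {r : Fin m → ℤ} {c : Fin n → ℤ} (g : Mat m n → ℝ) {M ρ : ℝ} (hM0 : 0 ≤ M)
    (hM : ∀ lo hi : Mat m n, 0 ≤ lo → ∀ X ∈ slc lo hi r c, g X ^ 2 ≤ M) (t s : ℕ)
    {lo hi : Mat m n} (hlo : 0 ≤ lo)
    (hρ : ∀ a b, ((nearP lo hi r c a b).card : ℝ) ≤ ρ * ((slc lo hi r c).card : ℝ)) (hρ0 : 0 ≤ ρ)
    (N : ℝ) (hN : 0 ≤ N)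
    (hbox : ∀ X ∈ slc lo hi r c, ∀ Y ∈ slc lo hi r c, ∀ i j, |((X i j - Y i j : ℤ) : ℝ)| ≤ N) :
    vr (slc lo hi r c) g ≤ 2 ^ (s + t + 1) * (m : ℝ) * ρ * QQ g lo hi r c +
      M * (2 ^ (s + 1) * (3 / 4 * ((m : ℝ) * n) ^ 2 / 2 ^ t) +
        2 * (2 / 3) ^ s * ((1 / 3) * ((m : ℝ) * n * N ^ 4))) := by
  set F := slc lo hi r c with hF
  have hdbl := vr_le_two_avg F g
  have hstep : avg F (fun U => vr (fib F U) g) ≤
      avg F (fun U => 2 ^ s * (2 ^ t * (m : ℝ)) * QQ g (loF lo hi U) (hiF lo hi U) r c +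
        (M * (2 ^ s * (3 / 4 * ((m : ℝ) * n) ^ 2 / 2 ^ t)) +
          M * ((2 / 3) ^ s * (1 / 3)) * ThSum (fib F U) U)) := by
    refine avg_mono fun U hU => ?_
    have hmarg := main_margins hU
    have hfib : fib F U = slc (loF lo hi U) (hiF lo hi U) r c := fib_slc hmarg
    have hlo' : (0 : Mat m n) ≤ loF lo hi U := fun i j => le_trans (hlo i j) (le_max_left _ _)
    have hadd : loF lo hi U + hiF lo hi U = U := loF_add_hiF
    have := levels g hM0 hM t s hlo' (central_fib hmarg)
    rw [hadd, ← hfib] at this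
    calc _ ≤ _ := this
      _ = _ := by ring
  have hlin := avg_lin F (2 ^ s * (2 ^ t * (m : ℝ))) (M * ((2 / 3) ^ s * (1 / 3)))
    (M * (2 ^ s * (3 / 4 * ((m : ℝ) * n) ^ 2 / 2 ^ t))) (by positivity)
    (fun U => QQ g (loF lo hi U) (hiF lo hi U) r c) (fun U => ThSum (fib F U) U)
  have hf : (0 : ℝ) ≤ (F.card : ℝ) := Nat.cast_nonneg _
  -- the load
  have hQ : avg F (fun U => QQ g (loF lo hi U) (hiF lo hi U) r c) ≤ ρ * QQ g lo hi r c := by
    by_cases hne : F.Nonempty
    · have hfpos : (0 : ℝ) < F.card := by exact_mod_cast card_pos.2 hne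
      have hsum := sum_DD_fib_le g (lo := lo) (hi := hi) (r := r) (c := c)
        (ρ := ρ * (F.card : ℝ)) hρ
      unfold avg QQ
      have hterm : ∀ U ∈ F + F, ((fib F U).card : ℝ) * (DD g (loF lo hi U) (hiF lo hi U) r c /
          ((slc (loF lo hi U) (hiF lo hi U) r c).card : ℝ)) ≤ DD g (loF lo hi U) (hiF lo hi U) r c := by
        intro U hU
        have hmarg := main_margins hU
        have hfib : fib F U = slc (loF lo hi U) (hiF lo hi U) r c := fib_slc hmarg
        rw [← hfib]
        have hD := DD_nonneg g (loF lo hi U) (hiF lo hi U) r c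
        by_cases h0 : ((fib F U).card : ℝ) = 0
        · rw [h0]; simpa using hD
        · rw [mul_div_cancel₀ _ h0]
      calc _ ≤ (∑ U ∈ F + F, DD g (loF lo hi U) (hiF lo hi U) r c) / (F.card : ℝ) ^ 2 :=
            div_le_div_of_nonneg_right (sum_le_sum hterm) (by positivity)
        _ ≤ (ρ * (F.card : ℝ) * DD g lo hi r c) / (F.card : ℝ) ^ 2 :=
            div_le_div_of_nonneg_right hsum (by positivity)
        _ = _ := by
            have hD := DD_nonneg g lo hi r c
            rw [sq]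
            field_simp
            rw [hF]
            ring
    · have hF0 : F = ∅ := Finset.not_nonempty_iff_eq_empty.1 hne
      simp [avg, hF0, QQ, ← hF]
  -- the quartic functional
  have hTh : avg F (fun U => ThSum (fib F U) U) ≤ (m : ℝ) * n * N ^ 4 := by
    unfold ThSum
    simp only [avg_sum]
    have hone : ∀ i j, avg F (fun U => Th (fib F U) U i j) ≤ N ^ 4 := by
      intro i j
      rw [avg_Th]
      have hN4 : (0 : ℝ) ≤ N ^ 4 := by positivity
      rcases F.eq_empty_or_nonempty with h0 | hne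
      · rw [h0]; simpa using hN4
      have hA : (0 : ℝ) < (F.card : ℝ) := by exact_mod_cast Finset.card_pos.2 hne
      rw [div_le_iff₀ (by positivity)]
      have hterm : ∀ x ∈ F, ∀ y ∈ F, gg (x i j - y i j) ≤ N ^ 4 := by
        intro x hx y hy
        have h6 := hbox x hx y hy i j
        unfold gg
        have h7 : ((x i j - y i j : ℤ) : ℝ) ^ 4 ≤ N ^ 4 := by
          have := pow_le_pow_left₀ (abs_nonneg _) h6 4
          rwa [pow_abs, abs_of_nonneg (by positivity)] at this
        nlinarith [sq_nonneg (((x i j - y i j : ℤ) : ℝ))]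
      calc ∑ x ∈ F, ∑ y ∈ F, gg (x i j - y i j)
          ≤ ∑ _x ∈ F, ∑ _y ∈ F, N ^ 4 :=
            sum_le_sum fun x hx => sum_le_sum fun y hy => hterm x hx y hy
        _ = _ := by
            simp only [sum_const, nsmul_eq_mul]
            ring
    calc _ ≤ ∑ _i : Fin m, ∑ _j : Fin n, N ^ 4 :=
          sum_le_sum fun i _ => sum_le_sum fun j _ => hone i j
      _ = _ := by
          simp only [sum_const, card_univ, Fintype.card_fin, nsmul_eq_mul]
          ring
  have e1 : (2 : ℝ) ^ s * (2 ^ t * (m : ℝ)) * avg F (fun U => QQ g (loF lo hi U) (hiF lo hi U) r c) ≤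
      2 ^ s * (2 ^ t * (m : ℝ)) * (ρ * QQ g lo hi r c) :=
    mul_le_mul_of_nonneg_left hQ (by positivity)
  have e2 : M * ((2 / 3) ^ s * (1 / 3)) * avg F (fun U => ThSum (fib F U) U) ≤
      M * ((2 / 3) ^ s * (1 / 3)) * ((m : ℝ) * n * N ^ 4) :=
    mul_le_mul_of_nonneg_left hTh (by positivity)
  have h2 : (2 : ℝ) ^ (s + 1) = 2 ^ s * 2 := pow_succ _ _
  have h3 : (2 : ℝ) ^ (s + t + 1) = 2 ^ s * 2 ^ t * 2 := by rw [pow_succ, pow_add]
  rw [h2, h3]
  have goal1 : vr F g ≤ 2 * (2 ^ s * (2 ^ t * (m : ℝ)) * (ρ * QQ g lo hi r c) +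
      (M * (2 ^ s * (3 / 4 * ((m : ℝ) * n) ^ 2 / 2 ^ t)) +
        M * ((2 / 3) ^ s * (1 / 3)) * ((m : ℝ) * n * N ^ 4))) := by
    linarith
  calc _ ≤ _ := goal1
    _ = _ := by ring

/-- Two cell repair for surplus tables in any box above zero. -/
theorem win_card_nearP_le (r : Fin m → ℤ) (c : Fin n → ℤ) (hr : 0 ≤ r) (hc : 0 ≤ c) (hi' : Mat m n)
    (a : Fin m) (b : Fin n) :
    (nearP 0 hi' r c a b).card ≤ (m * n + 1) * (Om r c).card := by
  classical
  let R : Mat m n × Option (Fin m × Fin n) → Mat m n := fun p =>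
    match p.2 with
    | none => p.1 + eu a b
    | some q => p.1 + eu a q.2 + eu q.1 b - eu q.1 q.2
  have hsub : nearP 0 hi' r c a b ⊆
      ((Om r c) ×ˢ (Finset.univ : Finset (Option (Fin m × Fin n)))).image R := by
    intro E hE
    have h0 : ∀ i j, 0 ≤ E i j := fun i j => top_nonneg_of_mem le_rfl hE i j
    obtain ⟨hrE, hcE⟩ := top_margins_of_mem hE
    by_cases hab : 1 ≤ E a b
    · refine mem_image.mpr ⟨(E - eu a b, none), ?_, by simp [R]⟩
      refine mem_product.mpr ⟨top_mem_Om ?_ ?_ ?_, mem_univ _⟩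
      · intro i j
        by_cases hij : i = a ∧ j = b
        · obtain ⟨rfl, rfl⟩ := hij; simp [eu]; linarith
        · simp [eu, hij, h0 i j]
      · rw [top_rowSum_sub, hrE, top_rowSum_eu]; simp
      · rw [top_colSum_sub, hcE, top_colSum_eu]; simp
    · have hab0 : E a b = 0 := by have := h0 a b; omega
      have hra : 1 ≤ ∑ j, E a j := by
        have : ∑ j, E a j = r a + 1 := by
          have := congrFun hrE a
          simpa [rowSum] using this
        have h1 : 0 ≤ r a := hr a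
        omega
      have hcb : 1 ≤ ∑ i, E i b := by
        have : ∑ i, E i b = c b + 1 := by
          have := congrFun hcE b
          simpa [colSum] using this
        have h1 : 0 ≤ c b := hc b
        omega
      obtain ⟨j, hj⟩ : ∃ j, 1 ≤ E a j := by
        by_contra hcon
        push Not at hcon
        have : ∑ j, E a j ≤ 0 := Finset.sum_nonpos fun j _ => by have := hcon j; omega
        omega
      obtain ⟨i, hi⟩ : ∃ i, 1 ≤ E i b := by
        by_contra hcon
        push Not at hcon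
        have : ∑ i, E i b ≤ 0 := Finset.sum_nonpos fun i _ => by have := hcon i; omega
        omega
      have hjb : j ≠ b := by rintro rfl; omega
      have hia : i ≠ a := by rintro rfl; omega
      refine mem_image.mpr ⟨(E - eu a j - eu i b + eu i j, some (i, j)), ?_, ?_⟩
      · refine mem_product.mpr ⟨top_mem_Om ?_ ?_ ?_, mem_univ _⟩
        · intro x y
          have hx := h0 x y
          simp only [Pi.add_apply, Pi.sub_apply, eu]
          by_cases h1 : x = a ∧ y = j
          · obtain ⟨rfl, rfl⟩ := h1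
            have h2 : ¬ (x = i ∧ y = b) := fun h => hia h.1.symm
            have h3 : ¬ (x = i ∧ y = y) := fun h => hia h.1.symm
            simp [h2, hia.symm]
            omega
          · by_cases h2 : x = i ∧ y = b
            · obtain ⟨rfl, rfl⟩ := h2
              have h4 : ¬ (y = j) := fun h => hjb h.symm
              simp [h1, h4]
              omega
            · simp only [h1, h2, if_false]
              split_ifs <;> omega
        · rw [top_rowSum_add, top_rowSum_sub, top_rowSum_sub, hrE, top_rowSum_eu, top_rowSum_eu,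
            top_rowSum_eu]
          funext x
          simp [Pi.single_apply]
        · rw [top_colSum_add, top_colSum_sub, top_colSum_sub, hcE, top_colSum_eu, top_colSum_eu,
            top_colSum_eu]
          funext y
          simp [Pi.single_apply]
          split_ifs <;> omega
      · simp only [R]
        abel
  calc (nearP 0 hi' r c a b).card
      ≤ (((Om r c) ×ˢ (Finset.univ : Finset (Option (Fin m × Fin n)))).image R).card :=
        card_le_card hsub
    _ ≤ ((Om r c) ×ˢ (Finset.univ : Finset (Option (Fin m × Fin n)))).card := card_image_le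
    _ = (m * n + 1) * (Om r c).card := by
        rw [card_product, Finset.card_univ, Fintype.card_option, Fintype.card_prod, Fintype.card_fin,
          Fintype.card_fin, mul_comm]

/-- Surplus tables of disjoint grid boxes. -/
theorem win_sum_nearP_le (r : Fin m → ℤ) (c : Fin n → ℤ) (hr : 0 ≤ r) (hc : 0 ≤ c) (A : Mat m n)
    {K : ℕ} (hK : 1 ≤ K) (I : Finset (Mat m n)) (a : Fin m) (b : Fin n) :
    ∑ h ∈ I, (nearP (wLo A K h) (wHi A K h) r c a b).card ≤ (m * n + 1) * (Om r c).card := by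
  classical
  -- a common box
  let top : Mat m n := fun _ _ => ∑ i, |r i| + 1
  let Big := nearP (0 : Mat m n) top r c a b
  have hsub : ∀ h, nearP (wLo A K h) (wHi A K h) r c a b ⊆ Big.filter (fun E => hcls A K E = h) := by
    intro h E hE
    have hm := (win_mem_box.mp hE)
    have h0 : ∀ i j, 0 ≤ E i j := fun i j => le_trans (le_max_left _ _) (hm.1 i j).1
    refine mem_filter.mpr ⟨?_, win_hcls_of_box A hK hE⟩
    unfold Big nearP
    rw [win_mem_box]
    refine ⟨fun i j => ⟨h0 i j, ?_⟩, hm.2.1, hm.2.2⟩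
    have h1 : E i j ≤ ∑ j', E i j' :=
      Finset.single_le_sum (f := fun j' => E i j') (fun j' _ => h0 i j') (mem_univ j)
    have h2 : ∑ j', E i j' = r i + (Pi.single a 1 : Fin m → ℤ) i := by
      have := congrFun hm.2.1 i
      simpa [rowSum] using this
    have h3 : r i ≤ |r i| := le_abs_self _
    have h4 : |r i| ≤ ∑ i', |r i'| :=
      Finset.single_le_sum (f := fun i' => |r i'|) (fun i' _ => abs_nonneg _) (mem_univ i)
    have h5 : (Pi.single a 1 : Fin m → ℤ) i ≤ 1 := by
      by_cases hia : i = a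
      · subst hia; simp
      · simp [Pi.single_apply, hia]
    show E i j ≤ ∑ i', |r i'| + 1
    linarith
  calc ∑ h ∈ I, (nearP (wLo A K h) (wHi A K h) r c a b).card
      ≤ ∑ h ∈ I, (Big.filter (fun E => hcls A K E = h)).card :=
        Finset.sum_le_sum fun h _ => card_le_card (hsub h)
    _ = (Big.filter (fun E => hcls A K E ∈ I)).card :=
        Finset.sum_card_fiberwise_eq_card_filter _ _ _
    _ ≤ Big.card := card_filter_le _ _
    _ ≤ _ := win_card_nearP_le r c hr hc top a b

/-- Near tables of disjoint grid boxes. -/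
theorem win_sum_DD_le (g : Mat m n → ℝ) (r : Fin m → ℤ) (c : Fin n → ℤ) (A : Mat m n)
    {K : ℕ} (hK : 1 ≤ K) (I : Finset (Mat m n)) :
    ∑ h ∈ I, DD g (wLo A K h) (wHi A K h) r c ≤ Dir g r c := by
  classical
  refine le_trans ?_ (sum_kap_le_Dir g r c)
  unfold DD
  rw [Finset.sum_comm]
  refine Finset.sum_le_sum fun a _ => ?_
  rw [Finset.sum_comm]
  refine Finset.sum_le_sum fun b _ => ?_
  set Big := nearM (0 : Mat m n) (bigHi r) r c a b with hBig
  have hsub : ∀ h, nearM (wLo A K h) (wHi A K h) r c a b ⊆ Big.filter (fun E => hcls A K E = h) := by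
    intro h E hE
    have hm := (win_mem_box.mp hE)
    have h0 : ∀ i j, 0 ≤ E i j := fun i j => le_trans (le_max_left _ _) (hm.1 i j).1
    refine mem_filter.mpr ⟨?_, win_hcls_of_box A hK hE⟩
    rw [hBig]
    unfold nearM
    rw [win_mem_box]
    refine ⟨fun i j => ⟨h0 i j, ?_⟩, hm.2.1, hm.2.2⟩
    have h1 : E i j ≤ ∑ j', E i j' :=
      Finset.single_le_sum (f := fun j' => E i j') (fun j' _ => h0 i j') (mem_univ j)
    have h2 : ∑ j', E i j' = r i - (Pi.single a 1 : Fin m → ℤ) i := by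
      have := congrFun hm.2.1 i
      simpa [rowSum] using this
    have h3 : r i ≤ |r i| := le_abs_self _
    have h4 : |r i| ≤ ∑ i', |r i'| :=
      Finset.single_le_sum (f := fun i' => |r i'|) (fun i' _ => abs_nonneg _) (mem_univ i)
    have h5 : 0 ≤ (Pi.single a 1 : Fin m → ℤ) i := by
      by_cases hia : i = a
      · subst hia; simp
      · simp [Pi.single_apply, hia]
    show E i j ≤ ∑ i', |r i'|
    linarith
  have hk := fun V => kap_nonneg g a b V
  calc ∑ h ∈ I, ∑ V ∈ nearM (wLo A K h) (wHi A K h) r c a b, kap g a b V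
      ≤ ∑ h ∈ I, ∑ V ∈ Big.filter (fun E => hcls A K E = h), kap g a b V :=
        Finset.sum_le_sum fun h _ =>
          Finset.sum_le_sum_of_subset_of_nonneg (hsub h) fun V _ _ => hk V
    _ = ∑ V ∈ Big.filter (fun E => hcls A K E ∈ I), kap g a b V :=
        Finset.sum_fiberwise_eq_sum_filter _ _ _ _
    _ ≤ ∑ V ∈ Big, kap g a b V :=
        Finset.sum_le_sum_of_subset_of_nonneg (filter_subset _ _) fun V _ _ => hk V

/-- The sum of the surplus ratios of one box. -/
def winRho (r : Fin m → ℤ) (c : Fin n → ℤ) (A : Mat m n) (K : ℕ) (h : Mat m n) : ℝ :=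
  ∑ a, ∑ b, ((nearP (wLo A K h) (wHi A K h) r c a b).card : ℝ) /
    ((slc (wLo A K h) (wHi A K h) r c).card : ℝ)

/-- One box slice, with the threshold on the surplus ratio. -/
theorem win_one (r : Fin m → ℤ) (c : Fin n → ℤ) (A : Mat m n) {K : ℕ}
    (g : Mat m n → ℝ) {M : ℝ} (hM0 : 0 ≤ M) (hM : ∀ X ∈ Om r c, g X ^ 2 ≤ M) (s t : ℕ)
    {B : ℝ} (hB : 0 < B) (h : Mat m n) (hne : (slc (wLo A K h) (wHi A K h) r c).Nonempty) :
    vr (slc (wLo A K h) (wHi A K h) r c) g ≤ 2 ^ (s + t + 1) * (m : ℝ) * B *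
        QQ g (wLo A K h) (wHi A K h) r c +
      M * (2 ^ (s + 1) * (3 / 4 * ((m : ℝ) * n) ^ 2 / 2 ^ t) +
          2 * (2 / 3) ^ s * ((1 / 3) * ((m : ℝ) * n * (K : ℝ) ^ 4))) +
      M * (winRho r c A K h / B) := by
  classical
  have hMslc : ∀ lo hi : Mat m n, 0 ≤ lo → ∀ X ∈ slc lo hi r c, g X ^ 2 ≤ M := by
    intro lo hi hlo X hX
    obtain ⟨h1, h2⟩ := top_margins_of_mem hX
    exact hM X (top_mem_Om (fun i j => top_nonneg_of_mem hlo hX i j) h1 h2)
  set S := slc (wLo A K h) (wHi A K h) r c with hS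
  have hcpos : (0 : ℝ) < (S.card : ℝ) := by exact_mod_cast card_pos.2 hne
  have hρnn : 0 ≤ winRho r c A K h :=
    Finset.sum_nonneg fun a _ => Finset.sum_nonneg fun b _ => by positivity
  have hQ : 0 ≤ QQ g (wLo A K h) (wHi A K h) r c :=
    div_nonneg (DD_nonneg _ _ _ _ _) (Nat.cast_nonneg _)
  have hE0 : 0 ≤ 2 ^ (s + 1) * (3 / 4 * ((m : ℝ) * n) ^ 2 / 2 ^ t) +
      2 * (2 / 3) ^ s * ((1 / 3) * ((m : ℝ) * n * (K : ℝ) ^ 4)) := by positivity
  by_cases hgood : winRho r c A K h ≤ B
  · have hρ : ∀ a b, ((nearP (wLo A K h) (wHi A K h) r c a b).card : ℝ) ≤ B * (S.card : ℝ) := by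
      intro a b
      have h1 : ((nearP (wLo A K h) (wHi A K h) r c a b).card : ℝ) / (S.card : ℝ) ≤
          winRho r c A K h := by
        have h2 : ((nearP (wLo A K h) (wHi A K h) r c a b).card : ℝ) / (S.card : ℝ) ≤
            ∑ b', ((nearP (wLo A K h) (wHi A K h) r c a b').card : ℝ) / (S.card : ℝ) :=
          Finset.single_le_sum (f := fun b' =>
            ((nearP (wLo A K h) (wHi A K h) r c a b').card : ℝ) / (S.card : ℝ))
            (fun b' _ => by positivity) (mem_univ b)
        refine h2.trans ?_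
        exact Finset.single_le_sum (f := fun a' => ∑ b',
            ((nearP (wLo A K h) (wHi A K h) r c a' b').card : ℝ) / (S.card : ℝ))
            (fun a' _ => Finset.sum_nonneg fun b' _ => by positivity) (mem_univ a)
      have h3 := h1.trans hgood
      rwa [div_le_iff₀ hcpos] at h3
    have hbox : ∀ X ∈ S, ∀ Y ∈ S, ∀ i j, |((X i j - Y i j : ℤ) : ℝ)| ≤ (K : ℝ) := by
      intro X hX Y hY i j
      have h1 := (win_mem_box.mp hX).1 i j
      have h2 := (win_mem_box.mp hY).1 i j
      have h3 : A i j + K * h i j ≤ wLo A K h i j := le_max_right _ _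
      have h4 : wHi A K h i j = A i j + K * h i j + K - 1 := rfl
      have h5 : |X i j - Y i j| ≤ (K : ℤ) := by
        rw [abs_le]
        constructor <;> linarith [h1.1, h1.2, h2.1, h2.2]
      have h6 := (Int.cast_le (R := ℝ)).2 h5
      simpa using h6
    have hmain := win_top_general g hM0 hMslc t s (win_wLo_nonneg A K h) hρ hB.le (K : ℝ)
      (Nat.cast_nonneg K) hbox
    have h5 : 0 ≤ M * (winRho r c A K h / B) := mul_nonneg hM0 (div_nonneg hρnn hB.le)
    linarith
  · have h1 : vr S g ≤ M := by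
      refine vr_le_of_sq_le ?_ hM0
      intro X hX
      exact hMslc _ _ (win_wLo_nonneg A K h) X hX
    have h2 : 1 ≤ winRho r c A K h / B := by
      rw [le_div_iff₀ hB]
      linarith [not_le.mp hgood]
    have h3 : M ≤ M * (winRho r c A K h / B) := le_mul_of_one_le_right hM0 h2
    have h4 : 0 ≤ 2 ^ (s + t + 1) * (m : ℝ) * B * QQ g (wLo A K h) (wHi A K h) r c := by positivity
    have h5 := mul_nonneg hM0 hE0
    linarith

/-- The average of the surplus ratios. -/
theorem win_sum_rho (r : Fin m → ℤ) (c : Fin n → ℤ) (hr : 0 ≤ r) (hc : 0 ≤ c) (A : Mat m n) {K : ℕ}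
    (hK : 1 ≤ K) (I : Finset (Mat m n)) (hI : ∀ h ∈ I, (slc (wLo A K h) (wHi A K h) r c).Nonempty) :
    ∑ h ∈ I, ((slc (wLo A K h) (wHi A K h) r c).card : ℝ) * winRho r c A K h ≤
      (m : ℝ) * n * (((m : ℝ) * n + 1) * ((Om r c).card : ℝ)) := by
  classical
  have h1 : ∀ h ∈ I, ((slc (wLo A K h) (wHi A K h) r c).card : ℝ) * winRho r c A K h =
      ∑ a, ∑ b, ((nearP (wLo A K h) (wHi A K h) r c a b).card : ℝ) := by
    intro h hh
    have hcpos : (0 : ℝ) < ((slc (wLo A K h) (wHi A K h) r c).card : ℝ) := by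
      exact_mod_cast card_pos.2 (hI h hh)
    unfold winRho
    simp only [Finset.mul_sum]
    refine Finset.sum_congr rfl fun a _ => Finset.sum_congr rfl fun b _ => ?_
    field_simp
  rw [Finset.sum_congr rfl h1, Finset.sum_comm]
  have h2 : ∀ a ∈ (Finset.univ : Finset (Fin m)),
      ∑ h ∈ I, ∑ b, ((nearP (wLo A K h) (wHi A K h) r c a b).card : ℝ) ≤
        (n : ℝ) * (((m : ℝ) * n + 1) * ((Om r c).card : ℝ)) := by
    intro a _
    rw [Finset.sum_comm]
    have h3 : ∀ b ∈ (Finset.univ : Finset (Fin n)),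
        ∑ h ∈ I, ((nearP (wLo A K h) (wHi A K h) r c a b).card : ℝ) ≤
          ((m : ℝ) * n + 1) * ((Om r c).card : ℝ) := by
      intro b _
      have := win_sum_nearP_le r c hr hc A hK I a b
      have h' : ((∑ h ∈ I, (nearP (wLo A K h) (wHi A K h) r c a b).card : ℕ) : ℝ) ≤
          (((m * n + 1) * (Om r c).card : ℕ) : ℝ) := by exact_mod_cast this
      push_cast at h'
      exact h'
    calc _ ≤ ∑ _b : Fin n, ((m : ℝ) * n + 1) * ((Om r c).card : ℝ) := Finset.sum_le_sum h3
      _ = _ := by simp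
  calc _ ≤ ∑ _a : Fin m, (n : ℝ) * (((m : ℝ) * n + 1) * ((Om r c).card : ℝ)) := Finset.sum_le_sum h2
    _ = _ := by simp; ring

/-- The one scale inequality: conditional variances on the box slices of a grid of side `K`. -/
theorem window (r : Fin m → ℤ) (c : Fin n → ℤ) (hr : 0 ≤ r) (hc : 0 ≤ c) (A : Mat m n) {K : ℕ}
    (hK : 1 ≤ K) (g : Mat m n → ℝ) {M : ℝ} (hM0 : 0 ≤ M) (hM : ∀ X ∈ Om r c, g X ^ 2 ≤ M) (s t : ℕ)
    {B : ℝ} (hB : 0 < B) :
    ∑ h ∈ (Om r c).image (hcls A K),
        ((((Om r c).filter fun X => hcls A K X = h).card : ℝ) / ((Om r c).card : ℝ)) *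
          vr ((Om r c).filter fun X => hcls A K X = h) g ≤
      2 ^ (s + t + 1) * (m : ℝ) * B * (Dir g r c / ((Om r c).card : ℝ)) +
        M * ((m : ℝ) * n * ((m : ℝ) * n + 1) / B + 2 ^ (s + 1) * (3 / 4 * ((m : ℝ) * n) ^ 2 / 2 ^ t) +
          2 * (2 / 3) ^ s * ((1 / 3) * ((m : ℝ) * n * (K : ℝ) ^ 4))) := by
  classical
  have hDir0 : 0 ≤ Dir g r c := by
    unfold Dir
    refine Finset.sum_nonneg fun Y _ => Finset.sum_nonneg fun a _ => Finset.sum_nonneg fun i _ =>
      Finset.sum_nonneg fun b _ => Finset.sum_nonneg fun b' _ => ?_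
    split_ifs
    · positivity
    · exact le_rfl
  rcases (Om r c).eq_empty_or_nonempty with hemp | hne
  · -- no tables
    rw [hemp]
    simp only [image_empty, sum_empty, card_empty, Nat.cast_zero, div_zero, mul_zero, zero_add]
    exact mul_nonneg hM0 (by positivity)
  have hFpos : (0 : ℝ) < ((Om r c).card : ℝ) := by exact_mod_cast card_pos.2 hne
  set I := (Om r c).image (hcls A K) with hI
  have hIne : ∀ h ∈ I, (slc (wLo A K h) (wHi A K h) r c).Nonempty := by
    intro h hh
    obtain ⟨X, hX, rfl⟩ := mem_image.mp hh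
    rw [← win_class_eq r c A hK]
    exact ⟨X, mem_filter.mpr ⟨hX, rfl⟩⟩
  have hw1 : ∑ h ∈ I, ((slc (wLo A K h) (wHi A K h) r c).card : ℝ) = ((Om r c).card : ℝ) := by
    have h1 : ∑ h ∈ I, ((Om r c).filter fun X => hcls A K X = h).card = (Om r c).card := by
      have := Finset.card_eq_sum_card_image (hcls A K) (Om r c)
      exact this.symm
    have h2 : ∀ h, ((Om r c).filter fun X => hcls A K X = h).card =
        (slc (wLo A K h) (wHi A K h) r c).card := fun h => by rw [win_class_eq r c A hK]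
    simp only [h2] at h1
    exact_mod_cast h1
  set E : ℝ := 2 ^ (s + 1) * (3 / 4 * ((m : ℝ) * n) ^ 2 / 2 ^ t) +
      2 * (2 / 3) ^ s * ((1 / 3) * ((m : ℝ) * n * (K : ℝ) ^ 4)) with hE
  -- termwise
  have hterm : ∀ h ∈ I,
      ((((Om r c).filter fun X => hcls A K X = h).card : ℝ) / ((Om r c).card : ℝ)) *
          vr ((Om r c).filter fun X => hcls A K X = h) g ≤
      (2 ^ (s + t + 1) * (m : ℝ) * B * DD g (wLo A K h) (wHi A K h) r c +
        M * E * ((slc (wLo A K h) (wHi A K h) r c).card : ℝ) +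
        M / B * (((slc (wLo A K h) (wHi A K h) r c).card : ℝ) * winRho r c A K h)) /
          ((Om r c).card : ℝ) := by
    intro h hh
    rw [win_class_eq r c A hK h]
    have hcpos : (0 : ℝ) < ((slc (wLo A K h) (wHi A K h) r c).card : ℝ) := by
      exact_mod_cast card_pos.2 (hIne h hh)
    have hone := win_one r c A g hM0 hM s t hB h (hIne h hh)
    rw [div_mul_eq_mul_div]
    refine div_le_div_of_nonneg_right ?_ hFpos.le
    rw [← hE] at hone
    have := mul_le_mul_of_nonneg_left hone hcpos.le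
    have hq : ((slc (wLo A K h) (wHi A K h) r c).card : ℝ) * QQ g (wLo A K h) (wHi A K h) r c =
        DD g (wLo A K h) (wHi A K h) r c := by
      unfold QQ
      field_simp
    calc _ ≤ _ := this
      _ = 2 ^ (s + t + 1) * (m : ℝ) * B * (((slc (wLo A K h) (wHi A K h) r c).card : ℝ) *
            QQ g (wLo A K h) (wHi A K h) r c) +
          M * E * ((slc (wLo A K h) (wHi A K h) r c).card : ℝ) +
          M / B * (((slc (wLo A K h) (wHi A K h) r c).card : ℝ) * winRho r c A K h) := by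
        ring
      _ = _ := by rw [hq]
  refine (Finset.sum_le_sum hterm).trans ?_
  rw [← Finset.sum_div, div_le_iff₀ hFpos, Finset.sum_add_distrib, Finset.sum_add_distrib,
    ← Finset.mul_sum, ← Finset.mul_sum, ← Finset.mul_sum, hw1]
  have hDD := win_sum_DD_le g r c A hK I
  have hρ := win_sum_rho r c hr hc A hK I hIne
  have h1 : 2 ^ (s + t + 1) * (m : ℝ) * B * ∑ h ∈ I, DD g (wLo A K h) (wHi A K h) r c ≤
      2 ^ (s + t + 1) * (m : ℝ) * B * Dir g r c :=
    mul_le_mul_of_nonneg_left hDD (by positivity)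
  have h2 : M / B * ∑ h ∈ I, ((slc (wLo A K h) (wHi A K h) r c).card : ℝ) * winRho r c A K h ≤
      M / B * ((m : ℝ) * n * (((m : ℝ) * n + 1) * ((Om r c).card : ℝ))) :=
    mul_le_mul_of_nonneg_left hρ (by positivity)
  have e1 : (2 ^ (s + t + 1) * (m : ℝ) * B * (Dir g r c / ((Om r c).card : ℝ)) +
      M * ((m : ℝ) * n * ((m : ℝ) * n + 1) / B + E)) * ((Om r c).card : ℝ) =
      2 ^ (s + t + 1) * (m : ℝ) * B * Dir g r c + M * E * ((Om r c).card : ℝ) +
        M / B * ((m : ℝ) * n * (((m : ℝ) * n + 1) * ((Om r c).card : ℝ))) := by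
    field_simp
    ring
  have e2 : (m : ℝ) * n * ((m : ℝ) * n + 1) / B +
      2 ^ (s + 1) * (3 / 4 * ((m : ℝ) * n) ^ 2 / 2 ^ t) +
        2 * (2 / 3) ^ s * ((1 / 3) * ((m : ℝ) * n * (K : ℝ) ^ 4)) =
      (m : ℝ) * n * ((m : ℝ) * n + 1) / B + E := by
    rw [hE]; ring
  rw [e2, e1]
  linarith

theorem win_box_eq (K : ℕ) (σ : Mat m n) : boxIdx K σ = hcls (-σ) K := by
  funext X i j
  show (X i j + σ i j) / (K : ℤ) = (X i j - (-σ) i j) / (K : ℤ)
  congr 1
  simp

/-- The output of the one scale part in the form used by the recursion over the scales. -/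
theorem window_all (m n : ℕ) {K : ℕ} (hK : 0 < K) (s t : ℕ) {ρ : ℝ} (hρ : 0 < ρ) :
    WindowAll m n K (2 ^ (s + t + 1) * (m : ℝ) * ρ)
      (2 ^ (s + 1) * (3 / 4 * ((m : ℝ) * n) ^ 2 / 2 ^ t) +
        2 * (2 / 3) ^ s * ((1 / 3) * ((m : ℝ) * n * (K : ℝ) ^ 4)) +
        (m : ℝ) * n * ((m : ℝ) * n + 1) / ρ) := by
  intro r c hr hc g M hM0 hM σ
  rw [win_box_eq K σ]
  refine (window r c hr hc (-σ) hK g hM0 hM s t hρ).trans (le_of_eq ?_)
  ring

end

end Vale.Agent.Lib.P328B
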